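import Vale.Agent.P328.Deep.CompD

/-!
# P328 : module E, independent bits
-/

namespace P328.Deep

open Finset Exp Cmd

variable {m n : ℕ} {x : ℕ} {s : St}

namespace E

section Resample

variable {k : ℕ} {V : Type} [Fintype V] [Nonempty V]

/-- resampling a coordinate does not change the uniform law -/
theorem resample (i : Fin k) :
    (PMF.uniformOfFintype (Fin k → V)).bind (fun β => (PMF.uniformOfFintype V).map
      fun v => Function.update β i v) = PMF.uniformOfFintype (Fin k → V) := by
  classical
  ext γ
  have h1 : ∀ β : Fin k → V, ((PMF.uniformOfFintype V).map fun v => Function.update β i v) γ =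
      if ∃ v, Function.update γ i v = β then ((Fintype.card V : ENNReal))⁻¹ else 0 := by
    intro β
    rw [PMF.map_apply]
    by_cases h : ∃ v, Function.update γ i v = β
    · obtain ⟨w, hw⟩ := h
      rw [if_pos ⟨w, hw⟩, tsum_eq_single (γ i), if_pos, PMF.uniformOfFintype_apply]
      · rw [← hw, Function.update_idem, Function.update_eq_self]
      · intro v hv
        rw [if_neg]
        intro h'
        apply hv
        have := congrFun h' i
        rw [Function.update_self] at this
        exact this.symm
    · rw [if_neg h]
      refine ENNReal.tsum_eq_zero.mpr fun v => if_neg fun h' => h ⟨β i, ?_⟩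
      rw [h', Function.update_idem, Function.update_eq_self]
  rw [PMF.bind_apply, tsum_fintype, PMF.uniformOfFintype_apply]
  simp_rw [h1, PMF.uniformOfFintype_apply]
  rw [← Finset.mul_sum, ← Finset.sum_filter, Finset.sum_const, nsmul_eq_mul]
  have h2 : (Finset.univ.filter fun β : Fin k → V => ∃ v, Function.update γ i v = β).card =
      Fintype.card V := by
    have h3 : (Finset.univ.filter fun β : Fin k → V => ∃ v, Function.update γ i v = β) =
        Finset.univ.image fun v => Function.update γ i v := by
      ext β
      simp
    rw [h3, Finset.card_image_of_injective _ (Function.update_injective γ i), Finset.card_univ]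
  rw [h2, ENNReal.mul_inv_cancel, mul_one]
  · simp
  · exact ENNReal.natCast_ne_top _

/-- fill the coordinates one by one -/
noncomputable def fill (k : ℕ) (V : Type) [Fintype V] [Nonempty V] (t : ℕ) (β : Fin k → V) :
    PMF (Fin k → V) :=
  if h : t < k then (PMF.uniformOfFintype V).map fun v => Function.update β ⟨t, h⟩ v
  else PMF.pure β

theorem loop_fill (β₀ : Fin k → V) {t : ℕ} (ht : t ≤ k) :
    loop (fill k V) t β₀ = (PMF.uniformOfFintype (Fin k → V)).map
      fun β (i : Fin k) => if (i : ℕ) < t then β i else β₀ i := by
  classical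
  induction t with
  | zero =>
    have h1 : (fun (β : Fin k → V) (i : Fin k) => if (i : ℕ) < 0 then β i else β₀ i) =
        fun _ => β₀ := by
      funext β i
      rw [if_neg (Nat.not_lt_zero _)]
    rw [h1, loop]
    exact (PMF.map_const _ _).symm
  | succ t ih =>
    rw [loop, ih (by omega), PMF.bind_map]
    conv_rhs => rw [← resample (V := V) ⟨t, by omega⟩, PMF.map_bind]
    congr 1
    funext β
    rw [Function.comp_apply, fill, dif_pos (by omega : t < k), PMF.map_comp]
    congr 1
    funext v
    funext i
    rw [Function.comp_apply]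
    by_cases hi : i = ⟨t, by omega⟩
    · rw [hi, Function.update_self, if_pos (by simp), Function.update_self]
    · rw [Function.update_of_ne hi, Function.update_of_ne hi]
      have : (i : ℕ) ≠ t := fun h => hi (Fin.ext h)
      refine if_congr ?_ rfl rfl
      omega

theorem loop_fill_all (β₀ : Fin k → V) :
    loop (fill k V) k β₀ = PMF.uniformOfFintype (Fin k → V) := by
  rw [loop_fill β₀ le_rfl]
  have h1 : (fun (β : Fin k → V) (i : Fin k) => if (i : ℕ) < k then β i else β₀ i) = id := by
    funext β i
    rw [if_pos i.isLt]
    rfl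
  rw [h1, PMF.map_id]

end Resample

/-- the uniform law on a product -/
theorem uniform_uncurry : (PMF.uniformOfFintype (Fin m → Fin n → Bool)).map
    (fun β p => β p.1 p.2) = PMF.uniformOfFintype (Fin m × Fin n → Bool) := by
  classical
  ext γ
  rw [PMF.map_apply, tsum_eq_single (fun i j => γ (i, j)), if_pos rfl,
    PMF.uniformOfFintype_apply, PMF.uniformOfFintype_apply]
  · congr 2
    exact Fintype.card_congr (Equiv.curry (Fin m) (Fin n) Bool).symm
  · intro β hβ
    rw [if_neg]
    intro h
    apply hβ
    rw [h]

end E

open E in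
theorem imp_bits (hd : Dim m n s) (hm : m ≤ x) (hn : n ≤ x) :
    Imp x bitsC s (law (bits (m := m) (n := n)))
      (fun β s' => ∀ (i : Fin m) (j : Fin n), s' sB (i : ℕ) (j : ℕ) = bv (β (i, j))) := by
  have e1 : law (bits (m := m) (n := n)) =
      (loop (fill m (Fin n → Bool)) m (fun _ _ => false)).map fun β p => β p.1 p.2 := by
    rw [loop_fill_all, uniform_uncurry]
    unfold law bits
    rw [PMF.map_comp]
    exact PMF.map_id _
  rw [e1]
  have main := imp_for (x := x) (s := s) (i := k1) (k := sc gM) (N := m)
    (c := forL k2 (sc gN) (rnd sB (sc k1) (sc k2) (num 2)))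
    (P := fill m (Fin n → Bool)) (a := fun _ _ => false)
    (R := fun t β s' => Dim m n s' ∧ ∀ (i : Fin m) (j : Fin n), (i : ℕ) < t →
      s' sB (i : ℕ) (j : ℕ) = bv (β i j)) ?_ hm ⟨trivial, trivial⟩ ?_ (by decide) ?_
  · unfold bitsC
    exact main.map _ fun β _ s' h i j => h.1.2 i j i.isLt
  · change (upd s k1 0 0 0 gM 0 0).toNat = m
    rw [upd_ne (by decide), hd.1]
    simp
  · exact ⟨hd.agree (upd_ne (by decide) _ _ _) (upd_ne (by decide) _ _ _),
      fun i j h => absurd h (Nat.not_lt_zero _)⟩
  · intro t ht β _ s' hR hti
    rw [fill, dif_pos ht, ← loop_fill_all (fun _ => false)]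
    have inner := imp_for (x := x) (s := s') (i := k2) (k := sc gN) (N := n)
      (c := rnd sB (sc k1) (sc k2) (num 2))
      (P := fill n Bool) (a := fun _ => false)
      (R := fun u w s'' => Dim m n s'' ∧ s'' k1 0 0 = t ∧
        (∀ (i : Fin m) (j : Fin n), (i : ℕ) < t → s'' sB (i : ℕ) (j : ℕ) = bv (β i j)) ∧
        ∀ j : Fin n, (j : ℕ) < u → s'' sB t (j : ℕ) = bv (w j))
      ?_ hn ⟨trivial, trivial⟩ ?_ (by decide) ?_
    · refine inner.map _ fun w _ s'' h => ?_
      obtain ⟨⟨h1, h2, h3, h4⟩, _⟩ := h
      refine ⟨h1.agree (upd_ne (by decide) _ _ _) (upd_ne (by decide) _ _ _),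
        fun i j hi => ?_⟩
      rw [upd_ne (by decide)]
      by_cases hit : i = ⟨t, ht⟩
      · rw [hit, Function.update_self]
        exact h4 j j.isLt
      · rw [Function.update_of_ne hit]
        have : (i : ℕ) ≠ t := fun h => hit (Fin.ext h)
        exact h3 i j (by omega)
    · change (upd s' k2 0 0 0 gN 0 0).toNat = n
      rw [upd_ne (by decide), hR.1.2]
      simp
    · refine ⟨hR.1.agree (upd_ne (by decide) _ _ _) (upd_ne (by decide) _ _ _), ?_, ?_,
        fun j h => absurd h (Nat.not_lt_zero _)⟩
      · rw [upd_ne (by decide)]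
        exact hti
      · intro i j hi
        rw [upd_ne (by decide)]
        exact hR.2 i j hi
    · intro u hu w _ s'' hR' huj
      obtain ⟨h1, h2, h3, h4⟩ := hR'
      rw [fill, dif_pos hu]
      refine (imp_rnd_bool (v := sB) (i := sc k1) (j := sc k2) (k := num 2)
        (R := fun c s₃ => s₃ = upd s'' sB t u (bval c)) rfl (Exp.fits rfl)
        (Exp.fits rfl) trivial fun c => ?_).map _ fun c _ s₃ hs₃ => ?_
      · have e3 : (sc k1).val s'' = t := h2
        have e4 : (sc k2).val s'' = u := huj
        rw [e3, e4]
      · subst hs₃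
        refine ⟨?_, ?_, ?_, ?_⟩
        · exact (h1.agree (upd_ne (by decide) _ _ _) (upd_ne (by decide) _ _ _)).agree
            (upd_ne (by decide) _ _ _) (upd_ne (by decide) _ _ _)
        · rw [upd_ne (by decide), upd_ne (by decide)]
          exact h2
        · intro i j hi
          rw [upd_ne (by decide)]
          rw [upd_cell (by omega)]
          exact h3 i j hi
        · intro j hj
          rw [upd_ne (by decide)]
          by_cases hju : j = ⟨u, hu⟩
          · rw [hju, Function.update_self]
            change upd s'' sB t u (bval c) sB t u = _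
            rw [upd_same]
            rfl
          · rw [Function.update_of_ne hju]
            have hne : (j : ℕ) ≠ u := fun h => hju (Fin.ext h)
            rw [upd_cell (by omega)]
            exact h4 j (by omega)

end P328.Deep
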