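import Vale.Agent.P328.Deep.CompD
import Vale.Agent.P328.Kappa

/-!
# P328 : module C, the reduced margins
-/

namespace P328.Deep

open Finset Exp Cmd

variable {m n : ℕ} {x : ℕ} {s : St}

namespace C

/-- a loop is a fold -/
theorem tri_fold {A : Type} {k i g : ℕ} {c : Cmd} {P : A → St → Prop} {f : A → Fin k → A} {a : A}
    (hgi : g ≠ i) (hg : s g 0 0 = k) (hk : k ≤ x) (hi : i ∉ c.wr) (h0 : P a s)
    (hP : ∀ (a' : A) (s' : St) (v : ℤ), P a' s' → P a' (upd s' i 0 0 v))
    (hs : ∀ (t : Fin k) (a' : A) (s' : St), P a' s' → s' i 0 0 = (t : ℕ) →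
      Tri x c s' (P (f a' t))) :
    Tri x (forL i (sc g) c) s (P ((List.finRange k).foldl f a)) := by
  have main := tri_for (x := x) (s := s) (i := i) (k := sc g) (N := k) (c := c)
    (I := fun t s' => P (((List.finRange k).take t).foldl f a) s')
    ?_ hk ⟨trivial, trivial⟩ ?_ hi ?_
  · refine main.mono fun s' h => ?_
    have e : (List.finRange k).take k = List.finRange k :=
      List.take_of_length_le (by rw [List.length_finRange])
    rw [e] at h
    exact h.1
  · change (upd s i 0 0 0 g 0 0).toNat = k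
    rw [upd_ne hgi, hg]
    simp
  · rw [List.take_zero]
    exact hP _ _ _ h0
  · intro t ht s' hI hti
    have hl : t < (List.finRange k).length := by
      rw [List.length_finRange]
      exact ht
    have e : ((List.finRange k).take (t + 1)).foldl f a =
        f (((List.finRange k).take t).foldl f a) ⟨t, ht⟩ := by
      rw [List.take_succ_eq_append_getElem hl, List.foldl_append, List.getElem_finRange]
      rfl
    refine (hs ⟨t, ht⟩ _ s' hI hti).mono fun s'' h => ?_
    rw [e]
    exact hP _ _ _ h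

/-- the invariant of the loops -/
def Inv (K2 : ℤ) (b : Mg m n) (s : St) : Prop :=
  Dim m n s ∧ s sK2 0 0 = K2 ∧ IsR s uR b.1 ∧ IsR s uC b.2

theorem Inv.agree {K2 : ℤ} {b : Mg m n} {s s' : St} (h : Inv K2 b s) {W : List ℕ}
    (hW : Agree W s s') (hd : ∀ y ∈ [gM, gN, sK2, uR, uC], y ∉ W) : Inv K2 b s' :=
  ⟨h.1.agree (hW _ (hd gM (by decide))) (hW _ (hd gN (by decide))),
    by rw [hW _ (hd sK2 (by decide))]; exact h.2.1, h.2.2.1.agree (hW _ (hd uR (by decide))),
    h.2.2.2.agree (hW _ (hd uC (by decide)))⟩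

theorem tri_capStep {K2 : ℤ} {b : Mg m n} {i : Fin m} {j : Fin n} (h : Inv K2 b s)
    (hi : s k1 0 0 = (i : ℕ)) (hj : s k2 0 0 = (j : ℕ)) :
    Tri x capStepC s (Inv K2 (capStep K2 b (i, j))) := by
  have e1 : (a1 uR k1).val s = b.1 i := F.val_a1 h.2.2.1 hi
  have e2 : (a1 uC k2).val s = b.2 j := F.val_a1 h.2.2.2 hj
  have e3 : (add (sc sK2) (num 1)).val s = K2 + 1 := by
    change s sK2 0 0 + 1 = _
    rw [h.2.1]
  unfold capStepC
  refine tri_ite (Exp.fits rfl) (Exp.fits rfl) (fun h1 => ?_) (fun h1 => ?_)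
  · rw [e3, e1] at h1
    refine tri_ite (Exp.fits rfl) (Exp.fits rfl) (fun h2 => ?_) (fun h2 => ?_)
    · rw [e3, e2] at h2
      have hc : K2 < b.1 (i, j).1 ∧ K2 < b.2 (i, j).2 := ⟨by simp only; omega, by simp only; omega⟩
      have e4 : capStep K2 b (i, j) = b - (min (b.1 i) (b.2 j) - K2) • mar (one i j) := by
        unfold capStep
        rw [if_pos hc]
      rw [e4]
      set d : ℤ := min (b.1 i) (b.2 j) - K2 with hd
      refine Tri.seq (Q := fun s' => Agree [sX] s s' ∧ s' sX 0 0 = d)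
        (tri_put trivial trivial (Exp.fits rfl) ⟨(Agree.refl _ s).upd (by decide) _ _ _, ?_⟩) ?_
      · change upd s sX 0 0 _ sX 0 0 = d
        rw [upd_same]
        change (if (a1 uR k1).val s ≤ (a1 uC k2).val s then (a1 uR k1).val s else
          (a1 uC k2).val s) - s sK2 0 0 = d
        rw [e1, e2, h.2.1, hd, min_def]
      intro s₁ h₁
      have I₁ : Inv K2 b s₁ := h.agree h₁.1 (by decide)
      have i₁ : s₁ k1 0 0 = (i : ℕ) := by rw [h₁.1 k1 (by decide)]; exact hi
      have j₁ : s₁ k2 0 0 = (j : ℕ) := by rw [h₁.1 k2 (by decide)]; exact hj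
      refine Tri.seq (Q := fun s' => Agree [uR] s₁ s' ∧
        IsR s' uR (b - d • mar (one i j)).1)
        (tri_put (Exp.fits rfl) trivial (Exp.fits rfl)
          ⟨(Agree.refl _ s₁).upd (by decide) _ _ _, ?_⟩) ?_
      · intro i'
        have e5 : (sub (a1 uR k1) (sc sX)).val s₁ = b.1 i - d := by
          change (a1 uR k1).val s₁ - s₁ sX 0 0 = _
          rw [F.val_a1 I₁.2.2.1 i₁, h₁.2]
        have e6 : (sc k1).val s₁ = (i : ℕ) := i₁
        have e7 : (b - d • mar (one i j)).1 i' = b.1 i' - d * if i' = i then 1 else 0 := by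
          rw [← mar_one_fst i j i']
          rfl
        rw [e5, e6, e7]
        change upd s₁ uR (i : ℕ) 0 _ uR (i' : ℕ) 0 = _
        by_cases hii : i' = i
        · rw [hii, upd_same, if_pos rfl, mul_one]
        · rw [upd_cell fun h' => hii (Fin.ext (by exact_mod_cast h'.1)), if_neg hii, mul_zero,
            sub_zero]
          exact I₁.2.2.1 i'
      intro s₂ h₂
      have j₂ : s₂ k2 0 0 = (j : ℕ) := by rw [h₂.1 k2 (by decide)]; exact j₁
      have d₂ : Dim m n s₂ := I₁.1.agree (h₂.1 gM (by decide)) (h₂.1 gN (by decide))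
      have K₂ : s₂ sK2 0 0 = K2 := by rw [h₂.1 sK2 (by decide)]; exact I₁.2.1
      have x₂ : s₂ sX 0 0 = d := by rw [h₂.1 sX (by decide)]; exact h₁.2
      have c₂ : IsR s₂ uC b.2 := I₁.2.2.2.agree (h₂.1 uC (by decide))
      refine tri_put (Exp.fits rfl) trivial (Exp.fits rfl) ?_
      have e5 : (sub (a1 uC k2) (sc sX)).val s₂ = b.2 j - d := by
        change (a1 uC k2).val s₂ - s₂ sX 0 0 = _
        rw [F.val_a1 c₂ j₂, x₂]
      have e6 : (sc k2).val s₂ = (j : ℕ) := j₂
      rw [e5, e6]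
      refine ⟨d₂.agree (upd_ne (by decide) _ _ _) (upd_ne (by decide) _ _ _), ?_,
        h₂.2.agree (upd_ne (by decide) _ _ _), fun j' => ?_⟩
      · rw [upd_ne (by decide)]
        exact K₂
      · have e7 : (b - d • mar (one i j)).2 j' = b.2 j' - d * if j' = j then 1 else 0 := by
          rw [← mar_one_snd i j j']
          rfl
        rw [e7]
        change upd s₂ uC (j : ℕ) 0 _ uC (j' : ℕ) 0 = _
        by_cases hjj : j' = j
        · rw [hjj, upd_same, if_pos rfl, mul_one]
        · rw [upd_cell fun h' => hjj (Fin.ext (by exact_mod_cast h'.1)), if_neg hjj, mul_zero,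
            sub_zero]
          exact c₂ j'
    · rw [e3, e2] at h2
      have hc : ¬ (K2 < b.1 (i, j).1 ∧ K2 < b.2 (i, j).2) := fun h' => h2 (by
        have := h'.2
        simp only at this
        omega)
      unfold capStep
      rw [if_neg hc]
      exact tri_skip h
  · rw [e3, e1] at h1
    have hc : ¬ (K2 < b.1 (i, j).1 ∧ K2 < b.2 (i, j).2) := fun h' => h1 (by
      have := h'.1
      simp only at this
      omega)
    unfold capStep
    rw [if_neg hc]
    exact tri_skip h

end C

open C in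
theorem tri_cap {b : Mg m n} {K2 : ℤ} (hd : Dim m n s) (hm : m ≤ x) (hn : n ≤ x)
    (hK : s sK2 0 0 = K2) (hr : IsR s uR b.1) (hc : IsR s uC b.2) :
    Tri x capC s (fun s' => IsR s' uR (cap K2 b).1 ∧ IsR s' uC (cap K2 b).2) := by
  have e : cap K2 b = (List.finRange m).foldl (fun c i =>
      (List.finRange n).foldl (fun c j => capStep K2 c (i, j)) c) b := by
    change (List.foldl (capStep K2) b (List.flatMap (fun a => List.map (Prod.mk a)
      (List.finRange n)) (List.finRange m))) = _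
    rw [List.foldl_flatMap]
    simp only [List.foldl_map]
  rw [e]
  unfold capC
  have inv_upd : ∀ (a' : Mg m n) (s' : St) (y : ℕ) (v : ℤ), y ∈ [k1, k2] → Inv K2 a' s' →
      Inv K2 a' (upd s' y 0 0 v) := fun a' s' y v hy h =>
    h.agree (W := [k1, k2]) ((Agree.refl _ s').upd hy _ _ _) (by decide)
  refine (tri_fold (P := Inv K2) (by decide) hd.1 hm (by decide) ⟨hd, hK, hr, hc⟩
    (fun a' s' v h => inv_upd a' s' k1 v (by decide) h) ?_).mono fun s' h => h.2.2
  intro i b' s' h hi
  refine (tri_fold (P := fun a' s' => Inv K2 a' s' ∧ s' k1 0 0 = (i : ℕ)) (by decide) h.1.2 hn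
    (by decide) ⟨h, hi⟩ (fun a' s' v h' => ⟨inv_upd a' s' k2 v (by decide) h'.1, ?_⟩) ?_).mono
    fun s' h' => h'.1
  · rw [upd_ne (by decide)]
    exact h'.2
  · intro j b'' s'' h'' hj
    refine (tri_capStep h''.1 h''.2 hj).frame.mono fun s₃ h₃ => ⟨h₃.1, ?_⟩
    rw [h₃.2 k1 (by decide)]
    exact h''.2

end P328.Deep
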