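import Vale.Agent.P328.Om

/-!
# P328 : the last cell of the list of cells
-/

namespace P328.Deep

open Finset

variable {m n : ℕ}

theorem ok_sub_one {b : Mg m n} (hb : Ok b) {i : Fin m} {j : Fin n} (hi : 1 ≤ b.1 i)
    (hj : 1 ≤ b.2 j) : Ok (b - mar (one i j)) := by
  refine ⟨fun a => ?_, fun a => ?_, ?_⟩
  · have h1 : (b - mar (one i j)).1 a = b.1 a - (mar (one i j)).1 a := rfl
    rw [h1, mar_one_fst]
    have h2 := hb.1 a
    split_ifs with h
    · rw [h]
      omega
    · omega
  · have h1 : (b - mar (one i j)).2 a = b.2 a - (mar (one i j)).2 a := rfl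
    rw [h1, mar_one_snd]
    have h2 := hb.2.1 a
    split_ifs with h
    · rw [h]
      omega
    · omega
  · have h1 : ∀ a, (b - mar (one i j)).1 a = b.1 a - (mar (one i j)).1 a := fun _ => rfl
    have h2 : ∀ a, (b - mar (one i j)).2 a = b.2 a - (mar (one i j)).2 a := fun _ => rfl
    simp only [h1, h2, mar_one_fst, mar_one_snd, Finset.sum_sub_distrib, hb.2.2]
    simp

theorem rows_last {k : ℕ} {f : Fin k → ℤ} {i : Fin k} (hi : 1 ≤ f i)
    (hi' : ∀ i', i < i' → f i' = 0) (g : Fin k → ℤ) (hg : ∀ a, g a = f a - if a = i then 1 else 0) :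
    ((List.finRange k).flatMap fun a => List.replicate (f a).toNat a) =
      ((List.finRange k).flatMap fun a => List.replicate (g a).toNat a) ++ [i] := by
  obtain ⟨l1, l2, hl⟩ := List.append_of_mem (List.mem_finRange i)
  have hp : (List.finRange k).Pairwise (· < ·) := List.pairwise_lt_finRange k
  rw [hl] at hp ⊢
  rw [List.pairwise_append, List.pairwise_cons] at hp
  have h1 : ∀ a ∈ l1, a < i := fun a ha => hp.2.2 a ha i (List.mem_cons_self)
  have h2 : ∀ a ∈ l2, i < a := fun a ha => hp.2.1.1 a ha
  have e1 : (l1.flatMap fun a => List.replicate (f a).toNat a) =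
      l1.flatMap fun a => List.replicate (g a).toNat a := by
    refine List.flatMap_congr fun a ha => ?_
    rw [hg a, if_neg (ne_of_lt (h1 a ha)), sub_zero]
  have e2 : (l2.flatMap fun a => List.replicate (f a).toNat a) = [] := by
    rw [List.flatMap_eq_nil_iff]
    intro a ha
    rw [hi' a (h2 a ha)]
    rfl
  have e3 : (l2.flatMap fun a => List.replicate (g a).toNat a) = [] := by
    rw [List.flatMap_eq_nil_iff]
    intro a ha
    rw [hg a, hi' a (h2 a ha), if_neg (ne_of_gt (h2 a ha))]
    rfl
  have e4 : List.replicate (f i).toNat i = List.replicate (g i).toNat i ++ [i] := by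
    have h3 : (f i).toNat = (g i).toNat + 1 := by
      rw [hg i, if_pos rfl]
      omega
    rw [h3, List.replicate_succ']
  rw [List.flatMap_append, List.flatMap_append, List.flatMap_cons, List.flatMap_cons, e1, e2, e3,
    e4, List.append_nil, List.append_nil, List.append_assoc]

theorem cells_last {b : Mg m n} (hb : Ok b) {i : Fin m} {j : Fin n}
    (hi : 1 ≤ b.1 i) (hi' : ∀ i', i < i' → b.1 i' = 0)
    (hj : 1 ≤ b.2 j) (hj' : ∀ j', j < j' → b.2 j' = 0) :
    cells b = cells (b - mar (one i j)) ++ [(i, j)] := by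
  have hb' := ok_sub_one hb hi hj
  have h1 := length_rows (b - mar (one i j)).1 hb'.1
  have h2 := length_rows (b - mar (one i j)).2 hb'.2.1
  have h3 := hb'.2.2
  have r1 := rows_last hi hi' (b - mar (one i j)).1 fun a => by
    have : (b - mar (one i j)).1 a = b.1 a - (mar (one i j)).1 a := rfl
    rw [this, mar_one_fst]
  have r2 := rows_last hj hj' (b - mar (one i j)).2 fun a => by
    have : (b - mar (one i j)).2 a = b.2 a - (mar (one i j)).2 a := rfl
    rw [this, mar_one_snd]
  unfold cells
  rw [r1, r2, List.zip_append (by omega)]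
  rfl

end P328.Deep
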