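import Vale.Agent.P328.Deep.Rep

/-!
# P328 : module F, the parities and the half of the margins
-/

namespace P328.Deep

open Finset Exp Cmd

variable {m n : ℕ} {x : ℕ} {s : St}

namespace F

theorem val_ifOne (s : St) (a u : Exp) :
    (ifOne a u).val s = if 1 ≤ a.val s then u.val s else 0 := rfl

theorem val_ifNe (s : St) (a b u v : Exp) :
    (ifNe a b u v).val s = if a.val s = b.val s then v.val s else u.val s := by
  change (if a.val s ≤ b.val s then (if b.val s ≤ a.val s then v.val s else u.val s)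
    else u.val s) = _
  by_cases h1 : a.val s ≤ b.val s
  · by_cases h2 : b.val s ≤ a.val s
    · rw [if_pos h1, if_pos h2, if_pos (by omega)]
    · rw [if_pos h1, if_neg h2, if_neg (by omega)]
  · rw [if_neg h1, if_neg (by omega)]

theorem val_sc {i : ℕ} {a : ℤ} (ha : s i 0 0 = a) : (sc i).val s = a := ha

theorem val_a1 {v i k : ℕ} {f : Fin k → ℤ} {a : Fin k} (h : IsR s v f)
    (ha : s i 0 0 = (a : ℕ)) : (a1 v i).val s = f a := by
  change s v (s i 0 0) 0 = _
  rw [ha]
  exact h a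

theorem val_a2 {v i j : ℕ} {X : Tb m n} {a : Fin m} {b : Fin n} (h : IsT s v X)
    (ha : s i 0 0 = (a : ℕ)) (hb : s j 0 0 = (b : ℕ)) : (a2 v i j).val s = X (a, b) := by
  change s v (s i 0 0) (s j 0 0) = _
  rw [ha, hb]
  exact h a b

theorem dimM (h : Dim m n s) : (sc gM).Fits x s ∧ (sc gM).val s = m :=
  ⟨⟨trivial, trivial⟩, h.1⟩

theorem dimN (h : Dim m n s) : (sc gN).Fits x s ∧ (sc gN).val s = n :=
  ⟨⟨trivial, trivial⟩, h.2⟩

theorem one_le_ind {p : Prop} [Decidable p] : (1 : ℤ) ≤ (if p then 1 else 0) ↔ p := by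
  by_cases h : p
  · rw [if_pos h]
    exact ⟨fun _ => h, fun _ => le_rfl⟩
  · rw [if_neg h]
    exact ⟨fun h' => absurd h' (by omega), fun h' => absurd h' h⟩

theorem cast_fin {k : ℕ} (a b : Fin k) : (((a : ℕ) : ℤ) = ((b : ℕ) : ℤ)) ↔ a = b := by
  constructor
  · intro h
    exact Fin.ext (by exact_mod_cast h)
  · intro h
    rw [h]

/-- what the program `compC` needs to know about the memory -/
structure Env [NeZero m] [NeZero n] (b : Mg m n) (I : Finset (Fin m)) (J : Finset (Fin n))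
    (β : Fin m × Fin n → Bool) (s : St) : Prop where
  d : Dim m n s
  r : IsR s sR b.1
  c : IsR s sC b.2
  i : IsR s sGr (fun i => if i ∈ I then 1 else 0)
  j : IsR s sGc (fun j => if j ∈ J then 1 else 0)
  f : s sF 0 0 = ((first I : Fin m) : ℕ)
  g : s sG 0 0 = ((first J : Fin n) : ℕ)
  b : ∀ (i : Fin m) (j : Fin n), s sB (i : ℕ) (j : ℕ) = bv (β (i, j))

theorem Env.agree [NeZero m] [NeZero n] {b : Mg m n} {I : Finset (Fin m)} {J : Finset (Fin n)}
    {β : Fin m × Fin n → Bool} {s s' : St} (h : Env b I J β s) {W : List ℕ} (hW : Agree W s s')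
    (hd : ∀ y ∈ [gM, gN, sR, sC, sGr, sGc, sF, sG, sB], y ∉ W) : Env b I J β s' where
  d := h.d.agree (hW _ (hd gM (by decide))) (hW _ (hd gN (by decide)))
  r := h.r.agree (hW _ (hd sR (by decide)))
  c := h.c.agree (hW _ (hd sC (by decide)))
  i := h.i.agree (hW _ (hd sGr (by decide)))
  j := h.j.agree (hW _ (hd sGc (by decide)))
  f := by rw [hW _ (hd sF (by decide))]; exact h.f
  g := by rw [hW _ (hd sG (by decide))]; exact h.g
  b := fun i j => by rw [hW _ (hd sB (by decide))]; exact h.b i j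

/-- the free bits -/
noncomputable def P0 [NeZero m] [NeZero n] (I : Finset (Fin m)) (J : Finset (Fin n))
    (β : Fin m × Fin n → Bool) : Tb m n := fun p =>
  if p.1 ∈ I then (if p.2 ∈ J then (if p.1 = first I then 0 else
    (if p.2 = first J then 0 else bv (β p))) else 0) else 0

theorem P0_row [NeZero m] [NeZero n] {I : Finset (Fin m)} {J : Finset (Fin n)}
    {β : Fin m × Fin n → Bool} {i : Fin m} (hi : i ∈ I) (hf : i ≠ first I) :
    ∑ j, P0 I J β (i, j) = ∑ j ∈ J.erase (first J), bv (β (i, j)) := by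
  rw [← Finset.sum_subset (Finset.subset_univ (J.erase (first J)))]
  · refine Finset.sum_congr rfl fun j hj => ?_
    rw [mem_erase] at hj
    unfold P0
    rw [if_pos hi, if_pos hj.2, if_neg hf, if_neg hj.1]
  · intro j _ hj
    unfold P0
    rw [if_pos hi]
    by_cases h1 : j ∈ J
    · rw [if_pos h1, if_neg hf, if_pos]
      by_contra h2
      exact hj (mem_erase.mpr ⟨h2, h1⟩)
    · rw [if_neg h1]

theorem P0_col [NeZero m] [NeZero n] {I : Finset (Fin m)} {J : Finset (Fin n)}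
    {β : Fin m × Fin n → Bool} {j : Fin n} (hj : j ∈ J) (hf : j ≠ first J) :
    ∑ i, P0 I J β (i, j) = ∑ i ∈ I.erase (first I), bv (β (i, j)) := by
  rw [← Finset.sum_subset (Finset.subset_univ (I.erase (first I)))]
  · refine Finset.sum_congr rfl fun i hi => ?_
    rw [mem_erase] at hi
    unfold P0
    rw [if_pos hi.2, if_pos hj, if_neg hi.1, if_neg hf]
  · intro i _ hi
    unfold P0
    by_cases h1 : i ∈ I
    · rw [if_pos h1, if_pos hj, if_pos]
      by_contra h2
      exact hi (mem_erase.mpr ⟨h2, h1⟩)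
    · rw [if_neg h1]

end F

open F in
theorem tri_comp [NeZero m] [NeZero n] {b : Mg m n} {I : Finset (Fin m)} {J : Finset (Fin n)}
    {β : Fin m × Fin n → Bool} (hd : Dim m n s) (hm : m ≤ x) (hn : n ≤ x)
    (hr : IsR s sR b.1) (hc : IsR s sC b.2)
    (hI : IsR s sGr (fun i => if i ∈ I then 1 else 0))
    (hJ : IsR s sGc (fun j => if j ∈ J then 1 else 0))
    (hf : s sF 0 0 = ((first I : Fin m) : ℕ)) (hg : s sG 0 0 = ((first J : Fin n) : ℕ))
    (hβ : ∀ (i : Fin m) (j : Fin n), s sB (i : ℕ) (j : ℕ) = bv (β (i, j))) :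
    Tri x compC s (fun s' => IsT s' sP (comp I J b β)) := by
  have E : Env b I J β s := ⟨hd, hr, hc, hI, hJ, hf, hg, hβ⟩
  unfold compC
  -- the free bits
  refine Tri.seq (tri_tabu (by decide) (by decide) (by decide) hm hn
    (fun s' h => dimM (E.agree h (by decide)).d) (fun s' h => dimN (E.agree h (by decide)).d)
    (fun i j => P0 I J β (i, j)) fun i j s' h hi hj _ => ?_) ?_
  · have E' := E.agree h (by decide)
    refine ⟨Exp.fits rfl, ?_⟩
    rw [val_ifOne, val_ifOne, val_ifNe, val_ifNe, val_a1 E'.i hi, val_a1 E'.j hj, val_sc hi,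
      val_sc hj, val_sc E'.f, val_sc E'.g]
    have e1 : (a2 sB k1 k2).val s' = bv (β (i, j)) := by
      change s' sB (s' k1 0 0) (s' k2 0 0) = _
      rw [hi, hj]
      exact E'.b i j
    rw [e1]
    unfold P0
    simp only [one_le_ind, cast_fin]
    rfl
  intro s₁ h₁
  have E₁ := E.agree h₁.1 (by decide)
  have p₁ : IsT s₁ sP (P0 I J β) := fun i j => h₁.2 i j
  -- the sums of the rows
  refine Tri.seq (tri_sums (by decide) (by decide) (by decide) (by decide) (by decide)
    (by decide) hm hn (fun s' h => dimM (E₁.agree h (by decide)).d)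
    (fun s' h => dimN (E₁.agree h (by decide)).d) (fun i j => P0 I J β (i, j))
    fun i j s' h hi hj => ⟨Exp.fits rfl, val_a2 (p₁.agree (h sP (by decide))) hi hj⟩) ?_
  intro s₂ h₂
  have E₂ := E₁.agree h₂.1 (by decide)
  have p₂ : IsT s₂ sP (P0 I J β) := p₁.agree (h₂.1 sP (by decide))
  have u₂ : IsR s₂ sU (fun i => ∑ j, P0 I J β (i, j)) := h₂.2
  -- the sums of the columns
  refine Tri.seq (tri_sums (by decide) (by decide) (by decide) (by decide) (by decide)
    (by decide) hn hm (fun s' h => dimN (E₂.agree h (by decide)).d)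
    (fun s' h => dimM (E₂.agree h (by decide)).d) (fun j i => P0 I J β (i, j))
    fun j i s' h hj hi => ⟨Exp.fits rfl, val_a2 (p₂.agree (h sP (by decide))) hi hj⟩) ?_
  intro s₃ h₃
  have E₃ := E₂.agree h₃.1 (by decide)
  have p₃ : IsT s₃ sP (P0 I J β) := p₂.agree (h₃.1 sP (by decide))
  have u₃ : IsR s₃ sU (fun i => ∑ j, P0 I J β (i, j)) := u₂.agree (h₃.1 sU (by decide))
  have v₃ : IsR s₃ sV (fun j => ∑ i, P0 I J β (i, j)) := h₃.2
  -- the sum of the first row
  refine Tri.seq (tri_total (by decide) hn (fun s' h => dimN (E₃.agree h (by decide)).d)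
    (fun j => if j ∈ J then (if j = first J then 0 else (b.2 j - ∑ i, P0 I J β (i, j)) % 2) else 0)
    fun j s' h hj => ?_) ?_
  · have E' := E₃.agree h (by decide)
    have v' := v₃.agree (h sV (by decide))
    refine ⟨Exp.fits rfl, ?_⟩
    have e1 : (Exp.mod (Exp.sub (a1 sC k1) (a1 sV k1)) (num 2)).val s' =
        ((a1 sC k1).val s' - (a1 sV k1).val s') % 2 := rfl
    rw [val_ifOne, val_ifNe, e1, val_a1 E'.j hj, val_sc hj, val_sc E'.g, val_a1 E'.c hj,
      val_a1 v' hj]
    simp only [one_le_ind, cast_fin]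
    rfl
  intro s₄ h₄
  have E₄ := E₃.agree h₄.1 (by decide)
  have p₄ : IsT s₄ sP (P0 I J β) := p₃.agree (h₄.1 sP (by decide))
  have u₄ : IsR s₄ sU (fun i => ∑ j, P0 I J β (i, j)) := u₃.agree (h₄.1 sU (by decide))
  have v₄ : IsR s₄ sV (fun j => ∑ i, P0 I J β (i, j)) := v₃.agree (h₄.1 sV (by decide))
  have x₄ : s₄ sX 0 0 = ∑ j ∈ J.erase (first J),
      ((b.2 j - ∑ i ∈ I.erase (first I), bv (β (i, j))) % 2) := by
    rw [h₄.2, ← Finset.sum_subset (Finset.subset_univ (J.erase (first J)))]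
    · refine Finset.sum_congr rfl fun j hj => ?_
      rw [mem_erase] at hj
      rw [if_pos hj.2, if_neg hj.1, P0_col hj.2 hj.1]
    · intro j _ hj
      by_cases h1 : j ∈ J
      · rw [if_pos h1, if_pos]
        by_contra h2
        exact hj (mem_erase.mpr ⟨h2, h1⟩)
      · rw [if_neg h1]
  -- the table
  refine (tri_tabu (by decide) (by decide) (by decide) hm hn
    (fun s' h => dimM (E₄.agree h (by decide)).d) (fun s' h => dimN (E₄.agree h (by decide)).d)
    (fun i j => comp I J b β (i, j)) fun i j s' h hi hj hown => ?_).mono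
    fun s' h => fun i j => h.2 i j
  have E' := E₄.agree h (by decide)
  have u' := u₄.agree (h sU (by decide))
  have v' := v₄.agree (h sV (by decide))
  have x' : s' sX 0 0 = _ := (congrFun (congrFun (h sX (by decide)) 0) 0).trans x₄
  have o' : (a2 sP k1 k2).val s' = P0 I J β (i, j) := by
    change s' sP (s' k1 0 0) (s' k2 0 0) = _
    rw [hi, hj, hown]
    exact p₄ i j
  refine ⟨Exp.fits rfl, ?_⟩
  have e1 : (Exp.mod (Exp.sub (a1 sR k1) (a1 sU k1)) (num 2)).val s' =
      ((a1 sR k1).val s' - (a1 sU k1).val s') % 2 := rfl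
  have e2 : (Exp.mod (Exp.sub (a1 sC k2) (a1 sV k2)) (num 2)).val s' =
      ((a1 sC k2).val s' - (a1 sV k2).val s') % 2 := rfl
  have e3 : (Exp.mod (Exp.sub (a1 sR k1) (sc sX)) (num 2)).val s' =
      ((a1 sR k1).val s' - (sc sX).val s') % 2 := rfl
  rw [val_ifOne, val_ifOne, val_ifNe, val_ifNe, val_ifNe, o', e1, e2, e3, val_a1 E'.i hi,
    val_a1 E'.j hj, val_sc hi, val_sc hj, val_sc E'.f, val_sc E'.g, val_a1 E'.r hi,
    val_a1 E'.c hj, val_a1 u' hi, val_a1 v' hj, val_sc x']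
  simp only [one_le_ind, cast_fin]
  unfold comp
  by_cases h1 : i ∈ I
  · by_cases h2 : j ∈ J
    · rw [if_pos h1, if_pos h2, if_pos (And.intro h1 h2)]
      by_cases h3 : i = first I
      · rw [if_pos h3, if_neg (not_not.mpr h3)]
        by_cases h4 : j = first J
        · rw [if_pos h4, if_neg (not_not.mpr h4), h3]
        · rw [if_neg h4, if_pos h4, P0_col h2 h4]
      · rw [if_neg h3, if_pos h3]
        by_cases h4 : j = first J
        · rw [if_pos h4, if_neg (not_not.mpr h4), P0_row h1 h3]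
        · rw [if_neg h4, if_pos h4]
          unfold P0
          rw [if_pos h1, if_pos h2, if_neg h3, if_neg h4]
    · rw [if_pos h1, if_neg h2, if_neg fun h => h2 h.2]
  · rw [if_neg h1, if_neg fun h => h1 h.1]

open F in
theorem tri_half {b : Mg m n} {R : Tb m n} (hd : Dim m n s) (hm : m ≤ x) (hn : n ≤ x)
    (hr : IsR s sR b.1) (hc : IsR s sC b.2) (hR : IsT s sP R) :
    Tri x halfC s (fun s' => IsR s' sR (half b R).1 ∧ IsR s' sC (half b R).2) := by
  have dag : ∀ {s s' : St} {W : List ℕ}, Dim m n s → Agree W s s' → (∀ y ∈ [gM, gN], y ∉ W) →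
      Dim m n s' := fun h hW hy =>
    h.agree (hW _ (hy gM (by decide))) (hW _ (hy gN (by decide)))
  unfold halfC
  refine Tri.seq (tri_sums (by decide) (by decide) (by decide) (by decide) (by decide)
    (by decide) hm hn (fun s' h => dimM (dag hd h (by decide)))
    (fun s' h => dimN (dag hd h (by decide))) (fun i j => R (i, j))
    fun i j s' h hi hj => ⟨Exp.fits rfl, val_a2 (hR.agree (h sP (by decide))) hi hj⟩) ?_
  intro s₁ h₁
  have d₁ := dag hd h₁.1 (by decide)
  have r₁ := hr.agree (h₁.1 sR (by decide))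
  have c₁ := hc.agree (h₁.1 sC (by decide))
  have p₁ := hR.agree (h₁.1 sP (by decide))
  have u₁ : IsR s₁ sU (fun i => ∑ j, R (i, j)) := h₁.2
  refine Tri.seq (tri_tab1 (by decide) hm (fun s' h => dimM (dag d₁ h (by decide)))
    (half b R).1 fun i s' h hi hown => ⟨Exp.fits rfl, ?_⟩) ?_
  · have u' := u₁.agree (h sU (by decide))
    have e1 : (Exp.div (Exp.sub (a1 sR k1) (a1 sU k1)) (num 2)).val s' =
      ((a1 sR k1).val s' - (a1 sU k1).val s') / 2 := rfl
    have e2 : (a1 sR k1).val s' = b.1 i := by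
      change s' sR (s' k1 0 0) 0 = _
      rw [hi, hown]
      exact r₁ i
    rw [e1, e2, val_a1 u' hi]
    rfl
  intro s₂ h₂
  have d₂ := dag d₁ h₂.1 (by decide)
  have r₂ : IsR s₂ sR (half b R).1 := h₂.2
  have c₂ := c₁.agree (h₂.1 sC (by decide))
  have p₂ := p₁.agree (h₂.1 sP (by decide))
  refine Tri.seq (tri_sums (by decide) (by decide) (by decide) (by decide) (by decide)
    (by decide) hn hm (fun s' h => dimN (dag d₂ h (by decide)))
    (fun s' h => dimM (dag d₂ h (by decide))) (fun j i => R (i, j))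
    fun j i s' h hj hi => ⟨Exp.fits rfl, val_a2 (p₂.agree (h sP (by decide))) hi hj⟩) ?_
  intro s₃ h₃
  have d₃ := dag d₂ h₃.1 (by decide)
  have r₃ := r₂.agree (h₃.1 sR (by decide))
  have c₃ := c₂.agree (h₃.1 sC (by decide))
  have v₃ : IsR s₃ sV (fun j => ∑ i, R (i, j)) := h₃.2
  refine (tri_tab1 (by decide) hn (fun s' h => dimN (dag d₃ h (by decide)))
    (half b R).2 fun j s' h hj hown => ⟨Exp.fits rfl, ?_⟩).mono fun s' h =>
      ⟨r₃.agree (h.1 sR (by decide)), h.2⟩
  have v' := v₃.agree (h sV (by decide))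
  have e1 : (Exp.div (Exp.sub (a1 sC k1) (a1 sV k1)) (num 2)).val s' =
    ((a1 sC k1).val s' - (a1 sV k1).val s') / 2 := rfl
  have e2 : (a1 sC k1).val s' = b.2 j := by
    change s' sC (s' k1 0 0) 0 = _
    rw [hj, hown]
    exact c₃ j
  rw [e1, e2, val_a1 v' hj]
  rfl

open F in
theorem tri_ok {b : Mg m n} (hd : Dim m n s) (hm : m ≤ x) (hn : n ≤ x)
    (hr : IsR s sR b.1) (hc : IsR s sC b.2) :
    Tri x okC s (fun s' => s' sX 0 0 ≤ 0 ↔ Ok b) := by
  have dag : ∀ {s s' : St} {W : List ℕ}, Dim m n s → Agree W s s' → (∀ y ∈ [gM, gN], y ∉ W) →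
      Dim m n s' := fun h hW hy =>
    h.agree (hW _ (hy gM (by decide))) (hW _ (hy gN (by decide)))
  have neg : ∀ {k : ℕ} (f : Fin k → ℤ), 0 ≤ (∑ i, if 0 ≤ f i then (0 : ℤ) else 1) ∧
      ((∑ i, if 0 ≤ f i then (0 : ℤ) else 1) = 0 ↔ ∀ i, 0 ≤ f i) := by
    intro k f
    have h0 : ∀ i ∈ (univ : Finset (Fin k)), (0 : ℤ) ≤ if 0 ≤ f i then (0 : ℤ) else 1 := by
      intro i _
      split_ifs <;> omega
    refine ⟨Finset.sum_nonneg h0, ?_⟩
    rw [Finset.sum_eq_zero_iff_of_nonneg h0]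
    constructor
    · intro h i
      by_contra hi
      have := h i (mem_univ _)
      rw [if_neg hi] at this
      omega
    · intro h i _
      rw [if_pos (h i)]
  unfold okC
  refine Tri.seq (tri_total (by decide) hm (fun s' h => dimM (dag hd h (by decide)))
    (fun i => if 0 ≤ b.1 i then 0 else 1) fun i s' h hi => ⟨Exp.fits rfl, ?_⟩) ?_
  · have e1 : (Exp.sel (num 0) (a1 sR k1) (num 0) (num 1)).val s' =
      if 0 ≤ (a1 sR k1).val s' then 0 else 1 := rfl
    rw [e1, val_a1 (hr.agree (h sR (by decide))) hi]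
  intro s₁ h₁
  have d₁ := dag hd h₁.1 (by decide)
  have r₁ := hr.agree (h₁.1 sR (by decide))
  have c₁ := hc.agree (h₁.1 sC (by decide))
  refine Tri.seq (tri_total (by decide) hn (fun s' h => dimN (dag d₁ h (by decide)))
    (fun j => if 0 ≤ b.2 j then 0 else 1) fun j s' h hj => ⟨Exp.fits rfl, ?_⟩) ?_
  · have e1 : (Exp.sel (num 0) (a1 sC k1) (num 0) (num 1)).val s' =
      if 0 ≤ (a1 sC k1).val s' then 0 else 1 := rfl
    rw [e1, val_a1 (c₁.agree (h sC (by decide))) hj]
  intro s₂ h₂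
  have d₂ := dag d₁ h₂.1 (by decide)
  have r₂ := r₁.agree (h₂.1 sR (by decide))
  have c₂ := c₁.agree (h₂.1 sC (by decide))
  refine Tri.seq (tri_total (by decide) hm (fun s' h => dimM (dag d₂ h (by decide)))
    b.1 fun i s' h hi => ⟨Exp.fits rfl, val_a1 (r₂.agree (h sR (by decide))) hi⟩) ?_
  intro s₃ h₃
  have d₃ := dag d₂ h₃.1 (by decide)
  have c₃ := c₂.agree (h₃.1 sC (by decide))
  refine Tri.seq (tri_total (by decide) hn (fun s' h => dimN (dag d₃ h (by decide)))
    b.2 fun j s' h hj => ⟨Exp.fits rfl, val_a1 (c₃.agree (h sC (by decide))) hj⟩) ?_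
  intro s₄ h₄
  refine tri_put trivial trivial (Exp.fits rfl) ?_
  change upd s₄ sX 0 0 _ sX 0 0 ≤ 0 ↔ _
  rw [upd_same]
  have e1 : (Exp.add (Exp.add (sc sX) (sc sY)) (ifNe (sc sZ) (sc sQ) (num 1) (num 0))).val s₄ =
      s₄ sX 0 0 + s₄ sY 0 0 + (ifNe (sc sZ) (sc sQ) (num 1) (num 0)).val s₄ := rfl
  have x₄ : s₄ sX 0 0 = ∑ i, if 0 ≤ b.1 i then (0 : ℤ) else 1 := by
    rw [h₄.1 sX (by decide), h₃.1 sX (by decide), h₂.1 sX (by decide)]
    exact h₁.2
  have y₄ : s₄ sY 0 0 = ∑ j, if 0 ≤ b.2 j then (0 : ℤ) else 1 := by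
    rw [h₄.1 sY (by decide), h₃.1 sY (by decide)]
    exact h₂.2
  have z₄ : s₄ sZ 0 0 = ∑ i, b.1 i := by
    rw [h₄.1 sZ (by decide)]
    exact h₃.2
  rw [e1, val_ifNe, x₄, y₄, val_sc z₄, val_sc h₄.2]
  have n1 := neg b.1
  have n2 := neg b.2
  have n3 : (num 1).val s₄ = 1 := rfl
  have n4 : (num 0).val s₄ = 0 := rfl
  rw [n3, n4]
  unfold Ok
  rw [← n1.2, ← n2.2]
  have n5 := n1.1
  have n6 := n2.1
  by_cases h : ∑ i, b.1 i = ∑ j, b.2 j
  · rw [if_pos h]
    constructor
    · intro h'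
      exact ⟨by omega, by omega, h⟩
    · rintro ⟨h1, h2, _⟩
      omega
  · rw [if_neg h]
    constructor
    · intro h'
      omega
    · rintro ⟨_, _, h3⟩
      exact absurd h3 h

end P328.Deep
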