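import Vale.Agent.P328.Deep.SamplerD
import Vale.Agent.P328.Conc

/-!
# P328 : largest entries, counting the samples
-/

namespace P328.Deep

open Finset Exp Cmd

variable {m n : ℕ} {x : ℕ} {s : St}

theorem amax_eq {k : ℕ} [NeZero k] {f : Fin k → ℤ} {p : Fin k} (h1 : ∀ i, f i ≤ f p)
    (h2 : ∀ i, i < p → f i < f p) : amax f = p := by
  have hmem : p ∈ univ.filter fun i => ∀ i', f i' ≤ f i := mem_filter.mpr ⟨mem_univ _, h1⟩
  have hne : (univ.filter fun i => ∀ i', f i' ≤ f i).Nonempty := ⟨p, hmem⟩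
  unfold amax first
  rw [dif_pos hne]
  refine le_antisymm (Finset.min'_le _ _ hmem) ?_
  by_contra hlt
  rw [not_le] at hlt
  have h3 := h2 _ hlt
  have h4 := (mem_filter.mp (Finset.min'_mem _ hne)).2 p
  omega

theorem tri_amax {k : ℕ} [NeZero k] {v g w : ℕ} (hvk : v ≠ k1) (hgv : g ≠ v) (hgk : g ≠ k1)
    (hwv : w ≠ v) (hwk : w ≠ k1) {f : Fin k → ℤ} (hg : s g 0 0 = k) (hk : k ≤ x)
    (hw : IsR s w f) :
    Tri x (amaxC v g w) s (fun s' => s' v 0 0 = ((amax f : Fin k) : ℕ)) := by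
  have hkpos : 0 < k := Nat.pos_of_ne_zero (NeZero.ne k)
  unfold amaxC
  refine Tri.seq (tri_put trivial trivial trivial (rfl : _ = _) :
    Tri x (putS v (num 0)) s (fun s' => s' = _)) fun s1 h1 => ?_
  have f1 : ∀ y, y ≠ v → s1 y = s y := fun y hy => by rw [h1]; exact upd_ne hy _ _ _
  have hv1 : s1 v 0 0 = 0 := by rw [h1]; exact upd_same _ _ _ _ _
  refine (tri_for (x := x) (s := s1) (i := k1) (k := sc g) (N := k)
    (I := fun t s' => s' w = s1 w ∧ ∃ p : Fin k, s' v 0 0 = (p : ℕ) ∧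
      (∀ i : Fin k, (i : ℕ) < t → f i ≤ f p) ∧ (∀ i : Fin k, i < p → f i < f p))
    ?_ hk (Exp.fits rfl) ?_ ?_ ?_).mono fun s' h => ?_
  · change (upd s1 k1 0 0 0 g 0 0).toNat = k
    rw [upd_ne hgk, f1 g hgv, hg]
    simp
  · refine ⟨upd_ne hwk _ _ _, 0, ?_, fun i hi => absurd hi (by omega), fun i hi => ?_⟩
    · rw [upd_ne hvk, hv1]
      simp
    · exact absurd hi (by simp)
  · simp [Cmd.wr, Ne.symm hvk]
  · rintro t ht s' ⟨hw', p, hp, hp1, hp2⟩ htk
    refine tri_put trivial trivial (Exp.fits rfl) ?_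
    have e1 : (a1 w v).val s' = f p := by
      change s' w (s' v 0 0) 0 = _
      rw [hw', hp, f1 w hwv]
      exact hw p
    have e2 : (a1 w k1).val s' = f ⟨t, ht⟩ := by
      change s' w (s' k1 0 0) 0 = _
      rw [hw', htk, f1 w hwv]
      exact hw ⟨t, ht⟩
    have e3 : (sel (add (a1 w v) (num 1)) (a1 w k1) (sc k1) (sc v)).val s' =
        if f p + 1 ≤ f ⟨t, ht⟩ then (t : ℤ) else ((p : ℕ) : ℤ) := by
      change (if (a1 w v).val s' + 1 ≤ (a1 w k1).val s' then s' k1 0 0 else s' v 0 0) = _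
      rw [e1, e2, htk, hp]
    rw [e3]
    refine ⟨?_, ?_⟩
    · rw [upd_ne hwk]
      change upd s' v 0 0 _ w = _
      rw [upd_ne hwv, hw']
    · by_cases hlt : f p + 1 ≤ f ⟨t, ht⟩
      · refine ⟨⟨t, ht⟩, ?_, fun i hi => ?_, fun i hi => ?_⟩
        · rw [upd_ne hvk, if_pos hlt]
          exact upd_same _ _ _ _ _
        · by_cases hit : (i : ℕ) < t
          · have := hp1 i hit
            omega
          · have : i = ⟨t, ht⟩ := Fin.ext (by simp; omega)
            rw [this]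
        · have hit : (i : ℕ) < t := hi
          have := hp1 i hit
          omega
      · refine ⟨p, ?_, fun i hi => ?_, hp2⟩
        · rw [upd_ne hvk, if_neg hlt]
          exact upd_same _ _ _ _ _
        · by_cases hit : (i : ℕ) < t
          · exact hp1 i hit
          · have : i = ⟨t, ht⟩ := Fin.ext (by simp; omega)
            rw [this]
            omega
  · obtain ⟨⟨_, p, hp, hp1, hp2⟩, _⟩ := h
    rw [amax_eq (fun i => hp1 i i.isLt) hp2]
    exact hp

theorem imp_count [NeZero m] [NeZero n] {b : Mg m n} (hb : Ok b) {e N : ℕ} (he : 1 ≤ e)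
    {i : Fin m} {j : Fin n} {h : ℤ}
    (hd : Dim m n s) (hE : s cE2 0 0 = e) (hr : IsR s cR b.1) (hc : IsR s cC b.2)
    (hN : s cNs 0 0 = N) (hi : s cI 0 0 = (i : ℕ)) (hj : s cJ 0 0 = (j : ℕ)) (hh : s cH 0 0 = h)
    (hx : 2 * TT b e ≤ x) (hNx : N ≤ x) :
    Imp x countC s (law (count b e i j h N)) (fun z s' => s' cZ 0 0 = (z : ℕ)) := by
  have hlaw : ∀ k, loop (fun _ z => (law (sampler b e)).bind fun X =>
      PMF.pure (if h ≤ X (i, j) then z + 1 else z)) k 0 = law (count b e i j h k) := by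
    intro k
    induction k with
    | zero =>
      rw [loop, count, law_ret]
    | succ k ih =>
      rw [loop, ih, law_count_succ]
  rw [← hlaw N]
  unfold countC
  refine Tri.seq_imp (tri_put trivial trivial trivial (rfl : _ = _) :
    Tri x (putS cZ (num 0)) s (fun s' => s' = _)) fun s1 h1 => ?_
  have f1 : ∀ y, y ≠ cZ → s1 y = s y := fun y hy => by rw [h1]; exact upd_ne hy _ _ _
  refine (imp_rep (x := x) (s := s1) (k := sc cNs) (N := N) (a := 0)
    (R := fun _ z s' => s' cZ 0 0 = ((z : ℕ) : ℤ) ∧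
      ∀ y, y ∉ [cZ] → y ∉ samplerC.wr → s' y = s y)
    ?_ hNx (Exp.fits rfl) ?_ ?_).mono fun z _ s' hz => hz.1
  · change (s1 cNs 0 0).toNat = N
    rw [f1 cNs (by decide), hN]
    simp
  · refine ⟨?_, fun y hy _ => ?_⟩
    · rw [h1]
      exact upd_same _ _ _ _ _
    · exact f1 y (by simpa using hy)
  · rintro t _ z _ s' ⟨hz, hF⟩
    refine imp_seq (p' := fun X => PMF.pure (if h ≤ X (i, j) then z + 1 else z))
      (imp_sampler hb he (hd.agree (hF gM (by decide) (by decide)) (hF gN (by decide) (by decide)))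
      (by rw [hF cE2 (by decide) (by decide)]; exact hE)
      (hr.agree (hF cR (by decide) (by decide))) (hc.agree (hF cC (by decide) (by decide)))
      hx).frame fun X _ s2 h2 => ?_
    refine (tri_put trivial trivial (Exp.fits rfl) (rfl : _ = _) :
      Tri x (putS cZ _) s2 (fun s' => s' = _)).imp fun s3 h3 => ?_
    have hI2 : s2 cI 0 0 = (i : ℕ) := by
      rw [h2.2 cI (by decide), hF cI (by decide) (by decide)]
      exact hi
    have hJ2 : s2 cJ 0 0 = (j : ℕ) := by
      rw [h2.2 cJ (by decide), hF cJ (by decide) (by decide)]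
      exact hj
    have hH2 : s2 cH 0 0 = h := by
      rw [h2.2 cH (by decide), hF cH (by decide) (by decide)]
      exact hh
    have hZ2 : s2 cZ 0 0 = (z : ℕ) := by
      rw [h2.2 cZ (by decide)]
      exact hz
    have e1 : (sel (sc cH) (a2 sO cI cJ) (add (sc cZ) (num 1)) (sc cZ)).val s2 =
        (((if h ≤ X (i, j) then z + 1 else z) : ℕ) : ℤ) := by
      change (if s2 cH 0 0 ≤ s2 sO (s2 cI 0 0) (s2 cJ 0 0) then s2 cZ 0 0 + 1 else s2 cZ 0 0) = _
      rw [hH2, hI2, hJ2, hZ2, h2.1 i j]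
      split_ifs
      · push_cast
        rfl
      · rfl
    rw [e1] at h3
    refine ⟨?_, fun y hy hy' => ?_⟩
    · rw [h3]
      exact upd_same _ _ _ _ _
    · rw [h3]
      have hy2 : y ≠ cZ := by simpa using hy
      exact (upd_ne hy2 _ _ _).trans ((h2.2 y hy').trans (hF y hy hy'))

end P328.Deep
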