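import Vale.Agent.P328.Deep.Rep

/-!
# P328 : costs of products of natural numbers
-/

namespace P328.Deep

open Exp

variable {x : ℕ} {s : St}

theorem fits_mul {a b : Exp} {u v : ℕ} (ha : a.Fits x s) (hb : b.Fits x s) (hu : a.val s = u)
    (hv : b.val s = v) (h : u + v ≤ x) : (mul a b).Fits x s := by
  refine ⟨⟨ha, hb⟩, ?_⟩
  have h1 := digits_le (a.val s)
  have h2 := digits_le (b.val s)
  rw [hu, Int.natAbs_natCast] at h1
  rw [hv, Int.natAbs_natCast] at h2
  rw [hu, hv]
  omega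

theorem val_mul {a b : Exp} {u v : ℕ} (hu : a.val s = u) (hv : b.val s = v) :
    (mul a b).val s = ((u * v : ℕ) : ℤ) := by
  rw [Exp.val, hu, hv]
  push_cast
  rfl

theorem val_add {a b : Exp} {u v : ℕ} (hu : a.val s = u) (hv : b.val s = v) :
    (add a b).val s = ((u + v : ℕ) : ℤ) := by
  rw [Exp.val, hu, hv]
  push_cast
  rfl

theorem val_powE {e : Exp} {u : ℕ} (hu : e.val s = u) (k : ℕ) :
    (powE e k).val s = ((u ^ k : ℕ) : ℤ) := by
  rw [powE_val, hu]
  push_cast
  rfl

theorem fits_powE {e : Exp} {u : ℕ} (he : e.Fits x s) (hu : e.val s = u) (h1 : 1 ≤ u) {k : ℕ}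
    (h : u ^ k + u ≤ x) : (powE e k).Fits x s := by
  induction k with
  | zero => exact trivial
  | succ k ih =>
    have h2 : u ^ k ≤ u ^ (k + 1) := Nat.pow_le_pow_right h1 (Nat.le_succ k)
    exact fits_mul (ih (by omega)) he (val_powE hu k) hu (by omega)

end P328.Deep
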