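import Vale.Agent.P328.Deep.FitsD
import Vale.Agent.P328.Time

/-!
# P328 : the parameters of the sampler
-/

namespace P328.Deep

open Finset Exp Cmd

variable {m n : ℕ} {x : ℕ} {s : St}

/-- bounds for the products which appear in the parameters -/
theorem params_arith {S L e P K K2 X TTv : ℕ} (hS : 1 ≤ S) (hL : 1 ≤ L) (he : 1 ≤ e)
    (hP : P = S * L * e) (hK : K = 2 ^ 20 * P ^ 5) (hK2 : K2 = 2 ^ 80 * P ^ 16)
    (hX : X = 50 * S * (S * K2 + 1) * (8 * L * e)) (hT : TTv = X ^ 100) :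
    (S + L ≤ TTv ∧ S * L + e ≤ TTv ∧ P ^ 5 + P ≤ TTv ∧ 2 ^ 20 + P ^ 5 ≤ TTv ∧
      P ^ 16 + P ≤ TTv ∧ 2 ^ 80 + P ^ 16 ≤ TTv) ∧
    (50 + S ≤ TTv ∧ S + K2 ≤ TTv ∧ 50 * S + (S * K2 + 1) ≤ TTv ∧ 8 + L ≤ TTv ∧
      8 * L + e ≤ TTv ∧ 50 * S * (S * K2 + 1) + 8 * L * e ≤ 2 * TTv ∧ X ^ 100 + X ≤ 2 * TTv) ∧
    (S * K2 ≤ TTv ∧ 2 * L + 10 ≤ TTv) := by
  have hP1 : 1 ≤ P := by
    rw [hP]
    exact Nat.mul_pos (Nat.mul_pos hS hL) he
  have hSLP : S * L ≤ P := by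
    rw [hP]
    exact Nat.le_mul_of_pos_right _ he
  have hSP : S ≤ S * L := Nat.le_mul_of_pos_right _ hL
  have hLP : L ≤ S * L := Nat.le_mul_of_pos_left _ hS
  have heP : e ≤ P := by
    rw [hP]
    exact Nat.le_mul_of_pos_left _ (Nat.mul_pos hS hL)
  have hP16 : P ≤ P ^ 16 := by
    calc P = P ^ 1 := (pow_one P).symm
      _ ≤ P ^ 16 := Nat.pow_le_pow_right hP1 (by norm_num)
  have hP5 : P ^ 5 ≤ P ^ 16 := Nat.pow_le_pow_right hP1 (by norm_num)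
  have h80 : (2 : ℕ) ^ 80 = 1208925819614629174706176 := by norm_num
  have h20 : (2 : ℕ) ^ 20 = 1048576 := by norm_num
  rw [h80] at hK2 ⊢
  rw [h20]
  have hSK : K2 ≤ S * K2 := Nat.le_mul_of_pos_left _ hS
  have hLe : 1 ≤ L * e := Nat.mul_pos hL he
  have hY : 50 * S * (S * K2 + 1) ≤ X := by
    rw [hX]
    exact Nat.le_mul_of_pos_right _ (Nat.mul_pos (Nat.mul_pos (by norm_num) hL) he)
  have hY' : 8 * L * e ≤ X := by
    rw [hX]
    exact Nat.le_mul_of_pos_left _ (Nat.mul_pos (Nat.mul_pos (by norm_num) hS) (by omega))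
  have hZ : 50 * (S * K2 + 1) ≤ 50 * S * (S * K2 + 1) := by
    have : 50 * S * (S * K2 + 1) = S * (50 * (S * K2 + 1)) := by ring
    rw [this]
    exact Nat.le_mul_of_pos_left _ hS
  have hX1 : 1 ≤ X := by omega
  have hXT : X ≤ TTv := by
    rw [hT]
    calc X = X ^ 1 := (pow_one X).symm
      _ ≤ X ^ 100 := Nat.pow_le_pow_right hX1 (by norm_num)
  rw [← hT]
  refine ⟨⟨?_, ?_, ?_, ?_, ?_, ?_⟩, ⟨?_, ?_, ?_, ?_, ?_, ?_, ?_⟩, ?_, ?_⟩ <;> omega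

theorem TT_big [NeZero m] [NeZero n] (b : Mg m n) {e : ℕ} (he : 1 ≤ e) :
    m + n + KK2 b e ≤ TT b e ∧ (m + n) * KK2 b e ≤ TT b e ∧ 2 * len b + 10 ≤ TT b e := by
  have hm : 1 ≤ m := Nat.one_le_iff_ne_zero.mpr (NeZero.ne m)
  have h := params_arith (S := m + n) (L := len b) (e := e) (by omega) (len_pos b) he
    (P := prm b e) rfl (K := KK b e) rfl (K2 := KK2 b e) rfl rfl (TTv := TT b e) rfl
  exact ⟨h.2.1.2.1, h.2.2.1, h.2.2.2⟩

theorem tri_params [NeZero m] [NeZero n] {b : Mg m n} {e : ℕ} (hd : Dim m n s)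
    (hm : m ≤ x) (he : 1 ≤ e) (hE : s cE2 0 0 = e) (hr : IsR s cR b.1) (hx : 2 * TT b e ≤ x) :
    Tri x paramsC s (fun s' => s' sL 0 0 = len b ∧ s' sK 0 0 = KK b e ∧ s' sK2 0 0 = KK2 b e ∧
      s' sT 0 0 = TT b e) := by
  have hm1 : 1 ≤ m := Nat.one_le_iff_ne_zero.mpr (NeZero.ne m)
  obtain ⟨S, hS⟩ : ∃ S, S = m + n := ⟨_, rfl⟩
  obtain ⟨L, hL⟩ : ∃ L, L = len b := ⟨_, rfl⟩
  obtain ⟨P, hP⟩ : ∃ P, P = S * L * e := ⟨_, rfl⟩
  obtain ⟨K, hK⟩ : ∃ K, K = 2 ^ 20 * P ^ 5 := ⟨_, rfl⟩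
  obtain ⟨K2, hK2⟩ : ∃ K2, K2 = 2 ^ 80 * P ^ 16 := ⟨_, rfl⟩
  obtain ⟨X, hX⟩ : ∃ X, X = 50 * S * (S * K2 + 1) * (8 * L * e) := ⟨_, rfl⟩
  obtain ⟨TTv, hTTv⟩ : ∃ TTv, TTv = X ^ 100 := ⟨_, rfl⟩
  have eP : prm b e = P := by rw [hP, hS, hL]; rfl
  have eK : KK b e = K := by unfold KK; rw [eP, hK]
  have eK2 : KK2 b e = K2 := by unfold KK2; rw [eP, hK2]
  have eT : TT b e = TTv := by unfold TT; rw [eK2, hTTv, hX, hS, hL]
  rw [eT] at hx
  rw [eK, eK2, eT, ← hL]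
  have hS1 : 1 ≤ S := by omega
  have hL1 : 1 ≤ L := by rw [hL]; exact len_pos b
  have hP1 : 1 ≤ P := by
    rw [hP]
    exact Nat.mul_pos (Nat.mul_pos hS1 hL1) he
  obtain ⟨⟨p1, p2, p3, p4, p5, p6⟩, ⟨q1, q2, q3, q4, q5, q6, q7⟩, _, _⟩ :=
    params_arith hS1 hL1 he hP hK hK2 hX hTTv
  have hX1 : 1 ≤ X := by
    rw [hX]
    exact Nat.mul_pos (Nat.mul_pos (Nat.mul_pos (by norm_num) hS1) (by omega))
      (Nat.mul_pos (Nat.mul_pos (by norm_num) hL1) he)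
  unfold paramsC
  refine Tri.seq (tri_total (by decide) hm (fun s' h => ⟨Exp.fits rfl, ?_⟩) b.1
    fun i s' h hi => ⟨Exp.fits rfl, ?_⟩).frame fun s1 h1 => ?_
  · change s' gM 0 0 = _
    rw [h gM (by decide)]
    exact hd.1
  · change s' cR (s' k1 0 0) 0 = _
    rw [h cR (by decide), hi]
    exact hr i
  have eT1 : s1 sS 0 0 = tot b := h1.1.2
  have hM1 : s1 gM 0 0 = (m : ℕ) := by rw [h1.2 gM (by decide)]; exact hd.1
  have hN1 : s1 gN 0 0 = (n : ℕ) := by rw [h1.2 gN (by decide)]; exact hd.2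
  have hE1 : s1 cE2 0 0 = (e : ℕ) := by rw [h1.2 cE2 (by decide)]; exact hE
  -- length
  refine Tri.seq (tri_put trivial trivial (Exp.fits rfl) (rfl : _ = _) :
    Tri x (putS sL (add (lg (sc sS)) (num 1))) s1 (fun s' => s' = _)) fun s2 h2 => ?_
  have eL : (add (lg (sc sS)) (num 1)).val s1 = ((L : ℕ) : ℤ) := by
    change ((Nat.log 2 (s1 sS 0 0).toNat : ℕ) : ℤ) + 1 = _
    rw [eT1, hL]
    unfold len
    push_cast
    rfl
  rw [eL] at h2
  have f2 : ∀ y, y ≠ sL → s2 y = s1 y := fun y hy => by rw [h2]; exact upd_ne hy _ _ _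
  have hL2 : (sc sL).val s2 = ((L : ℕ) : ℤ) := by
    change s2 sL 0 0 = _
    rw [h2]
    exact upd_same _ _ _ _ _
  have vS2 : (add (sc gM) (sc gN)).val s2 = ((S : ℕ) : ℤ) := by
    rw [hS]
    refine val_add ?_ ?_
    · change s2 gM 0 0 = _
      rw [f2 gM (by decide)]
      exact hM1
    · change s2 gN 0 0 = _
      rw [f2 gN (by decide)]
      exact hN1
  have vE2 : (sc cE2).val s2 = ((e : ℕ) : ℤ) := by
    change s2 cE2 0 0 = _
    rw [f2 cE2 (by decide)]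
    exact hE1
  have v1 := val_mul vS2 hL2
  have v2 := val_mul v1 vE2
  have g1 : (mul (mul (add (sc gM) (sc gN)) (sc sL)) (sc cE2)).Fits x s2 := by
    refine fits_mul (fits_mul (Exp.fits rfl) (Exp.fits rfl) vS2 hL2 ?_) (Exp.fits rfl) v1 vE2 ?_
    · omega
    · omega
  refine Tri.seq (tri_put trivial trivial g1 (rfl : _ = _) :
    Tri x (putS sPr _) s2 (fun s' => s' = _)) fun s3 h3 => ?_
  rw [v2, ← hP] at h3
  have f3 : ∀ y, y ≠ sPr → s3 y = s2 y := fun y hy => by rw [h3]; exact upd_ne hy _ _ _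
  have hP3 : (sc sPr).val s3 = ((P : ℕ) : ℤ) := by
    change s3 sPr 0 0 = _
    rw [h3]
    exact upd_same _ _ _ _ _
  -- K
  have v3 : (mul (num (2 ^ 20)) (powE (sc sPr) 5)).val s3 = ((K : ℕ) : ℤ) := by
    rw [hK]
    exact val_mul (u := 2 ^ 20) (by rw [Exp.val]; norm_num) (val_powE hP3 5)
  have g2 : (mul (num (2 ^ 20)) (powE (sc sPr) 5)).Fits x s3 := by
    refine fits_mul (u := 2 ^ 20) trivial (fits_powE (Exp.fits rfl) hP3 hP1 ?_)
      (by rw [Exp.val]; norm_num) (val_powE hP3 5) ?_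
    · omega
    · omega
  refine Tri.seq (tri_put trivial trivial g2 (rfl : _ = _) :
    Tri x (putS sK _) s3 (fun s' => s' = _)) fun s4 h4 => ?_
  rw [v3] at h4
  have f4 : ∀ y, y ≠ sK → s4 y = s3 y := fun y hy => by rw [h4]; exact upd_ne hy _ _ _
  have hP4 : (sc sPr).val s4 = ((P : ℕ) : ℤ) := by
    change s4 sPr 0 0 = _
    rw [f4 sPr (by decide)]
    exact hP3
  -- K2
  have v4 : (mul (num (2 ^ 80)) (powE (sc sPr) 16)).val s4 = ((K2 : ℕ) : ℤ) := by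
    rw [hK2]
    exact val_mul (u := 2 ^ 80) (by rw [Exp.val]; norm_num) (val_powE hP4 16)
  have g3 : (mul (num (2 ^ 80)) (powE (sc sPr) 16)).Fits x s4 := by
    refine fits_mul (u := 2 ^ 80) trivial (fits_powE (Exp.fits rfl) hP4 hP1 ?_)
      (by rw [Exp.val]; norm_num) (val_powE hP4 16) ?_
    · omega
    · omega
  refine Tri.seq (tri_put trivial trivial g3 (rfl : _ = _) :
    Tri x (putS sK2 _) s4 (fun s' => s' = _)) fun s5 h5 => ?_
  rw [v4] at h5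
  have f5 : ∀ y, y ≠ sK2 → s5 y = s4 y := fun y hy => by rw [h5]; exact upd_ne hy _ _ _
  have hK25 : (sc sK2).val s5 = ((K2 : ℕ) : ℤ) := by
    change s5 sK2 0 0 = _
    rw [h5]
    exact upd_same _ _ _ _ _
  have key5 : ∀ y, y ∉ [sPr, sK, sK2] → s5 y = s2 y := by
    intro y hy
    simp only [List.mem_cons, not_or] at hy
    rw [f5 y hy.2.2.1, f4 y hy.2.1, f3 y hy.1]
  have vS5 : (add (sc gM) (sc gN)).val s5 = ((S : ℕ) : ℤ) := by
    change s5 gM 0 0 + s5 gN 0 0 = _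
    rw [key5 gM (by decide), key5 gN (by decide)]
    exact vS2
  have hL5 : (sc sL).val s5 = ((L : ℕ) : ℤ) := by
    change s5 sL 0 0 = _
    rw [key5 sL (by decide)]
    exact hL2
  have vE5 : (sc cE2).val s5 = ((e : ℕ) : ℤ) := by
    change s5 cE2 0 0 = _
    rw [key5 cE2 (by decide)]
    exact vE2
  -- X
  have w1 := val_mul (s := s5) (a := num 50) (u := 50) (by rfl) vS5
  have w2 := val_mul vS5 hK25
  have w3 := val_add (s := s5) (b := num 1) (v := 1) w2 (by rfl)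
  have w4 := val_mul w1 w3
  have w5 := val_mul (s := s5) (a := num 8) (u := 8) (by rfl) hL5
  have w6 := val_mul w5 vE5
  have w7 := val_mul w4 w6
  have g4 : (mul (mul (mul (num 50) (add (sc gM) (sc gN)))
      (add (mul (add (sc gM) (sc gN)) (sc sK2)) (num 1)))
      (mul (mul (num 8) (sc sL)) (sc cE2))).Fits x s5 := by
    refine fits_mul (fits_mul (fits_mul trivial (Exp.fits rfl) (u := 50) (by rfl) vS5 ?_)
      ⟨fits_mul (Exp.fits rfl) (Exp.fits rfl) vS5 hK25 ?_, trivial⟩ w1 w3 ?_)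
      (fits_mul (fits_mul trivial (Exp.fits rfl) (u := 8) (by rfl) hL5 ?_) (Exp.fits rfl) w5 vE5
        ?_) w4 w6 ?_
    · omega
    · omega
    · omega
    · omega
    · omega
    · omega
  refine Tri.seq (tri_put trivial trivial g4 (rfl : _ = _) :
    Tri x (putS sX _) s5 (fun s' => s' = _)) fun s6 h6 => ?_
  rw [w7, ← hX] at h6
  have f6 : ∀ y, y ≠ sX → s6 y = s5 y := fun y hy => by rw [h6]; exact upd_ne hy _ _ _
  have hX6 : (sc sX).val s6 = ((X : ℕ) : ℤ) := by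
    change s6 sX 0 0 = _
    rw [h6]
    exact upd_same _ _ _ _ _
  have v7 : (powE (sc sX) 100).val s6 = ((TTv : ℕ) : ℤ) := by
    rw [hTTv]
    exact val_powE hX6 100
  refine (tri_put trivial trivial (fits_powE (Exp.fits rfl) hX6 hX1 ?_) (rfl : _ = _) :
    Tri x (putS sT _) s6 (fun s' => s' = _)).mono fun s7 h7 => ?_
  · omega
  rw [v7] at h7
  have f7 : ∀ y, y ≠ sT → s7 y = s6 y := fun y hy => by rw [h7]; exact upd_ne hy _ _ _
  refine ⟨?_, ?_, ?_, ?_⟩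
  · rw [f7 sL (by decide), f6 sL (by decide)]
    exact hL5
  · rw [f7 sK (by decide), f6 sK (by decide), f5 sK (by decide), h4]
    exact upd_same _ _ _ _ _
  · rw [f7 sK2 (by decide), f6 sK2 (by decide)]
    exact hK25
  · rw [h7]
    exact upd_same _ _ _ _ _

end P328.Deep
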