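import Vale.Agent.P328.Deep.CountD
import Vale.Agent.P328.Deep.ParamsD
import Vale.Agent.P328.Deep.FitsD
import Vale.Agent.P328.Ratios
import Vale.Agent.P328.Time

/-!
# P328 : the product of the estimated ratios
-/

namespace P328.Deep

open Finset Exp Cmd

variable {m n : ℕ} {x : ℕ} {s : St}

/-- number of units removed -/
noncomputable def hh [NeZero m] [NeZero n] (b : Mg m n) : ℤ :=
  jump m n (min (b.1 (amax b.1)) (b.2 (amax b.2)))

/-- next margins -/
noncomputable def nxt [NeZero m] [NeZero n] (b : Mg m n) : Mg m n :=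
  b - hh b • mar (one (amax b.1) (amax b.2))

/-- one round: margins, numerator, denominator -/
noncomputable def rstep [NeZero m] [NeZero n] (e N : ℕ) (a : Mg m n × (ℕ × ℕ)) :
    PMF (Mg m n × (ℕ × ℕ)) :=
  if tot a.1 ≤ 0 then PMF.pure a
  else (law (count a.1 e (amax a.1.1) (amax a.1.2) (hh a.1) N)).map fun z =>
    (nxt a.1, (a.2.1 * N, a.2.2 * z))

theorem law_ratios_zero [NeZero m] [NeZero n] (e N f : ℕ) {b : Mg m n} (h : tot b ≤ 0) :
    law (ratios e N f b) = PMF.pure 1 := by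
  cases f with
  | zero => rw [ratios, law_ret]
  | succ f => rw [ratios, if_pos h, law_ret]

/-- the law of the loop -/
theorem loop_law [NeZero m] [NeZero n] (e N f : ℕ) (a : Mg m n × (ℕ × ℕ)) :
    (loop (fun _ => rstep e N) f a).map (fun a' => (a'.2.1 : ℚ) / (a'.2.2 : ℚ)) =
      (law (ratios e N f a.1)).map fun w => w * ((a.2.1 : ℚ) / (a.2.2 : ℚ)) := by
  induction f generalizing a with
  | zero =>
    rw [loop, ratios, law_ret, PMF.pure_map, PMF.pure_map, one_mul]
  | succ f ih =>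
    rw [loop_succ', PMF.map_bind]
    by_cases h : tot a.1 ≤ 0
    · have h1 : rstep e N a = PMF.pure a := by rw [rstep, if_pos h]
      rw [h1, PMF.pure_bind, ih a, law_ratios_zero e N f h, law_ratios_zero e N (f + 1) h]
    · have h1 : rstep e N a = (law (count a.1 e (amax a.1.1) (amax a.1.2) (hh a.1) N)).map
          fun z => (nxt a.1, (a.2.1 * N, a.2.2 * z)) := by rw [rstep, if_neg h]
      rw [h1, PMF.bind_map]
      have h2 := RA.ratios_succ e N f (not_le.mp h)
      rw [h2, PMF.map_bind]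
      congr 1
      funext z
      rw [Function.comp_apply, ih, PMF.map_bind, PMF.map]
      congr 1
      funext w
      rw [Function.comp_apply, PMF.pure_map]
      congr 1
      push_cast
      rw [mul_div_mul_comm]
      ring

theorem count_le [NeZero m] [NeZero n] (b : Mg m n) (e : ℕ) (i : Fin m) (j : Fin n) (h : ℤ)
    (k : ℕ) : ∀ z ∈ (law (count b e i j h k)).support, z ≤ k := by
  induction k with
  | zero =>
    intro z hz
    rw [count, law_ret, PMF.mem_support_pure_iff] at hz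
    omega
  | succ k ih =>
    intro z hz
    rw [law_count_succ, PMF.mem_support_bind_iff] at hz
    obtain ⟨w, hw, hz⟩ := hz
    rw [PMF.mem_support_bind_iff] at hz
    obtain ⟨X, _, hz⟩ := hz
    rw [PMF.mem_support_pure_iff] at hz
    have := ih w hw
    rw [hz]
    split_ifs <;> omega

theorem nxt_fst [NeZero m] [NeZero n] (b : Mg m n) (k : Fin m) :
    (nxt b).1 k = b.1 k - if k = amax b.1 then hh b else 0 := by
  have h1 : (nxt b).1 k = b.1 k - hh b * (mar (one (amax b.1) (amax b.2))).1 k := rfl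
  rw [h1, mar_one_fst]
  split_ifs <;> ring

theorem nxt_snd [NeZero m] [NeZero n] (b : Mg m n) (k : Fin n) :
    (nxt b).2 k = b.2 k - if k = amax b.2 then hh b else 0 := by
  have h1 : (nxt b).2 k = b.2 k - hh b * (mar (one (amax b.1) (amax b.2))).2 k := rfl
  rw [h1, mar_one_snd]
  split_ifs <;> ring

/-- the relation between the estimation and the memory after `t` rounds -/
structure RR (s : St) (b0 : Mg m n) (N t : ℕ) (a : Mg m n × (ℕ × ℕ)) (s' : St) : Prop where
  ok : Ok a.1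
  tot_le : tot a.1 ≤ tot b0
  r : IsR s' cR a.1.1
  c : IsR s' cC a.1.2
  num : s' cNum 0 0 = (a.2.1 : ℕ)
  den : s' cDen 0 0 = (a.2.2 : ℕ)
  bnum : a.2.1 ≤ (N + 1) ^ t
  bden : a.2.2 ≤ (N + 1) ^ t
  frame : ∀ y ∉ ratioC.wr, s' y = s y

theorem digits_le_pow {u N t : ℕ} (h : u ≤ (N + 1) ^ t) : digits (u : ℤ) ≤ t * N + 1 := by
  refine digits_le_of_lt (Int.natCast_nonneg u) ?_
  have h0 : N + 1 ≤ 2 ^ N := Nat.lt_two_pow_self
  have h1 : (N + 1) ^ t ≤ (2 ^ N) ^ t := Nat.pow_le_pow_left h0 t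
  have h2 : (2 ^ N) ^ t = 2 ^ (t * N) := by rw [← pow_mul, mul_comm]
  have h3 : 2 ^ (t * N) < 2 ^ (t * N + 1) := Nat.pow_lt_pow_right (by norm_num) (by omega)
  have h4 : u < 2 ^ (t * N + 1) := by omega
  exact_mod_cast h4

theorem imp_ratio [NeZero m] [NeZero n] {b0 : Mg m n} {e N f t : ℕ} (he : 1 ≤ e) (ht : t < f)
    (hd : Dim m n s) (hE : s cE2 0 0 = e) (hN : s cNs 0 0 = N)
    (hx1 : 2 * (f + 1) * (N + 1) ≤ x)
    (hx : ∀ b' : Mg m n, Ok b' → tot b' ≤ tot b0 → 2 * TT b' e ≤ x)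
    (a : Mg m n × (ℕ × ℕ)) (s' : St) (h : RR s b0 N t a s') :
    Imp x ratioC s' (rstep e N a) (RR s b0 N (t + 1)) := by
  obtain ⟨b, u, v⟩ := a
  have hok : Ok b := h.ok
  have htl : tot b ≤ tot b0 := h.tot_le
  have hbu : u ≤ (N + 1) ^ t := h.bnum
  have hbv : v ≤ (N + 1) ^ t := h.bden
  have hxb := hx b h.ok h.tot_le
  have hbig := (TT_big b he).1
  have hK48 : 48 ≤ KK2 b e := by
    have h1 : 1 ≤ prm b e := by
      have hm1 : 1 ≤ m := Nat.one_le_iff_ne_zero.mpr (NeZero.ne m)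
      unfold prm
      exact Nat.mul_pos (Nat.mul_pos (by omega) (len_pos b)) he
    have h2 : 1 ≤ prm b e ^ 16 := Nat.pow_pos h1
    unfold KK2
    omega
  have hmx : m ≤ x := by omega
  have hnx : n ≤ x := by omega
  have hN1 : (t * N + 1) + N ≤ x := by
    refine le_trans ?_ hx1
    have h1 : t * N ≤ f * N := Nat.mul_le_mul_right _ ht.le
    nlinarith
  have hpow : (N + 1) ^ t ≤ (N + 1) ^ (t + 1) := Nat.pow_le_pow_right (by omega) (by omega)
  have hd' : Dim m n s' := hd.agree (h.frame gM (by decide)) (h.frame gN (by decide))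
  have hE' : s' cE2 0 0 = e := by rw [h.frame cE2 (by decide)]; exact hE
  have hN' : s' cNs 0 0 = N := by rw [h.frame cNs (by decide)]; exact hN
  -- the arrays that are not written
  refine (Imp.frame (R := fun a' s2 => Ok a'.1 ∧ tot a'.1 ≤ tot b0 ∧ IsR s2 cR a'.1.1 ∧
    IsR s2 cC a'.1.2 ∧ s2 cNum 0 0 = (a'.2.1 : ℕ) ∧ s2 cDen 0 0 = (a'.2.2 : ℕ) ∧
    a'.2.1 ≤ (N + 1) ^ (t + 1) ∧ a'.2.2 ≤ (N + 1) ^ (t + 1)) ?_).mono fun a' _ s2 h2 =>
      ⟨h2.1.1, h2.1.2.1, h2.1.2.2.1, h2.1.2.2.2.1, h2.1.2.2.2.2.1, h2.1.2.2.2.2.2.1,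
        h2.1.2.2.2.2.2.2.1, h2.1.2.2.2.2.2.2.2, fun y hy => (h2.2 y hy).trans (h.frame y hy)⟩
  unfold ratioC
  refine Tri.seq_imp (tri_total (by decide) hmx (fun s1 h1 => ⟨Exp.fits rfl, ?_⟩) b.1
    fun i s1 h1 hi => ⟨Exp.fits rfl, ?_⟩) fun s1 h1 => ?_
  · change s1 gM 0 0 = _
    rw [h1 gM (by decide)]
    exact hd'.1
  · change s1 cR (s1 k1 0 0) 0 = _
    rw [h1 cR (by decide), hi]
    exact h.r i
  have eT : s1 cT 0 0 = tot b := h1.2
  have f1 : ∀ y, y ∉ [cT, k1] → s1 y = s' y := fun y hy => h1.1 y hy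
  by_cases htot : tot b ≤ 0
  · have e1 : rstep e N (b, u, v) = PMF.pure (b, u, v) := by
      rw [rstep, if_pos htot]
    rw [e1]
    refine imp_ite_pos ?_ (Exp.fits rfl) (Exp.fits rfl) ?_
    · change s1 cT 0 0 ≤ 0
      rw [eT]
      exact htot
    · refine (tri_skip (rfl : _ = _) : Tri x Cmd.skip s1 (fun s2 => s2 = s1)).imp fun s2 h2 => ?_
      rw [h2]
      refine ⟨hok, htl, ?_, ?_, ?_, ?_, hbu.trans hpow, hbv.trans hpow⟩
      · exact h.r.agree (f1 cR (by decide))
      · exact h.c.agree (f1 cC (by decide))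
      · rw [f1 cNum (by decide)]
        exact h.num
      · rw [f1 cDen (by decide)]
        exact h.den
  · have e1 : rstep e N (b, u, v) = (law (count b e (amax b.1) (amax b.2) (hh b) N)).map
        fun z => (nxt b, (u * N, v * z)) := by rw [rstep, if_neg htot]
    rw [e1]
    refine imp_ite_neg ?_ (Exp.fits rfl) (Exp.fits rfl) ?_
    · change ¬ s1 cT 0 0 ≤ 0
      rw [eT]
      exact htot
    have hr1 : IsR s1 cR b.1 := h.r.agree (f1 cR (by decide))
    have hc1 : IsR s1 cC b.2 := h.c.agree (f1 cC (by decide))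
    have hd1 : Dim m n s1 := hd'.agree (f1 gM (by decide)) (f1 gN (by decide))
    refine Tri.seq_imp (tri_amax (by decide) (by decide) (by decide) (by decide) (by decide)
      hd1.1 hmx hr1).frame fun s2 h2 => ?_
    have hI2 : s2 cI 0 0 = ((amax b.1 : Fin m) : ℕ) := h2.1
    have hc2 : IsR s2 cC b.2 := hc1.agree (h2.2 cC (by decide))
    have hr2 : IsR s2 cR b.1 := hr1.agree (h2.2 cR (by decide))
    have hd2 : Dim m n s2 := hd1.agree (h2.2 gM (by decide)) (h2.2 gN (by decide))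
    refine Tri.seq_imp (tri_amax (by decide) (by decide) (by decide) (by decide) (by decide)
      hd2.2 hnx hc2).frame fun s3 h3 => ?_
    have hJ3 : s3 cJ 0 0 = ((amax b.2 : Fin n) : ℕ) := h3.1
    have hI3 : s3 cI 0 0 = ((amax b.1 : Fin m) : ℕ) := by
      rw [h3.2 cI (by decide)]
      exact hI2
    have hc3 : IsR s3 cC b.2 := hc2.agree (h3.2 cC (by decide))
    have hr3 : IsR s3 cR b.1 := hr2.agree (h3.2 cR (by decide))
    have hd3 : Dim m n s3 := hd2.agree (h3.2 gM (by decide)) (h3.2 gN (by decide))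
    have v48 : (num 48).val s3 = ((48 : ℕ) : ℤ) := rfl
    have vS : (add (sc gM) (sc gN)).val s3 = ((m + n : ℕ) : ℤ) := val_add hd3.1 hd3.2
    have hfit : (mul (num 48) (add (sc gM) (sc gN))).Fits x s3 :=
      fits_mul trivial (Exp.fits rfl) v48 vS (by omega)
    have hfB : (div (sel (a1 cR cI) (a1 cC cJ) (a1 cR cI) (a1 cC cJ))
        (mul (num 48) (add (sc gM) (sc gN)))).Fits x s3 := ⟨Exp.fits rfl, hfit⟩
    refine Tri.seq_imp (tri_put trivial trivial hfB (rfl : _ = _) :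
      Tri x (putS cB _) s3 (fun s' => s' = _)) fun s4 h4 => ?_
    have f4 : ∀ y, y ≠ cB → s4 y = s3 y := fun y hy => by rw [h4]; exact upd_ne hy _ _ _
    have vR : (a1 cR cI).val s3 = b.1 (amax b.1) := by
      change s3 cR (s3 cI 0 0) 0 = _
      rw [hI3]
      exact hr3 _
    have vC : (a1 cC cJ).val s3 = b.2 (amax b.2) := by
      change s3 cC (s3 cJ 0 0) 0 = _
      rw [hJ3]
      exact hc3 _
    have eB : (div (sel (a1 cR cI) (a1 cC cJ) (a1 cR cI) (a1 cC cJ))
        (mul (num 48) (add (sc gM) (sc gN)))).val s3 =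
        min (b.1 (amax b.1)) (b.2 (amax b.2)) / (48 * (m + n)) := by
      change (if (a1 cR cI).val s3 ≤ (a1 cC cJ).val s3 then (a1 cR cI).val s3
        else (a1 cC cJ).val s3) / (mul (num 48) (add (sc gM) (sc gN))).val s3 = _
      rw [val_mul v48 vS, vR, vC]
      have : (if b.1 (amax b.1) ≤ b.2 (amax b.2) then b.1 (amax b.1) else b.2 (amax b.2)) =
          min (b.1 (amax b.1)) (b.2 (amax b.2)) := rfl
      rw [this]
      push_cast
      rfl
    rw [eB] at h4
    have hB4 : s4 cB 0 0 = min (b.1 (amax b.1)) (b.2 (amax b.2)) / (48 * (m + n)) := by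
      rw [h4]
      exact upd_same _ _ _ _ _
    refine Tri.seq_imp (tri_put trivial trivial (Exp.fits rfl) (rfl : _ = _) :
      Tri x (putS cH _) s4 (fun s' => s' = _)) fun s5 h5 => ?_
    have f5 : ∀ y, y ≠ cH → s5 y = s4 y := fun y hy => by rw [h5]; exact upd_ne hy _ _ _
    have eH : (sel (num 1) (sc cB) (sc cB) (num 1)).val s4 = hh b := by
      change (if (1 : ℤ) ≤ s4 cB 0 0 then s4 cB 0 0 else 1) = _
      rw [hB4]
      unfold hh jump
      rw [max_def]
    rw [eH] at h5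
    have hH5 : s5 cH 0 0 = hh b := by
      rw [h5]
      exact upd_same _ _ _ _ _
    have f53 : ∀ y, y ∉ [cB, cH] → s5 y = s3 y := by
      intro y hy
      simp only [List.mem_cons, not_or] at hy
      rw [f5 y hy.2.1, f4 y hy.1]
    have hd5 : Dim m n s5 := hd3.agree (f53 gM (by decide)) (f53 gN (by decide))
    have hr5 : IsR s5 cR b.1 := hr3.agree (f53 cR (by decide))
    have hc5 : IsR s5 cC b.2 := hc3.agree (f53 cC (by decide))
    have f5' : ∀ y, y ∉ [cB, cH] → y ∉ (amaxC cJ gN cC).wr → y ∉ (amaxC cI gM cR).wr →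
        y ∉ [cT, k1] → s5 y = s' y := fun y h1' h2' h3' h4' => by
      rw [f53 y h1', h3.2 y h2', h2.2 y h3', f1 y h4']
    have hE5 : s5 cE2 0 0 = (e : ℕ) := by
      rw [f5' cE2 (by decide) (by decide) (by decide) (by decide)]
      exact hE'
    have hN5 : s5 cNs 0 0 = (N : ℕ) := by
      rw [f5' cNs (by decide) (by decide) (by decide) (by decide)]
      exact hN'
    have hI5 : s5 cI 0 0 = ((amax b.1 : Fin m) : ℕ) := by
      rw [f53 cI (by decide)]
      exact hI3
    have hJ5 : s5 cJ 0 0 = ((amax b.2 : Fin n) : ℕ) := by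
      rw [f53 cJ (by decide)]
      exact hJ3
    have hu5 : s5 cNum 0 0 = (u : ℕ) := by
      rw [f5' cNum (by decide) (by decide) (by decide) (by decide)]
      exact h.num
    have hv5 : s5 cDen 0 0 = (v : ℕ) := by
      rw [f5' cDen (by decide) (by decide) (by decide) (by decide)]
      exact h.den
    have hNx : N ≤ x := by omega
    have hnext := ok_next hok (not_le.mp htot)
    have hokn : Ok (nxt b) := hnext.1
    have htn : tot (nxt b) ≤ tot b0 := by
      have h6 : tot (nxt b) = tot b - hh b := hnext.2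
      have h7 : 1 ≤ hh b := le_max_left _ _
      omega
    refine Imp.map (R := fun z s6 => Ok (nxt b) ∧ tot (nxt b) ≤ tot b0 ∧ IsR s6 cR (nxt b).1 ∧
      IsR s6 cC (nxt b).2 ∧ s6 cNum 0 0 = ((u * N : ℕ) : ℤ) ∧ s6 cDen 0 0 = ((v * z : ℕ) : ℤ) ∧
      u * N ≤ (N + 1) ^ (t + 1) ∧ v * z ≤ (N + 1) ^ (t + 1)) ?_ _ (fun z _ s6 h6 => h6)
    refine Imp.seq_tri (imp_count hok he hd5 hE5 hr5 hc5 hN5 hI5 hJ5 hH5 hxb hNx).frame
      fun z hz s6 h6 => ?_
    have hzN : z ≤ N := count_le b e _ _ _ N z hz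
    have hZ6 : s6 cZ 0 0 = (z : ℕ) := h6.1
    have hu6 : s6 cNum 0 0 = (u : ℕ) := by rw [h6.2 cNum (by decide)]; exact hu5
    have hv6 : s6 cDen 0 0 = (v : ℕ) := by rw [h6.2 cDen (by decide)]; exact hv5
    have hN6 : s6 cNs 0 0 = (N : ℕ) := by rw [h6.2 cNs (by decide)]; exact hN5
    have hI6 : s6 cI 0 0 = ((amax b.1 : Fin m) : ℕ) := by rw [h6.2 cI (by decide)]; exact hI5
    have hJ6 : s6 cJ 0 0 = ((amax b.2 : Fin n) : ℕ) := by rw [h6.2 cJ (by decide)]; exact hJ5
    have hH6 : s6 cH 0 0 = hh b := by rw [h6.2 cH (by decide)]; exact hH5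
    have hr6 : IsR s6 cR b.1 := hr5.agree (h6.2 cR (by decide))
    have hc6 : IsR s6 cC b.2 := hc5.agree (h6.2 cC (by decide))
    have du := digits_le_pow hbu
    have dv := digits_le_pow hbv
    have dN : digits (N : ℤ) ≤ N := by
      have := digits_le (N : ℤ)
      rwa [Int.natAbs_natCast] at this
    have dz : digits (z : ℤ) ≤ N := by
      have := digits_le (z : ℤ)
      rw [Int.natAbs_natCast] at this
      omega
    have fN : (mul (sc cNum) (sc cNs)).Fits x s6 := by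
      refine ⟨⟨Exp.fits rfl, Exp.fits rfl⟩, ?_⟩
      have a1 : (sc cNum).val s6 = (u : ℕ) := hu6
      have a2 : (sc cNs).val s6 = (N : ℕ) := hN6
      rw [a1, a2]
      omega
    refine Tri.seq (tri_put trivial trivial fN (rfl : _ = _) :
      Tri x (putS cNum _) s6 (fun s' => s' = _)) fun s7 h7 => ?_
    have eN : (mul (sc cNum) (sc cNs)).val s6 = ((u * N : ℕ) : ℤ) := val_mul hu6 hN6
    rw [eN] at h7
    have f7 : ∀ y, y ≠ cNum → s7 y = s6 y := fun y hy => by rw [h7]; exact upd_ne hy _ _ _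
    have hZ7 : s7 cZ 0 0 = (z : ℕ) := by rw [f7 cZ (by decide)]; exact hZ6
    have hv7 : s7 cDen 0 0 = (v : ℕ) := by rw [f7 cDen (by decide)]; exact hv6
    have fD : (mul (sc cDen) (sc cZ)).Fits x s7 := by
      refine ⟨⟨Exp.fits rfl, Exp.fits rfl⟩, ?_⟩
      have a1 : (sc cDen).val s7 = (v : ℕ) := hv7
      have a2 : (sc cZ).val s7 = (z : ℕ) := hZ7
      rw [a1, a2]
      omega
    refine Tri.seq (tri_put trivial trivial fD (rfl : _ = _) :
      Tri x (putS cDen _) s7 (fun s' => s' = _)) fun s8 h8 => ?_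
    have eD : (mul (sc cDen) (sc cZ)).val s7 = ((v * z : ℕ) : ℤ) := val_mul hv7 hZ7
    rw [eD] at h8
    have f8 : ∀ y, y ≠ cDen → s8 y = s7 y := fun y hy => by rw [h8]; exact upd_ne hy _ _ _
    have f86 : ∀ y, y ∉ [cNum, cDen] → s8 y = s6 y := by
      intro y hy
      simp only [List.mem_cons, not_or] at hy
      rw [f8 y hy.2.1, f7 y hy.1]
    have hI8 : s8 cI 0 0 = ((amax b.1 : Fin m) : ℕ) := by rw [f86 cI (by decide)]; exact hI6
    have hH8 : s8 cH 0 0 = hh b := by rw [f86 cH (by decide)]; exact hH6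
    have hr8 : IsR s8 cR b.1 := hr6.agree (f86 cR (by decide))
    refine Tri.seq (tri_put (Exp.fits rfl) trivial (Exp.fits rfl) (rfl : _ = _) :
      Tri x (put1 cR cI _) s8 (fun s' => s' = _)) fun s9 h9 => ?_
    have f9 : ∀ y, y ≠ cR → s9 y = s8 y := fun y hy => by rw [h9]; exact upd_ne hy _ _ _
    have hJ9 : s9 cJ 0 0 = ((amax b.2 : Fin n) : ℕ) := by
      rw [f9 cJ (by decide), f86 cJ (by decide)]
      exact hJ6
    have hH9 : s9 cH 0 0 = hh b := by rw [f9 cH (by decide)]; exact hH8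
    have hc9 : IsR s9 cC b.2 := hc6.agree ((f9 cC (by decide)).trans (f86 cC (by decide)))
    have hr9 : IsR s9 cR (nxt b).1 := by
      intro k
      rw [h9]
      have a1 : (sc cI).val s8 = ((amax b.1 : Fin m) : ℕ) := hI8
      have a2 : (sub (P328.Deep.a1 cR cI) (sc cH)).val s8 = b.1 (amax b.1) - hh b := by
        change s8 cR (s8 cI 0 0) 0 - s8 cH 0 0 = _
        rw [hI8, hH8, hr8]
      rw [a1, a2, nxt_fst]
      by_cases hk : k = amax b.1
      · rw [if_pos hk, hk]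
        exact upd_same _ _ _ _ _
      · rw [if_neg hk, sub_zero]
        have hne : ¬ (((k : ℕ) : ℤ) = ((amax b.1 : Fin m) : ℕ) ∧ (0 : ℤ) = 0) := by
          rintro ⟨h10, -⟩
          exact hk (Fin.ext (by exact_mod_cast h10))
        exact (upd_cell hne _).trans (hr8 k)
    refine (tri_put (Exp.fits rfl) trivial (Exp.fits rfl) (rfl : _ = _) :
      Tri x (put1 cC cJ _) s9 (fun s' => s' = _)).mono fun s10 h10 => ?_
    have f10 : ∀ y, y ≠ cC → s10 y = s9 y := fun y hy => by rw [h10]; exact upd_ne hy _ _ _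
    have hc10 : IsR s10 cC (nxt b).2 := by
      intro k
      rw [h10]
      have a1 : (sc cJ).val s9 = ((amax b.2 : Fin n) : ℕ) := hJ9
      have a2 : (sub (P328.Deep.a1 cC cJ) (sc cH)).val s9 = b.2 (amax b.2) - hh b := by
        change s9 cC (s9 cJ 0 0) 0 - s9 cH 0 0 = _
        rw [hJ9, hH9, hc9]
      rw [a1, a2, nxt_snd]
      by_cases hk : k = amax b.2
      · rw [if_pos hk, hk]
        exact upd_same _ _ _ _ _
      · rw [if_neg hk, sub_zero]
        have hne : ¬ (((k : ℕ) : ℤ) = ((amax b.2 : Fin n) : ℕ) ∧ (0 : ℤ) = 0) := by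
          rintro ⟨h11, -⟩
          exact hk (Fin.ext (by exact_mod_cast h11))
        exact (upd_cell hne _).trans (hc9 k)
    refine ⟨hokn, htn, hr9.agree (f10 cR (by decide)), hc10, ?_, ?_, ?_, ?_⟩
    · rw [f10 cNum (by decide), f9 cNum (by decide), f8 cNum (by decide), h7]
      exact upd_same _ _ _ _ _
    · rw [f10 cDen (by decide), f9 cDen (by decide), h8]
      exact upd_same _ _ _ _ _
    · rw [pow_succ]
      exact Nat.mul_le_mul hbu (by omega)
    · rw [pow_succ]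
      exact Nat.mul_le_mul hbv (by omega)

theorem imp_ratios [NeZero m] [NeZero n] {b : Mg m n} (hb : Ok b) {e N f : ℕ} (he : 1 ≤ e)
    (hd : Dim m n s) (hE : s cE2 0 0 = e) (hr : IsR s cR b.1) (hc : IsR s cC b.2)
    (hN : s cNs 0 0 = N) (hF : s cF 0 0 = f) (hnum : s cNum 0 0 = 1) (hden : s cDen 0 0 = 1)
    (hx1 : 2 * (f + 1) * (N + 1) ≤ x)
    (hx : ∀ b' : Mg m n, Ok b' → tot b' ≤ tot b → 2 * TT b' e ≤ x) :
    Imp x ratiosC s (law (ratios e N f b))
      (fun w s' => (s' cNum 0 0 : ℚ) / (s' cDen 0 0 : ℚ) = w) := by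
  have h1 := loop_law e N f (b, (1, 1))
  have h2 : (law (ratios e N f b)).map (fun w => w * (((1 : ℕ) : ℚ) / ((1 : ℕ) : ℚ))) =
      law (ratios e N f b) := by
    simp only [Nat.cast_one, div_one, mul_one]
    exact PMF.map_id _
  rw [← h2]
  change Imp x ratiosC s ((law (ratios e N f ((b, (1, 1)) : Mg m n × (ℕ × ℕ)).1)).map fun w =>
    w * ((((b, (1, 1)) : Mg m n × (ℕ × ℕ)).2.1 : ℚ) / (((b, (1, 1)) : Mg m n × (ℕ × ℕ)).2.2 : ℚ)))
    _
  rw [← h1]
  refine Imp.map (R := RR s b N f) ?_ _ fun a' _ s' h => ?_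
  · unfold ratiosC
    refine imp_rep (R := RR s b N) ?_ ?_ (Exp.fits rfl) ?_ ?_
    · change (s cF 0 0).toNat = f
      rw [hF]
      simp
    · nlinarith
    · exact ⟨hb, le_refl _, hr, hc, by rw [hnum]; rfl, by rw [hden]; rfl, by simp, by simp,
        fun y _ => rfl⟩
    · intro t ht a _ s' h
      exact imp_ratio he ht hd hE hN hx1 hx a s' h
  · rw [h.num, h.den]
    push_cast
    rfl

end P328.Deep
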