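import Vale.Agent.P328.Deep.FitsD
import Vale.Agent.P328.Deep.RatiosD
import Vale.Agent.P328.Time

/-!
# P328 : the approximate counter
-/

namespace P328.Deep

open Finset Exp Cmd

variable {m n : ℕ} {x : ℕ} {s : St}

theorem TT_mono {b b' : Mg m n} (h : tot b' ≤ tot b) (e : ℕ) : TT b' e ≤ TT b e := by
  have hl := len_mono h
  unfold TT KK2 prm
  gcongr

/-- the arithmetic of the parameters -/
theorem param_arith {S L e2 d TTv : ℕ} (hS : 1 ≤ S) (hL : 1 ≤ L) (he2 : 1 ≤ e2)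
    (hT : (400 * S * L * e2) ^ 100 ≤ TTv) :
    2 * (100 * S ^ 2 * L + 1) * (4 * e2 ^ 2 * (d + 200 * S ^ 2 * L) + 1) ≤ (TTv + d) ^ 2 ∧
    2 * TTv ≤ (TTv + d) ^ 2 := by
  set q := 400 * S * L * e2 with hq
  have hSL : 1 ≤ S * L := Nat.mul_pos hS hL
  have hSLe : 1 ≤ S * L * e2 := Nat.mul_pos hSL he2
  have q1 : 400 ≤ q := by
    rw [hq]
    nlinarith
  have qS : S ≤ q := by
    rw [hq]
    calc S = S * 1 * 1 := by ring
      _ ≤ S * (400 * L) * e2 := by gcongr; omega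
      _ = _ := by ring
  have qe : e2 ≤ q := by
    rw [hq]
    calc e2 = 1 * e2 := by ring
      _ ≤ (400 * S * L) * e2 := by
          gcongr
          nlinarith
  have qSL : 400 * S * L ≤ q := by
    rw [hq]
    nlinarith [Nat.zero_le (400 * S * L)]
  have f1 : 100 * S ^ 2 * L + 1 ≤ q ^ 3 := by
    have h1 : 100 * S ^ 2 * L ≤ q ^ 2 := by
      calc 100 * S ^ 2 * L = S * (100 * S * L) := by ring
        _ ≤ q * q := by
            gcongr
            refine le_trans ?_ qSL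
            gcongr
            norm_num
        _ = q ^ 2 := by ring
    have h2 : q ^ 3 = q * q ^ 2 := by ring
    have h3 : 1 ≤ q ^ 2 := Nat.one_le_pow _ _ (by omega)
    nlinarith
  have f2 : 4 * e2 ^ 2 * (d + 200 * S ^ 2 * L) + 1 ≤ q ^ 6 * (d + 1) := by
    have h1 : 200 * S ^ 2 * L ≤ q ^ 2 := by
      calc 200 * S ^ 2 * L = S * (200 * S * L) := by ring
        _ ≤ q * q := by
            gcongr
            refine le_trans ?_ qSL
            gcongr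
            norm_num
        _ = q ^ 2 := by ring
    have h3 : 1 ≤ q ^ 2 := Nat.one_le_pow _ _ (by omega)
    have h4 : d + 200 * S ^ 2 * L ≤ q ^ 2 * (d + 1) := by nlinarith [Nat.zero_le (q ^ 2 * d)]
    have h5 : 4 * e2 ^ 2 ≤ q ^ 3 := by
      calc 4 * e2 ^ 2 ≤ q * q ^ 2 := by
            gcongr
            omega
        _ = q ^ 3 := by ring
    have h6 : 4 * e2 ^ 2 * (d + 200 * S ^ 2 * L) ≤ q ^ 3 * (q ^ 2 * (d + 1)) :=
      Nat.mul_le_mul h5 h4
    have h7 : 1 ≤ q ^ 5 * (d + 1) := Nat.mul_pos (Nat.pow_pos (by omega)) (by omega)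
    calc 4 * e2 ^ 2 * (d + 200 * S ^ 2 * L) + 1 ≤ q ^ 5 * (d + 1) + q ^ 5 * (d + 1) := by
          refine Nat.add_le_add (h6.trans (le_of_eq ?_)) h7
          ring
      _ = 2 * (q ^ 5 * (d + 1)) := by ring
      _ ≤ q * (q ^ 5 * (d + 1)) := by
          gcongr
          omega
      _ = q ^ 6 * (d + 1) := by ring
  have hT1 : 400 ≤ TTv := by
    refine le_trans q1 (le_trans ?_ hT)
    calc q = q ^ 1 := (pow_one q).symm
      _ ≤ q ^ 100 := Nat.pow_le_pow_right (by omega) (by norm_num)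
  constructor
  · calc 2 * (100 * S ^ 2 * L + 1) * (4 * e2 ^ 2 * (d + 200 * S ^ 2 * L) + 1)
        ≤ q * q ^ 3 * (q ^ 6 * (d + 1)) := by
          gcongr
          omega
      _ = q ^ 10 * (d + 1) := by ring
      _ ≤ q ^ 100 * (d + 1) := by
          gcongr
          · omega
          · norm_num
      _ ≤ TTv * (d + 1) := by gcongr
      _ ≤ (TTv + d) ^ 2 := by nlinarith [Nat.zero_le (d ^ 2)]
  · nlinarith [Nat.zero_le (d ^ 2), Nat.zero_le (TTv * d)]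

theorem param_bounds {S L e e2 N F d x : ℕ} (hS1 : 1 ≤ S) (hL1 : 1 ≤ L) (he : 1 ≤ e)
    (he2 : e2 = 1600 * S ^ 4 * L * e) (hN : N = 4 * e2 ^ 2 * (d + 200 * S ^ 2 * L))
    (hF : F = 100 * S ^ 2 * L) (hx1 : 2 * (F + 1) * (N + 1) ≤ x) :
    (S ^ 4 + S ≤ x ∧ 1600 + S ^ 4 ≤ x ∧ 1600 * S ^ 4 + L ≤ x ∧ 1600 * S ^ 4 * L + e ≤ x) ∧
    (e2 ^ 2 + e2 ≤ x ∧ 4 + e2 ^ 2 ≤ x ∧ 4 * e2 ^ 2 + (d + 200 * S ^ 2 * L) ≤ x) ∧
    (S ^ 2 + S ≤ x ∧ 200 + S ^ 2 ≤ x ∧ 200 * S ^ 2 + L ≤ x) ∧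
    (100 + S ^ 2 ≤ x ∧ 100 * S ^ 2 + L ≤ x) := by
  have hS21 : 1 ≤ S ^ 2 := Nat.pow_pos hS1
  have hS41 : 1 ≤ S ^ 4 := Nat.pow_pos hS1
  obtain ⟨P, hP⟩ : ∃ P, P = S ^ 4 := ⟨_, rfl⟩
  obtain ⟨Q, hQ⟩ : ∃ Q, Q = S ^ 2 := ⟨_, rfl⟩
  rw [← hP] at he2 hS41 ⊢
  rw [← hQ] at hN hF hS21 ⊢
  have hSQ : S ≤ Q := by
    rw [hQ]
    nlinarith
  have hSP : S ≤ P := by
    rw [hP]
    calc S = S ^ 1 := (pow_one S).symm
      _ ≤ S ^ 4 := Nat.pow_le_pow_right hS1 (by norm_num)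
  have h1 : P ≤ P * L := Nat.le_mul_of_pos_right _ hL1
  have h1' : L ≤ P * L := Nat.le_mul_of_pos_left _ hS41
  have h2 : P * L ≤ P * L * e := Nat.le_mul_of_pos_right _ he
  have h2' : e ≤ P * L * e := Nat.le_mul_of_pos_left _ (Nat.mul_pos hS41 hL1)
  have he2' : e2 = 1600 * (P * L * e) := by
    rw [he2]
    ring
  have e3 : 1600 * P * L = 1600 * (P * L) := by ring
  have he21 : 1 ≤ e2 := by omega
  have h3 : e2 ≤ e2 ^ 2 := by nlinarith
  have h4 : Q ≤ Q * L := Nat.le_mul_of_pos_right _ hL1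
  have h4' : L ≤ Q * L := Nat.le_mul_of_pos_left _ hS21
  have e4 : 200 * Q * L = 200 * (Q * L) := by ring
  have e5 : 100 * Q * L = 100 * (Q * L) := by ring
  have h5 : 4 * e2 ^ 2 ≤ N := by
    rw [hN]
    exact Nat.le_mul_of_pos_right _ (by omega)
  have h6 : d + 200 * Q * L ≤ N := by
    rw [hN]
    exact Nat.le_mul_of_pos_left _ (by omega)
  have h7 : 2 * (N + 1) ≤ x := by
    refine le_trans ?_ hx1
    nlinarith [Nat.zero_le (F * N)]
  rw [e3, e4]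
  rw [e4] at h6
  refine ⟨⟨?_, ?_, ?_, ?_⟩, ⟨?_, ?_, ?_⟩, ⟨?_, ?_, ?_⟩, ?_, ?_⟩ <;> omega

theorem imp_counter [NeZero m] [NeZero n] {b : Mg m n} (hb : Ok b) {e d : ℕ} (he : 1 ≤ e)
    (hd : Dim m n s) (hE : s cE 0 0 = e) (hD : s cD 0 0 = d)
    (hr : IsR s cR b.1) (hc : IsR s cC b.2)
    (hx : (TT b (1600 * (m + n) ^ 4 * len b * e) + d) ^ 2 ≤ x) :
    Imp x counterC s (law (counter b e d))
      (fun w s' => (s' cNum 0 0 : ℚ) / (s' cDen 0 0 : ℚ) = w) := by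
  obtain ⟨S, hS⟩ : ∃ S, S = m + n := ⟨_, rfl⟩
  obtain ⟨L, hL⟩ : ∃ L, L = len b := ⟨_, rfl⟩
  obtain ⟨e2, he2⟩ : ∃ e2, e2 = 1600 * S ^ 4 * L * e := ⟨_, rfl⟩
  obtain ⟨N, hN⟩ : ∃ N, N = 4 * e2 ^ 2 * (d + 200 * S ^ 2 * L) := ⟨_, rfl⟩
  obtain ⟨F, hF⟩ : ∃ F, F = 100 * S ^ 2 * L := ⟨_, rfl⟩
  rw [← hS, ← hL, ← he2] at hx
  have hm1 : 1 ≤ m := Nat.one_le_iff_ne_zero.mpr (NeZero.ne m)
  have hS1 : 1 ≤ S := by omega
  have hL1 : 1 ≤ L := by rw [hL]; exact len_pos b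
  have he21 : 1 ≤ e2 := by
    rw [he2]
    exact Nat.mul_pos (Nat.mul_pos (Nat.mul_pos (by norm_num) (Nat.pow_pos hS1)) hL1) he
  have hTT : (400 * S * L * e2) ^ 100 ≤ TT b e2 := by
    unfold TT
    rw [← hS, ← hL]
    refine Nat.pow_le_pow_left ?_ 100
    have h1 : 400 * S * L * e2 = 50 * S * 1 * (8 * L * e2) := by ring
    rw [h1]
    exact Nat.mul_le_mul_right _ (Nat.mul_le_mul_left _ (by omega))
  obtain ⟨hA1, hA2⟩ := param_arith (d := d) hS1 hL1 he21 hTT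
  rw [← hF, ← hN] at hA1
  have hlaw : law (counter b e d) = law (ratios e2 N F b) := by
    rw [counter, law_charge, ← hS, ← hL, ← he2, ← hN, ← hF]
  have hx1 : 2 * (F + 1) * (N + 1) ≤ x := hA1.trans hx
  obtain ⟨⟨p1, p2, p3, p4⟩, ⟨p5, p6, p7⟩, ⟨p8, p9, p10⟩, p11, p12⟩ :=
    param_bounds hS1 hL1 he he2 hN hF hx1
  have hxm : m ≤ x := by
    have : m ≤ S := by omega
    exact this.trans ((Nat.le_add_left _ _).trans p8)
  rw [hlaw]
  unfold counterC
  -- total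
  refine Tri.seq_imp (tri_total (by decide) hxm (fun s' h => ⟨Exp.fits rfl, ?_⟩) b.1
    fun i s' h hi => ⟨Exp.fits rfl, ?_⟩).frame fun s1 h1 => ?_
  · change s' gM 0 0 = _
    rw [h gM (by decide)]
    exact hd.1
  · change s' cR (s' k1 0 0) 0 = _
    rw [h cR (by decide), hi]
    exact hr i
  have eT : s1 cT 0 0 = tot b := h1.1.2
  have hM1 : s1 gM 0 0 = (m : ℕ) := by rw [h1.2 gM (by decide)]; exact hd.1
  have hN1 : s1 gN 0 0 = (n : ℕ) := by rw [h1.2 gN (by decide)]; exact hd.2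
  have hE1 : s1 cE 0 0 = (e : ℕ) := by rw [h1.2 cE (by decide)]; exact hE
  have hD1 : s1 cD 0 0 = (d : ℕ) := by rw [h1.2 cD (by decide)]; exact hD
  have hr1 : IsR s1 cR b.1 := hr.agree (h1.2 cR (by decide))
  have hc1 : IsR s1 cC b.2 := hc.agree (h1.2 cC (by decide))
  -- length
  refine Tri.seq_imp (tri_put trivial trivial (Exp.fits rfl) (rfl : _ = _) :
    Tri x (putS cL (add (lg (sc cT)) (num 1))) s1 (fun s' => s' = _)) fun s2 h2 => ?_
  have eL : (add (lg (sc cT)) (num 1)).val s1 = ((L : ℕ) : ℤ) := by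
    change ((Nat.log 2 (s1 cT 0 0).toNat : ℕ) : ℤ) + 1 = _
    rw [eT, hL]
    unfold len
    push_cast
    rfl
  rw [eL] at h2
  have f2 : ∀ y, y ≠ cL → s2 y = s1 y := fun y hy => by rw [h2]; exact upd_ne hy _ _ _
  have hL2 : s2 cL 0 0 = (L : ℕ) := by rw [h2]; exact upd_same _ _ _ _ _
  -- precision
  have vS2 : (add (sc gM) (sc gN)).val s2 = ((S : ℕ) : ℤ) := by
    rw [hS]
    refine val_add ?_ ?_
    · change s2 gM 0 0 = _
      rw [f2 gM (by decide)]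
      exact hM1
    · change s2 gN 0 0 = _
      rw [f2 gN (by decide)]
      exact hN1
  have vE2 : (sc cE).val s2 = ((e : ℕ) : ℤ) := by
    change s2 cE 0 0 = _
    rw [f2 cE (by decide)]
    exact hE1
  have v1 := val_mul (s := s2) (a := num 1600) (u := 1600) (by rfl) (val_powE vS2 4)
  have v2 := val_mul (b := sc cL) v1 hL2
  have v3 := val_mul v2 vE2
  have g1 : (mul (mul (mul (num 1600) (powE (add (sc gM) (sc gN)) 4)) (sc cL)) (sc cE)).Fits x
      s2 := by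
    refine fits_mul (fits_mul (fits_mul trivial (fits_powE (Exp.fits rfl) vS2 hS1 ?_)
      (u := 1600) (by rfl) (val_powE vS2 4) ?_) (Exp.fits rfl) v1 hL2 ?_) (Exp.fits rfl) v2 vE2 ?_
    · exact p1
    · exact p2
    · exact p3
    · exact p4
  refine Tri.seq_imp (tri_put trivial trivial g1 (rfl : _ = _) :
    Tri x (putS cE2 _) s2 (fun s' => s' = _)) fun s3 h3 => ?_
  rw [v3, ← he2] at h3
  have f3 : ∀ y, y ≠ cE2 → s3 y = s2 y := fun y hy => by rw [h3]; exact upd_ne hy _ _ _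
  have hE3 : s3 cE2 0 0 = (e2 : ℕ) := by rw [h3]; exact upd_same _ _ _ _ _
  -- number of samples
  have vS3 : (add (sc gM) (sc gN)).val s3 = ((S : ℕ) : ℤ) := by
    change s3 gM 0 0 + s3 gN 0 0 = _
    rw [f3 gM (by decide), f3 gN (by decide)]
    exact vS2
  have hL3 : (sc cL).val s3 = ((L : ℕ) : ℤ) := by
    change s3 cL 0 0 = _
    rw [f3 cL (by decide)]
    exact hL2
  have hD3 : (sc cD).val s3 = ((d : ℕ) : ℤ) := by
    change s3 cD 0 0 = _
    rw [f3 cD (by decide), f2 cD (by decide)]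
    exact hD1
  have w1 := val_mul (s := s3) (a := num 4) (u := 4) (by rfl) (val_powE (e := sc cE2) hE3 2)
  have w2 := val_mul (s := s3) (a := num 200) (u := 200) (by rfl) (val_powE vS3 2)
  have w3 := val_mul w2 hL3
  have w4 := val_add hD3 w3
  have w5 := val_mul w1 w4
  have g2 : (mul (mul (num 4) (powE (sc cE2) 2))
      (add (sc cD) (mul (mul (num 200) (powE (add (sc gM) (sc gN)) 2)) (sc cL)))).Fits x s3 := by
    refine fits_mul (fits_mul trivial (fits_powE (Exp.fits rfl) (e := sc cE2) hE3 he21 ?_)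
      (u := 4) (by rfl) (val_powE (e := sc cE2) hE3 2) ?_) ⟨Exp.fits rfl,
        fits_mul (fits_mul trivial (fits_powE (Exp.fits rfl) vS3 hS1 ?_) (u := 200) (by rfl)
          (val_powE vS3 2) ?_) (Exp.fits rfl) w2 hL3 ?_⟩ w1 w4 ?_
    · exact p5
    · exact p6
    · exact p8
    · exact p9
    · exact p10
    · exact p7
  refine Tri.seq_imp (tri_put trivial trivial g2 (rfl : _ = _) :
    Tri x (putS cNs _) s3 (fun s' => s' = _)) fun s4 h4 => ?_
  rw [w5, ← hN] at h4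
  have f4 : ∀ y, y ≠ cNs → s4 y = s3 y := fun y hy => by rw [h4]; exact upd_ne hy _ _ _
  have hN4 : s4 cNs 0 0 = (N : ℕ) := by rw [h4]; exact upd_same _ _ _ _ _
  -- number of factors
  have vS4 : (add (sc gM) (sc gN)).val s4 = ((S : ℕ) : ℤ) := by
    change s4 gM 0 0 + s4 gN 0 0 = _
    rw [f4 gM (by decide), f4 gN (by decide)]
    exact vS3
  have hL4 : (sc cL).val s4 = ((L : ℕ) : ℤ) := by
    change s4 cL 0 0 = _
    rw [f4 cL (by decide)]
    exact hL3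
  have z1 := val_mul (s := s4) (a := num 100) (u := 100) (by rfl) (val_powE vS4 2)
  have z2 := val_mul z1 hL4
  have g3 : (mul (mul (num 100) (powE (add (sc gM) (sc gN)) 2)) (sc cL)).Fits x s4 := by
    refine fits_mul (fits_mul trivial (fits_powE (Exp.fits rfl) vS4 hS1 ?_) (u := 100) (by rfl)
      (val_powE vS4 2) ?_) (Exp.fits rfl) z1 hL4 ?_
    · exact p8
    · exact p11
    · exact p12
  refine Tri.seq_imp (tri_put trivial trivial g3 (rfl : _ = _) :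
    Tri x (putS cF _) s4 (fun s' => s' = _)) fun s5 h5 => ?_
  rw [z2, ← hF] at h5
  have f5 : ∀ y, y ≠ cF → s5 y = s4 y := fun y hy => by rw [h5]; exact upd_ne hy _ _ _
  have hF5 : s5 cF 0 0 = (F : ℕ) := by rw [h5]; exact upd_same _ _ _ _ _
  refine Tri.seq_imp (tri_put trivial trivial trivial (rfl : _ = _) :
    Tri x (putS cNum (num 1)) s5 (fun s' => s' = _)) fun s6 h6 => ?_
  have f6 : ∀ y, y ≠ cNum → s6 y = s5 y := fun y hy => by rw [h6]; exact upd_ne hy _ _ _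
  refine Tri.seq_imp (tri_put trivial trivial trivial (rfl : _ = _) :
    Tri x (putS cDen (num 1)) s6 (fun s' => s' = _)) fun s7 h7 => ?_
  have f7 : ∀ y, y ≠ cDen → s7 y = s6 y := fun y hy => by rw [h7]; exact upd_ne hy _ _ _
  have key : ∀ y, y ∉ [cL, cE2, cNs, cF, cNum, cDen] → s7 y = s1 y := by
    intro y hy
    simp only [List.mem_cons, not_or] at hy
    rw [f7 y hy.2.2.2.2.2.1, f6 y hy.2.2.2.2.1, f5 y hy.2.2.2.1, f4 y hy.2.2.1, f3 y hy.2.1,
      f2 y hy.1]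
  refine imp_ratios hb he21 ⟨?_, ?_⟩ ?_ ?_ ?_ ?_ ?_ ?_ ?_ hx1 ?_
  · rw [key gM (by decide)]
    exact hM1
  · rw [key gN (by decide)]
    exact hN1
  · rw [f7 cE2 (by decide), f6 cE2 (by decide), f5 cE2 (by decide), f4 cE2 (by decide)]
    exact hE3
  · exact hr1.agree (key cR (by decide))
  · exact hc1.agree (key cC (by decide))
  · rw [f7 cNs (by decide), f6 cNs (by decide), f5 cNs (by decide)]
    exact hN4
  · rw [f7 cF (by decide), f6 cF (by decide)]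
    exact hF5
  · rw [f7 cNum (by decide), h6]
    exact upd_same _ _ _ _ _
  · rw [h7]
    exact upd_same _ _ _ _ _
  · intro b' _ hb'
    exact (Nat.mul_le_mul_left 2 (TT_mono hb' e2)).trans (hA2.trans hx)

end P328.Deep
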