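import Vale.Agent.P328.Deep.Spec
import Vale.Agent.P328.Deep.CounterD
import Vale.Agent.P328.Ratios
import Vale.Agent.P328.Time

/-!
# P328 : the final theorem for the programs
-/

namespace P328.Deep

open Finset Exp Cmd

section Lemmas

variable {m n : ℕ} {r : Fin m → ℕ} {c : Fin n → ℕ}

/-- the margins, as integers -/
def margins (r : Fin m → ℕ) (c : Fin n → ℕ) : Mg m n :=
  (fun i => (r i : ℤ), fun j => (c j : ℤ))

theorem ok_margins (h : ∑ i, r i = ∑ j, c j) : Ok (margins r c) := by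
  refine ⟨fun i => Int.natCast_nonneg _, fun j => Int.natCast_nonneg _, ?_⟩
  change ∑ i, (r i : ℤ) = ∑ j, (c j : ℤ)
  exact_mod_cast h

theorem mem_Omega {X : Fin m × Fin n → ℤ} : X ∈ Om (margins r c) ↔ X ∈ Omega r c := by
  rw [mem_Om]
  constructor
  · rintro ⟨h0, h⟩
    refine ⟨fun p => h0 p, fun i => ?_, fun j => ?_⟩
    · exact congrFun (congrArg Prod.fst h) i
    · exact congrFun (congrArg Prod.snd h) j
  · rintro ⟨h0, h1, h2⟩
    exact ⟨fun p => h0 p, Prod.ext (funext h1) (funext h2)⟩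

theorem Omega_eq : Omega r c = ↑(Om (margins r c)) := by
  ext X
  rw [Finset.mem_coe]
  exact mem_Omega.symm

theorem ncard_Omega : (Omega r c).ncard = (Om (margins r c)).card := by
  rw [Omega_eq, Set.ncard_coe_finset]

theorem uniform_eq (h : ∑ i, r i = ∑ j, c j) (X : Fin m × Fin n → ℤ) :
    (unifOm (margins r c) X).toReal = uniform r c X := by
  have hne := Om_nonempty (ok_margins h)
  unfold unifOm uniform
  rw [dif_pos hne, PMF.uniformOfFinset_apply, ncard_Omega]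
  by_cases hX : X ∈ Omega r c
  · rw [if_pos hX, if_pos (mem_Omega.mpr hX), ENNReal.toReal_inv, ENNReal.toReal_natCast, one_div]
  · rw [if_neg hX, if_neg (fun h => hX (mem_Omega.mp h)), ENNReal.toReal_zero]

theorem sum_lt_prod {k : ℕ} (f : Fin k → ℕ) (s : Finset (Fin k)) :
    ∑ i ∈ s, f i + 1 ≤ ∏ i ∈ s, (f i + 2) := by
  classical
  induction s using Finset.induction_on with
  | empty => simp
  | insert a s ha ih =>
    rw [Finset.sum_insert ha, Finset.prod_insert ha]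
    have h1 : 1 ≤ ∏ i ∈ s, (f i + 2) := by omega
    nlinarith [Nat.mul_le_mul_left (f a + 2) ih, Nat.zero_le (f a * ∑ i ∈ s, f i)]

theorem len_le_size (hn : 1 ≤ n) : len (margins r c) ≤ size r c := by
  have h1 : (tot (margins r c)).toNat = ∑ i, r i := by
    unfold tot margins
    have : (∑ i, (r i : ℤ)) = ((∑ i, r i : ℕ) : ℤ) := by push_cast; rfl
    simp only [this, Int.toNat_natCast]
  have h2 : ∏ i, (r i + 2) ≤ 2 ^ (m + ∑ i, Nat.log 2 (r i + 2)) := by
    calc ∏ i, (r i + 2) ≤ ∏ i : Fin m, 2 ^ (1 + Nat.log 2 (r i + 2)) := by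
          refine Finset.prod_le_prod' fun i _ => ?_
          have := Nat.lt_pow_succ_log_self (b := 2) (by norm_num) (r i + 2)
          rw [add_comm 1]
          exact this.le
      _ = 2 ^ (∑ i : Fin m, (1 + Nat.log 2 (r i + 2))) := Finset.prod_pow_eq_pow_sum _ _ _
      _ = 2 ^ (m + ∑ i, Nat.log 2 (r i + 2)) := by
          rw [Finset.sum_add_distrib]
          simp
  have h3 := sum_lt_prod r univ
  have h4 : Nat.log 2 (∑ i, r i) ≤ m + ∑ i, Nat.log 2 (r i + 2) := by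
    refine Nat.le_of_lt_succ ?_
    by_cases h0 : ∑ i, r i = 0
    · rw [h0]
      simp
    · refine Nat.log_lt_of_lt_pow h0 ?_
      refine lt_of_lt_of_le (by omega : ∑ i, r i < ∏ i, (r i + 2)) (h2.trans ?_)
      exact Nat.pow_le_pow_right (by norm_num) (Nat.le_succ _)
  unfold len size
  rw [h1]
  omega

theorem input_dim (r : Fin m → ℕ) (c : Fin n → ℕ) (e d : ℕ) : Dim m n (input r c e d) := by
  refine ⟨?_, ?_⟩
  · change scalar m 0 0 = _
    simp [scalar]
  · change scalar n 0 0 = _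
    simp [scalar]

theorem input_e (r : Fin m → ℕ) (c : Fin n → ℕ) (e d : ℕ) : input r c e d cE 0 0 = e := by
  change scalar e 0 0 = _
  simp [scalar]

theorem input_d (r : Fin m → ℕ) (c : Fin n → ℕ) (e d : ℕ) : input r c e d cD 0 0 = d := by
  change scalar d 0 0 = _
  simp [scalar]

theorem vector_val {k : ℕ} (f : Fin k → ℕ) (i : Fin k) : vector f (i : ℕ) 0 = f i := by
  have := i.isLt
  unfold vector
  rw [dif_pos ⟨by omega, by omega, rfl⟩]
  simp

theorem input_r (r : Fin m → ℕ) (c : Fin n → ℕ) (e d : ℕ) :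
    IsR (input r c e d) cR (margins r c).1 := fun i => vector_val r i

theorem input_c (r : Fin m → ℕ) (c : Fin n → ℕ) (e d : ℕ) :
    IsR (input r c e d) cC (margins r c).2 := fun j => vector_val c j

end Lemmas

section Prob

variable {α : Type} {x : ℕ} {P : Cmd} {s : St} {p : PMF α} {R : α → St → Prop}

theorem outer_le_one {β : Type} (q : PMF β) (A : Set β) : q.toOuterMeasure A ≤ 1 := by
  rw [PMF.toOuterMeasure_apply, ← q.tsum_coe]
  exact ENNReal.tsum_le_tsum fun a => Set.indicator_le_self _ _ _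

theorem outer_ne_top {β : Type} (q : PMF β) (A : Set β) : q.toOuterMeasure A ≠ ⊤ :=
  ne_top_of_le_ne_top ENNReal.one_ne_top (outer_le_one q A)

theorem Imp.prob_ge (h : Imp x P s p R) {A : Set α} {B : St → Prop}
    (hAB : ∀ a ∈ A, ∀ s', R a s' → B s') : (p.toOuterMeasure A).toReal ≤ prob P s B := by
  obtain ⟨J, h1, h2, h3⟩ := h
  unfold prob
  refine ENNReal.toReal_mono (outer_ne_top _ _) ?_
  rw [← h1, ← h2, PMF.toOuterMeasure_map_apply, PMF.toOuterMeasure_map_apply]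
  refine PMF.toOuterMeasure_mono _ ?_
  rintro z ⟨hz, hz'⟩
  exact hAB _ hz _ (h3 z hz').1

/-- the law of a random variable determined by the final memory -/
theorem Imp.prob_eq (h : Imp x P s p R) {A : Set α} {B : St → Prop}
    (hAB : ∀ a, ∀ s', R a s' → (a ∈ A ↔ B s')) : prob P s B = (p.toOuterMeasure A).toReal := by
  refine le_antisymm ?_ (h.prob_ge fun a ha s' hR => (hAB a s' hR).mp ha)
  obtain ⟨J, h1, h2, h3⟩ := h
  unfold prob
  refine ENNReal.toReal_mono (outer_ne_top _ _) ?_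
  rw [← h1, ← h2, PMF.toOuterMeasure_map_apply, PMF.toOuterMeasure_map_apply]
  refine PMF.toOuterMeasure_mono _ ?_
  rintro z ⟨hz, hz'⟩
  exact (hAB _ _ (h3 z hz').1).mpr hz

end Prob

/-- the program for the sampler: input in the arrays `0, 1, 2, 4, 5`, output in the array `6` -/
def mainC : Cmd :=
  seq (putS cE2 (sc cE)) <|
  seq samplerC (tabu cNum k1 k2 (sc gM) (sc gN) (a2 sO k1 k2))

theorem imp_main {m n : ℕ} [NeZero m] [NeZero n] {b : Mg m n} (hb : Ok b) {e x : ℕ} {s : St}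
    (he : 1 ≤ e) (hd : Dim m n s) (hE : s cE 0 0 = e) (hr : IsR s cR b.1) (hc : IsR s cC b.2)
    (hx : 2 * TT b e ≤ x) :
    Imp x mainC s (law (sampler b e)) (fun X s' => IsT s' cNum X) := by
  obtain ⟨hb1, _, _⟩ := TT_big b he
  have hm : m ≤ x := by omega
  have hn : n ≤ x := by omega
  unfold mainC
  refine Tri.seq_imp (tri_put trivial trivial (Exp.fits rfl) (rfl : _ = _) :
    Tri x (putS cE2 (sc cE)) s (fun s' => s' = _)) fun s1 h1 => ?_
  have f1 : ∀ y, y ≠ cE2 → s1 y = s y := fun y hy => by rw [h1]; exact upd_ne hy _ _ _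
  have hE1 : s1 cE2 0 0 = e := by
    rw [h1]
    exact (upd_same _ _ _ _ _).trans hE
  have hd1 : Dim m n s1 := hd.agree (f1 _ (by decide)) (f1 _ (by decide))
  refine (imp_sampler hb he hd1 hE1
    (hr.agree (f1 _ (by decide))) (hc.agree (f1 _ (by decide))) hx).frame.seq_tri
    fun X _ s2 h2 => ?_
  have hd2 : Dim m n s2 := hd1.agree (h2.2 gM (by decide)) (h2.2 gN (by decide))
  refine (tri_tabu (m := m) (n := n) (by decide) (by decide) (by decide) hm hn
    (fun s' h => ⟨Exp.fits rfl, ?_⟩) (fun s' h => ⟨Exp.fits rfl, ?_⟩)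
    (fun i j => X (i, j)) fun i j s' h hi hj _ => ⟨Exp.fits rfl, ?_⟩).mono fun s3 h3 => h3.2
  · change s' gM 0 0 = _
    rw [h gM (by decide)]
    exact hd2.1
  · change s' gN 0 0 = _
    rw [h gN (by decide)]
    exact hd2.2
  · change s' sO (s' k1 0 0) (s' k2 0 0) = _
    rw [h sO (by decide), hi, hj]
    exact h2.1 i j

/-- polynomial bound, in terms of any `x` which dominates the parameters -/
theorem TT_le {m n : ℕ} {b : Mg m n} {e x : ℕ} (hx : 2 ≤ x) (h1 : m + n ≤ x) (h2 : len b ≤ x)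
    (h3 : e ≤ x) (h4 : prm b e ≤ x) : TT b e ≤ x ^ 11000 := by
  have a1 : m + n ≤ x ^ 1 := by simpa using h1
  have a2 : len b ≤ x ^ 1 := by simpa using h2
  have a3 : e ≤ x ^ 1 := by simpa using h3
  have a4 : prm b e ≤ x ^ 1 := by simpa using h4
  have a5 : 1 ≤ x ^ 0 := by simp
  have h2x : ∀ k : ℕ, 2 ^ k ≤ x ^ k := fun k => Nat.pow_le_pow_left hx k
  have a7 : KK2 b e ≤ x ^ 96 := by
    unfold KK2
    exact mul_le_powN (h2x 80) (pow_le_powN (j := 16) a4)
  have b1 : (m + n) * KK2 b e + 1 ≤ x ^ 98 := add_le_powN hx (mul_le_powN a1 a7) a5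
  have b2 : 8 * len b * e ≤ x ^ 5 := mul_le_powN (mul_le_powN (h2x 3) a2) a3
  have b3 : 50 * (m + n) ≤ x ^ 7 := by
    refine (Nat.mul_le_mul_right (m + n) (show 50 ≤ 2 ^ 6 by norm_num)).trans ?_
    exact mul_le_powN (h2x 6) a1
  unfold TT
  exact pow_le_powN (j := 100) (mul_le_powN (mul_le_powN b3 b1) b2)

section Params

variable {m n : ℕ} {b : Mg m n} {e : ℕ}

theorem prm_bounds (hm : 1 ≤ m) (he : 1 ≤ e) :
    1 ≤ prm b e ∧ m + n ≤ prm b e ∧ len b ≤ prm b e ∧ e ≤ prm b e := by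
  have hl := len_pos b
  have hp : prm b e = (m + n) * len b * e := rfl
  have h1 : 1 ≤ (m + n) * len b := by nlinarith
  refine ⟨?_, ?_, ?_, ?_⟩
  · rw [hp]; nlinarith
  · rw [hp]
    nlinarith [Nat.mul_le_mul_left (m + n) hl, Nat.mul_le_mul_left ((m + n) * len b) he]
  · rw [hp]
    nlinarith [Nat.mul_le_mul_right (len b) (show 1 ≤ m + n by omega),
      Nat.mul_le_mul_left ((m + n) * len b) he]
  · rw [hp]
    nlinarith [Nat.mul_le_mul_right e h1]

/-- the bound for the sampler -/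
theorem bound_main : ∃ K : ℕ, ∀ (m n : ℕ) (b : Mg m n) (e : ℕ), 1 ≤ m → 1 ≤ e →
    2 * TT b e + 2 ≤ (2 * prm b e) ^ K := by
  refine ⟨11010, fun m n b e hm he => ?_⟩
  obtain ⟨h1, h2, h3, h4⟩ := prm_bounds (n := n) (b := b) hm he
  have hx : 2 ≤ 2 * prm b e := by omega
  have h5 := TT_le (x := 2 * prm b e) hx (b := b) (e := e) (by omega) (by omega) (by omega)
    (by omega)
  obtain ⟨k, hk⟩ : ∃ k : ℕ, k = 11000 := ⟨_, rfl⟩
  rw [← hk] at h5
  have h6 : 2 * TT b e ≤ (2 * prm b e) ^ (1 + k) := mul_le_powN (by simpa using hx) h5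
  have h7 : 2 ≤ (2 * prm b e) ^ 1 := by simpa using hx
  refine (add_le_powN hx h6 h7).trans (Nat.pow_le_pow_right (by omega) ?_)
  omega

/-- the bound for the counter -/
theorem bound_counter : ∃ K : ℕ, ∀ (m n : ℕ) (b : Mg m n) (e d : ℕ), 1 ≤ m → 1 ≤ e →
    (TT b (1600 * (m + n) ^ 4 * len b * e) + d) ^ 2 + 2 ≤ (2 * prm b e * (d + 1)) ^ K := by
  refine ⟨2 * (19 * 11000 + 2) + 2, fun m n b e d hm he => ?_⟩
  obtain ⟨h1, c1, c2, c3⟩ := prm_bounds (n := n) (b := b) hm he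
  set y := 2 * prm b e * (d + 1) with hy
  have hyp : 2 * prm b e ≤ y := by
    rw [hy]
    nlinarith [Nat.zero_le (prm b e * d)]
  have hx : 2 ≤ y := by omega
  have a1 : m + n ≤ y ^ 1 := by rw [pow_one]; omega
  have a2 : len b ≤ y ^ 1 := by rw [pow_one]; omega
  have a3 : e ≤ y ^ 1 := by rw [pow_one]; omega
  have a4 : d ≤ y ^ 1 := by
    rw [pow_one, hy]
    nlinarith [Nat.mul_le_mul_right (d + 1) (show 1 ≤ 2 * prm b e by omega)]
  have h2y : ∀ k : ℕ, 2 ^ k ≤ y ^ k := fun k => Nat.pow_le_pow_left hx k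
  set e2 := 1600 * (m + n) ^ 4 * len b * e with he2
  have b1 : e2 ≤ y ^ 17 := by
    have h1600 : 1600 ≤ y ^ 11 := (show 1600 ≤ 2 ^ 11 by norm_num).trans (h2y 11)
    exact mul_le_powN (mul_le_powN (mul_le_powN h1600 (pow_le_powN (j := 4) a1)) a2) a3
  have hy19 : y ≤ y ^ 19 := by
    calc y = y ^ 1 := (pow_one y).symm
      _ ≤ y ^ 19 := Nat.pow_le_pow_right (by omega) (by norm_num)
  have b2 : TT b e2 ≤ (y ^ 19) ^ 11000 := by
    refine TT_le (hx.trans hy19) ?_ ?_ ?_ ?_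
    · rw [pow_one] at a1
      exact a1.trans hy19
    · rw [pow_one] at a2
      exact a2.trans hy19
    · exact b1.trans (Nat.pow_le_pow_right (by omega) (by norm_num))
    · unfold prm
      exact mul_le_powN (i := 2) (j := 17) (mul_le_powN a1 a2) b1
  obtain ⟨k, hk⟩ : ∃ k : ℕ, k = 19 * 11000 := ⟨_, rfl⟩
  rw [← pow_mul, ← hk] at b2
  have b3 : TT b e2 + d ≤ y ^ (k + 1 + 1) := add_le_powN hx b2 a4
  have b4 : (TT b e2 + d) ^ 2 ≤ y ^ ((k + 1 + 1) * 2) := pow_le_powN b3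
  have b5 : 2 ≤ y ^ 1 := by rw [pow_one]; exact hx
  refine (add_le_powN hx b4 b5).trans (Nat.pow_le_pow_right (by omega) ?_)
  omega

end Params

end P328.Deep
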