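import Vale.Agent.P328.Deep.Final

/-!
# P328 : the final theorem for the programs
-/

namespace P328.Deep

open Finset Exp Cmd

theorem final : ∃ (P Q : Cmd) (C : ℕ), ∀ m n : ℕ, 1 ≤ m → 1 ≤ n →
    ∀ (r : Fin m → ℕ) (c : Fin n → ℕ), ∑ i, r i = ∑ j, c j →
    (∀ ε δ : ℝ, 0 < ε → ε < 1 → 0 < δ → δ < 1 →
      1 - δ ≤ prob P (input r c ⌈1 / ε⌉₊ ⌈Real.log (1 / δ)⌉₊) (fun s =>
        (1 - ε) * (Omega r c).ncard ≤ (s 6 0 0 : ℝ) / s 7 0 0 ∧
        (s 6 0 0 : ℝ) / s 7 0 0 ≤ (1 + ε) * (Omega r c).ncard) ∧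
      StepsLe P (input r c ⌈1 / ε⌉₊ ⌈Real.log (1 / δ)⌉₊)
        ((C * size r c * (1 / ε) * (1 + Real.log (1 / δ))) ^ C)) ∧
    (∀ ε : ℝ, 0 < ε → ε < 1 →
      (∀ y ∈ (Q.run (input r c ⌈1 / ε⌉₊ 0)).support,
        (fun p : Fin m × Fin n => y.1 6 (p.1 : ℕ) (p.2 : ℕ)) ∈ Omega r c) ∧
      (∑' X : Fin m × Fin n → ℤ, |prob Q (input r c ⌈1 / ε⌉₊ 0) (fun s =>
        ∀ (i : Fin m) (j : Fin n), s 6 (i : ℕ) (j : ℕ) = X (i, j)) - uniform r c X|) / 2 ≤ ε ∧
      StepsLe Q (input r c ⌈1 / ε⌉₊ 0) ((C * size r c * (1 / ε)) ^ C)) := by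
  obtain ⟨D₁, hD₁⟩ := Cmd.tb_poly mainC
  obtain ⟨D₂, hD₂⟩ := Cmd.tb_poly counterC
  obtain ⟨K₁, hK₁⟩ := bound_main
  obtain ⟨K₂, hK₂⟩ := bound_counter
  refine ⟨counterC, mainC, 2 * (K₁ * D₁ + K₂ * D₂) + 8, fun m n hm hn r c h => ?_⟩
  have : NeZero m := ⟨by omega⟩
  have : NeZero n := ⟨by omega⟩
  have hok := ok_margins h
  set b := margins r c with hb
  have hs1 : 1 ≤ size r c := by
    unfold size
    omega
  have hsR : (1 : ℝ) ≤ size r c := by exact_mod_cast hs1
  have hmn : m + n ≤ size r c := by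
    unfold size
    omega
  have hlen : len b ≤ size r c := len_le_size hn
  have hceil : ∀ ε : ℝ, 0 < ε → ε < 1 → 1 ≤ ⌈1 / ε⌉₊ ∧ 1 / ((⌈1 / ε⌉₊ : ℕ) : ℝ) ≤ ε ∧
      ((⌈1 / ε⌉₊ : ℕ) : ℝ) ≤ 2 * (1 / ε) := by
    intro ε h0 h1
    have h2 : 1 < 1 / ε := by
      rw [lt_div_iff₀ h0]
      linarith
    have h3 : 1 ≤ ⌈1 / ε⌉₊ := Nat.one_le_ceil_iff.mpr (by linarith)
    refine ⟨h3, ?_, ?_⟩
    · have h4 : (0 : ℝ) < ((⌈1 / ε⌉₊ : ℕ) : ℝ) := by exact_mod_cast h3
      rw [div_le_iff₀ h4]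
      have := Nat.le_ceil (1 / ε)
      rw [div_le_iff₀ h0] at this
      linarith
    · have := Nat.ceil_lt_add_one (a := 1 / ε) (by linarith)
      linarith
  have hprm : ∀ ε : ℝ, 0 < ε → ε < 1 → (prm b ⌈1 / ε⌉₊ : ℝ) ≤
      2 * (size r c : ℝ) ^ 2 * (1 / ε) := by
    intro ε h0 h1
    have h2 := (hceil ε h0 h1).2.2
    have h3 : prm b ⌈1 / ε⌉₊ ≤ size r c * size r c * ⌈1 / ε⌉₊ := by
      unfold prm
      exact Nat.mul_le_mul_right _ (Nat.mul_le_mul hmn hlen)
    have h4 : (prm b ⌈1 / ε⌉₊ : ℝ) ≤ size r c * size r c * ((⌈1 / ε⌉₊ : ℕ) : ℝ) := by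
      exact_mod_cast h3
    refine h4.trans ?_
    have h5 : (0 : ℝ) ≤ (size r c : ℝ) * size r c := by positivity
    nlinarith [mul_le_mul_of_nonneg_left h2 h5]
  have hCR : (8 : ℝ) ≤ ((2 * (K₁ * D₁ + K₂ * D₂) + 8 : ℕ) : ℝ) := by
    have : 8 ≤ 2 * (K₁ * D₁ + K₂ * D₂) + 8 := by omega
    exact_mod_cast this
  refine ⟨fun ε δ h0 h1 hδ0 hδ1 => ?_, fun ε h0 h1 => ?_⟩
  · obtain ⟨he1, he2, _⟩ := hceil ε h0 h1
    obtain ⟨e, he⟩ : ∃ e : ℕ, e = ⌈1 / ε⌉₊ := ⟨_, rfl⟩
    obtain ⟨d, hd⟩ : ∃ d : ℕ, d = ⌈Real.log (1 / δ)⌉₊ := ⟨_, rfl⟩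
    have himp := imp_counter (x := (TT b (1600 * (m + n) ^ 4 * len b * e) + d) ^ 2) hok
      (by rw [he]; exact he1) (input_dim r c e d) (input_e r c e d) (input_d r c e d)
      (input_r r c e d) (input_c r c e d) le_rfl
    have hcnt := counter_ok hok he1 d
    rw [← he] at hcnt he1 he2
    constructor
    · have hdδ : Real.exp (-(d : ℝ)) ≤ δ := by
        have h2 := Nat.le_ceil (Real.log (1 / δ))
        rw [← hd] at h2
        calc Real.exp (-(d : ℝ)) ≤ Real.exp (-Real.log (1 / δ)) :=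
              Real.exp_le_exp.mpr (by linarith)
          _ = δ := by
              rw [one_div, Real.log_inv, neg_neg, Real.exp_log hδ0]
      rw [← he, ← hd]
      refine le_trans (by linarith) (hcnt.trans (himp.prob_ge ?_))
      rintro z ⟨h3, h4⟩ s' hs'
      rw [ncard_Omega]
      have hcard : (0 : ℝ) ≤ (Om (margins r c)).card := Nat.cast_nonneg _
      have hz : ((s' 6 0 0 : ℝ) / s' 7 0 0) = (z : ℝ) := by
        rw [← hs']
        push_cast
        rfl
      rw [hz]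
      constructor
      · refine le_trans (mul_le_mul_of_nonneg_right ?_ hcard) h3
        linarith
      · refine h4.trans (mul_le_mul_of_nonneg_right ?_ hcard)
        linarith
    · rw [← he, ← hd]
      intro y hy
      have h2 : y.2 ≤ counterC.tb _ := (himp.tri y hy).2
      have h3 := h2.trans ((hD₂ _).trans (Nat.pow_le_pow_left (hK₂ m n b e d hm he1) D₂))
      rw [← pow_mul] at h3
      have hlog : 0 ≤ Real.log (1 / δ) := by
        refine Real.log_nonneg ?_
        rw [le_div_iff₀ hδ0]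
        linarith
      have hd' : (d : ℝ) + 1 ≤ 2 * (1 + Real.log (1 / δ)) := by
        have := Nat.ceil_lt_add_one hlog
        rw [← hd] at this
        linarith
      have hε : 1 ≤ 1 / ε := by
        rw [le_div_iff₀ h0]
        linarith
      set z : ℝ := 8 * size r c * (1 / ε) * (1 + Real.log (1 / δ)) with hz
      have hz1 : 1 ≤ z := by
        rw [hz]
        have a1 : (1 : ℝ) ≤ 8 * size r c := by linarith
        have a2 : (1 : ℝ) ≤ 8 * size r c * (1 / ε) := one_le_mul_of_one_le_of_one_le a1 hε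
        exact one_le_mul_of_one_le_of_one_le a2 (by linarith)
      have h4 : (y.2 : ℝ) ≤ (2 * (prm b e : ℝ) * ((d : ℝ) + 1)) ^ (K₂ * D₂) := by exact_mod_cast h3
      have h5 : 2 * (prm b e : ℝ) * ((d : ℝ) + 1) ≤ z ^ 2 := by
        have a1 := hprm ε h0 h1
        rw [← he] at a1
        have a2 : 2 * (prm b e : ℝ) * ((d : ℝ) + 1) ≤
            2 * (2 * (size r c : ℝ) ^ 2 * (1 / ε)) * (2 * (1 + Real.log (1 / δ))) := by
          refine mul_le_mul (by linarith) hd' (by positivity) (by positivity)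
        refine a2.trans ?_
        have a3 : z ^ 2 = 2 * (2 * (size r c : ℝ) ^ 2 * (1 / ε)) * (2 * (1 + Real.log (1 / δ))) *
            (8 * (1 / ε) * (1 + Real.log (1 / δ))) := by
          rw [hz]
          ring
        rw [a3]
        refine le_mul_of_one_le_right (by positivity) ?_
        have a4 : (1 : ℝ) ≤ 8 * (1 / ε) := by linarith
        exact one_le_mul_of_one_le_of_one_le a4 (by linarith)
      calc (y.2 : ℝ) ≤ (z ^ 2) ^ (K₂ * D₂) := h4.trans (pow_le_pow_left₀ (by positivity) h5 _)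
        _ = z ^ (2 * (K₂ * D₂)) := by rw [← pow_mul]
        _ ≤ z ^ (2 * (K₁ * D₁ + K₂ * D₂) + 8) := pow_le_pow_right₀ hz1 (by omega)
        _ ≤ _ := by
          refine pow_le_pow_left₀ (by linarith) ?_ _
          rw [hz]
          gcongr
  · obtain ⟨he1, he2, _⟩ := hceil ε h0 h1
    obtain ⟨e, he⟩ : ∃ e : ℕ, e = ⌈1 / ε⌉₊ := ⟨_, rfl⟩
    have himp := imp_main (x := 2 * TT b e) (s := input r c e 0) hok
      (by rw [he]; exact he1) (input_dim r c e 0) (input_e r c e 0)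
      (input_r r c e 0) (input_c r c e 0) le_rfl
    rw [← he] at he1 he2
    have hsup := sampler_support hok e
    have htv := sampler_tv hok he1
    rw [← he]
    refine ⟨?_, ?_, ?_⟩
    · intro y hy
      obtain ⟨⟨X, hX, hR⟩, _⟩ := himp.tri y hy
      have h2 : (fun p : Fin m × Fin n => y.1 6 (p.1 : ℕ) (p.2 : ℕ)) = X := by
        funext p
        exact hR p.1 p.2
      rw [h2]
      exact mem_Omega.mp (hsup X hX)
    · have h3 : ∀ X : Fin m × Fin n → ℤ, prob mainC (input r c e 0) (fun s =>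
          ∀ (i : Fin m) (j : Fin n), s 6 (i : ℕ) (j : ℕ) = X (i, j)) =
          (law (sampler b e) X).toReal := by
        intro X
        rw [himp.prob_eq (A := {X}) fun Y s' hY => ?_, PMF.toOuterMeasure_apply_singleton]
        constructor
        · intro hYX
          rw [Set.mem_singleton_iff] at hYX
          rw [← hYX]
          exact hY
        · intro hs
          rw [Set.mem_singleton_iff]
          funext p
          exact (hY p.1 p.2).symm.trans (hs p.1 p.2)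
      have h4 : tv (law (sampler b e)) (unifOm b) =
          (∑' X : Fin m × Fin n → ℤ, |prob mainC (input r c e 0) (fun s =>
            ∀ (i : Fin m) (j : Fin n), s 6 (i : ℕ) (j : ℕ) = X (i, j)) - uniform r c X|) / 2 := by
        unfold tv
        congr 1
        refine tsum_congr fun X => ?_
        rw [h3 X, uniform_eq h]
      rw [← h4]
      exact htv.trans he2
    · intro y hy
      have h2 : y.2 ≤ mainC.tb _ := (himp.tri y hy).2
      have h3 := h2.trans ((hD₁ _).trans (Nat.pow_le_pow_left (hK₁ m n b e hm he1) D₁))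
      rw [← pow_mul] at h3
      have hε : 1 ≤ 1 / ε := by
        rw [le_div_iff₀ h0]
        linarith
      set z : ℝ := 8 * size r c * (1 / ε) with hz
      have hz1 : 1 ≤ z := by
        rw [hz]
        have a1 : (1 : ℝ) ≤ 8 * size r c := by linarith
        exact one_le_mul_of_one_le_of_one_le a1 hε
      have h4 : (y.2 : ℝ) ≤ (2 * (prm b e : ℝ)) ^ (K₁ * D₁) := by exact_mod_cast h3
      have h5 : 2 * (prm b e : ℝ) ≤ z ^ 2 := by
        have a1 := hprm ε h0 h1
        rw [← he] at a1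
        refine (mul_le_mul_of_nonneg_left a1 (by norm_num)).trans ?_
        have a3 : z ^ 2 = 2 * (2 * (size r c : ℝ) ^ 2 * (1 / ε)) * (16 * (1 / ε)) := by
          rw [hz]
          ring
        rw [a3]
        refine le_mul_of_one_le_right (by positivity) ?_
        linarith
      calc (y.2 : ℝ) ≤ (z ^ 2) ^ (K₁ * D₁) := h4.trans (pow_le_pow_left₀ (by positivity) h5 _)
        _ = z ^ (2 * (K₁ * D₁)) := by rw [← pow_mul]
        _ ≤ z ^ (2 * (K₁ * D₁ + K₂ * D₂) + 8) := pow_le_pow_right₀ hz1 (by omega)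
        _ ≤ _ := by
          refine pow_le_pow_left₀ (by linarith) ?_ _
          rw [hz]
          gcongr

end P328.Deep
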