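import Vale.Agent.P328.Deep.CompD
import Vale.Agent.P328.Om

/-!
# P328 : module H, the end of the sampler
-/

namespace P328.Deep

open Finset Exp Cmd

variable {m n : ℕ} {x : ℕ} {s : St}

namespace H

theorem ind_sum {ι : Type} [Fintype ι] (P : ι → Prop) [DecidablePred P] :
    0 ≤ (∑ i, if P i then (0 : ℤ) else 1) ∧
      ((∑ i, if P i then (0 : ℤ) else 1) = 0 ↔ ∀ i, P i) := by
  have h0 : ∀ i ∈ (univ : Finset ι), (0 : ℤ) ≤ if P i then (0 : ℤ) else 1 := by
    intro i _
    split_ifs <;> omega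
  refine ⟨Finset.sum_nonneg h0, ?_⟩
  rw [Finset.sum_eq_zero_iff_of_nonneg h0]
  constructor
  · intro h i
    by_contra hi
    have := h i (mem_univ _)
    rw [if_neg hi] at this
    omega
  · intro h i _
    rw [if_pos (h i)]

/-- partial sums -/
theorem tri_prefix {k : ℕ} {v g w : ℕ} (hvk : v ≠ k1) (hgv : g ≠ v) (hgk : g ≠ k1)
    (hwv : w ≠ v) (hwk : w ≠ k1) {f : Fin k → ℤ} (hg : s g 0 0 = k) (hk : k ≤ x)
    (hw : IsR s w f) (h0 : s v 0 0 = 0) :
    Tri x (forL k1 (sc g) (put v (add (sc k1) (num 1)) (num 0) (add (a1 v k1) (a1 w k1)))) s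
      (fun s' => ∀ t : ℕ, t ≤ k → s' v t 0 = pre f t) := by
  have main := tri_for (x := x) (s := s) (i := k1) (k := sc g) (N := k)
    (c := put v (add (sc k1) (num 1)) (num 0) (add (a1 v k1) (a1 w k1)))
    (I := fun t s' => s' g 0 0 = k ∧ IsR s' w f ∧ ∀ t' : ℕ, t' ≤ t → s' v t' 0 = pre f t')
    ?_ hk ⟨trivial, trivial⟩ ⟨?_, ?_, ?_⟩ ?_ ?_
  · exact main.mono fun s' h t ht => h.1.2.2 t ht
  · change (upd s k1 0 0 0 g 0 0).toNat = k
    rw [upd_ne hgk, hg]
    simp
  · rw [upd_ne hgk]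
    exact hg
  · exact hw.agree (upd_ne hwk _ _ _)
  · intro t' ht'
    rw [upd_ne hvk]
    have : t' = 0 := by omega
    subst this
    rw [pre_zero]
    exact h0
  · rw [Cmd.wr, List.mem_singleton]
    exact Ne.symm hvk
  · intro t ht s' hI hti
    obtain ⟨h1, h2, h3⟩ := hI
    refine tri_put (Exp.fits rfl) trivial (Exp.fits rfl) ?_
    have e1 : (add (sc k1) (num 1)).val s' = ((t + 1 : ℕ) : ℤ) := by
      change s' k1 0 0 + 1 = _
      rw [hti]
      push_cast
      rfl
    have e2 : (add (a1 v k1) (a1 w k1)).val s' = pre f (t + 1) := by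
      change s' v (s' k1 0 0) 0 + s' w (s' k1 0 0) 0 = _
      rw [hti, h3 t le_rfl, h2 ⟨t, ht⟩]
      exact (pre_succ f ⟨t, ht⟩).symm
    rw [e1, e2]
    refine ⟨?_, ?_, ?_⟩
    · rw [upd_ne hgk, upd_ne hgv]
      exact h1
    · exact (h2.agree (upd_ne hwv _ _ _)).agree (upd_ne hwk _ _ _)
    · intro t' ht'
      rw [upd_ne hvk]
      change upd s' v ((t + 1 : ℕ) : ℤ) 0 _ v t' 0 = _
      by_cases h4 : t' = t + 1
      · subst h4
        rw [upd_same]
      · rw [upd_cell (by omega)]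
        exact h3 t' (by omega)

open F in
theorem tri_corner {b : Mg m n} (hd : Dim m n s)
    (hm : m ≤ x) (hn : n ≤ x) (hr : IsR s cR b.1) (hc : IsR s cC b.2) :
    Tri x cornerC s (fun s' => IsT s' sO (corner b)) := by
  have dag : ∀ {s s' : St} {W : List ℕ}, Dim m n s → Agree W s s' → (∀ y ∈ [gM, gN], y ∉ W) →
      Dim m n s' := fun h hW hy =>
    h.agree (hW _ (hy gM (by decide))) (hW _ (hy gN (by decide)))
  unfold cornerC
  refine Tri.seq (Q := fun s' => Agree [sPa] s s' ∧ s' sPa 0 0 = 0)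
    (tri_put trivial trivial trivial
      ⟨(Agree.refl _ s).upd (by decide) _ _ _, upd_same _ _ _ _ _⟩) ?_
  intro s₁ h₁
  have d₁ := dag hd h₁.1 (by decide)
  have r₁ := hr.agree (h₁.1 cR (by decide))
  have c₁ := hc.agree (h₁.1 cC (by decide))
  refine Tri.seq (tri_prefix (by decide) (by decide) (by decide) (by decide) (by decide)
    d₁.1 hm r₁ h₁.2).frame fun s₂ h₂ => ?_
  have d₂ := d₁.agree (h₂.2 gM (by decide)) (h₂.2 gN (by decide))
  have c₂ := c₁.agree (h₂.2 cC (by decide))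
  refine Tri.seq (Q := fun s' => Agree [sPb] s₂ s' ∧ s' sPb 0 0 = 0)
    (tri_put trivial trivial trivial
      ⟨(Agree.refl _ s₂).upd (by decide) _ _ _, upd_same _ _ _ _ _⟩) ?_
  intro s₃ h₃
  have d₃ := dag d₂ h₃.1 (by decide)
  have c₃ := c₂.agree (h₃.1 cC (by decide))
  refine Tri.seq (tri_prefix (by decide) (by decide) (by decide) (by decide) (by decide)
    d₃.2 hn c₃ h₃.2).frame fun s₄ h₄ => ?_
  have d₄ := d₃.agree (h₄.2 gM (by decide)) (h₄.2 gN (by decide))
  have pa : ∀ t : ℕ, t ≤ m → s₄ sPa t 0 = pre b.1 t := fun t ht => by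
    rw [h₄.2 sPa (by decide), h₃.1 sPa (by decide)]
    exact h₂.1 t ht
  have pb : ∀ t : ℕ, t ≤ n → s₄ sPb t 0 = pre b.2 t := h₄.1
  refine Tri.seq (tri_tabu (by decide) (by decide) (by decide) hm hn
    (fun s' h => dimM (dag d₄ h (by decide))) (fun s' h => dimN (dag d₄ h (by decide)))
    (fun i j => min (pre b.1 ((i : ℕ) + 1)) (pre b.2 ((j : ℕ) + 1)) -
      max (pre b.1 (i : ℕ)) (pre b.2 (j : ℕ)))
    fun i j s' h hi hj _ => ⟨Exp.fits rfl, ?_⟩) ?_
  · have hA : s' sPa = s₄ sPa := h sPa (by decide)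
    have hB : s' sPb = s₄ sPb := h sPb (by decide)
    have e1 : (get sPa (add (sc k1) (num 1)) (num 0)).val s' = pre b.1 ((i : ℕ) + 1) := by
      change s' sPa (s' k1 0 0 + 1) 0 = _
      rw [hi, hA, ← pa _ (by have := i.isLt; omega)]
      push_cast
      rfl
    have e2 : (get sPb (add (sc k2) (num 1)) (num 0)).val s' = pre b.2 ((j : ℕ) + 1) := by
      change s' sPb (s' k2 0 0 + 1) 0 = _
      rw [hj, hB, ← pb _ (by have := j.isLt; omega)]
      push_cast
      rfl
    have e3 : (a1 sPa k1).val s' = pre b.1 (i : ℕ) := by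
      change s' sPa (s' k1 0 0) 0 = _
      rw [hi, hA]
      exact pa _ (by have := i.isLt; omega)
    have e4 : (a1 sPb k2).val s' = pre b.2 (j : ℕ) := by
      change s' sPb (s' k2 0 0) 0 = _
      rw [hj, hB]
      exact pb _ (by have := j.isLt; omega)
    change (if (get sPa (add (sc k1) (num 1)) (num 0)).val s' ≤
        (get sPb (add (sc k2) (num 1)) (num 0)).val s' then
        (get sPa (add (sc k1) (num 1)) (num 0)).val s' else
        (get sPb (add (sc k2) (num 1)) (num 0)).val s') -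
      (if (a1 sPa k1).val s' ≤ (a1 sPb k2).val s' then (a1 sPb k2).val s' else
        (a1 sPa k1).val s') = _
    rw [e1, e2, e3, e4, min_def, max_def]
  intro s₅ h₅
  have d₅ := dag d₄ h₅.1 (by decide)
  refine (tri_tabu (by decide) (by decide) (by decide) hm hn
    (fun s' h => dimM (dag d₅ h (by decide))) (fun s' h => dimN (dag d₅ h (by decide)))
    (fun i j => corner b (i, j)) fun i j s' h hi hj hown => ⟨Exp.fits rfl, ?_⟩).mono
    fun s' h => h.2
  have e1 : (a2 sO k1 k2).val s' = min (pre b.1 ((i : ℕ) + 1)) (pre b.2 ((j : ℕ) + 1)) -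
      max (pre b.1 (i : ℕ)) (pre b.2 (j : ℕ)) := by
    change s' sO (s' k1 0 0) (s' k2 0 0) = _
    rw [hi, hj, hown]
    exact h₅.2 i j
  change (if 0 ≤ (a2 sO k1 k2).val s' then (a2 sO k1 k2).val s' else 0) = _
  rw [e1]
  exact (max_def _ _).symm

end H

open Classical in
open F H in
theorem tri_finish [NeZero m] [NeZero n] {b : Mg m n} {X : Tb m n} (hd : Dim m n s)
    (hm : m ≤ x) (hn : n ≤ x) (hr : IsR s cR b.1) (hc : IsR s cC b.2) (hX : IsT s sO X) :
    Tri x finishC s (fun s' => IsT s' sO (if X ∈ Om b then X else corner b)) := by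
  have dag : ∀ {s s' : St} {W : List ℕ}, Dim m n s → Agree W s s' → (∀ y ∈ [gM, gN], y ∉ W) →
      Dim m n s' := fun h hW hy =>
    h.agree (hW _ (hy gM (by decide))) (hW _ (hy gN (by decide)))
  unfold finishC
  -- the number of negative entries
  refine Tri.seq (tri_sums (by decide) (by decide) (by decide) (by decide) (by decide)
    (by decide) hm hn (fun s' h => dimM (dag hd h (by decide)))
    (fun s' h => dimN (dag hd h (by decide))) (fun i j => if 0 ≤ X (i, j) then 0 else 1)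
    fun i j s' h hi hj => ⟨Exp.fits rfl, ?_⟩) ?_
  · change (if 0 ≤ (a2 sO k1 k2).val s' then 0 else 1) = _
    rw [val_a2 (hX.agree (h sO (by decide))) hi hj]
  intro s₁ h₁
  have d₁ := dag hd h₁.1 (by decide)
  have r₁ := hr.agree (h₁.1 cR (by decide))
  have c₁ := hc.agree (h₁.1 cC (by decide))
  have X₁ := hX.agree (h₁.1 sO (by decide))
  have u₁ : IsR s₁ sU (fun i => ∑ j, if 0 ≤ X (i, j) then (0 : ℤ) else 1) := h₁.2
  refine Tri.seq (tri_total (by decide) hm (fun s' h => dimM (dag d₁ h (by decide)))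
    (fun i => ∑ j, if 0 ≤ X (i, j) then (0 : ℤ) else 1)
    fun i s' h hi => ⟨Exp.fits rfl, val_a1 (u₁.agree (h sU (by decide))) hi⟩) ?_
  intro s₂ h₂
  have d₂ := dag d₁ h₂.1 (by decide)
  have r₂ := r₁.agree (h₂.1 cR (by decide))
  have c₂ := c₁.agree (h₂.1 cC (by decide))
  have X₂ := X₁.agree (h₂.1 sO (by decide))
  -- the wrong rows
  refine Tri.seq (tri_sums (by decide) (by decide) (by decide) (by decide) (by decide)
    (by decide) hm hn (fun s' h => dimM (dag d₂ h (by decide)))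
    (fun s' h => dimN (dag d₂ h (by decide))) (fun i j => X (i, j))
    fun i j s' h hi hj => ⟨Exp.fits rfl, val_a2 (X₂.agree (h sO (by decide))) hi hj⟩) ?_
  intro s₃ h₃
  have d₃ := dag d₂ h₃.1 (by decide)
  have r₃ := r₂.agree (h₃.1 cR (by decide))
  have c₃ := c₂.agree (h₃.1 cC (by decide))
  have X₃ := X₂.agree (h₃.1 sO (by decide))
  have u₃ : IsR s₃ sU (fun i => ∑ j, X (i, j)) := h₃.2
  refine Tri.seq (tri_total (by decide) hm (fun s' h => dimM (dag d₃ h (by decide)))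
    (fun i => if ∑ j, X (i, j) = b.1 i then (0 : ℤ) else 1)
    fun i s' h hi => ⟨Exp.fits rfl, ?_⟩) ?_
  · rw [val_ifNe, val_a1 (u₃.agree (h sU (by decide))) hi,
      val_a1 (r₃.agree (h cR (by decide))) hi]
    rfl
  intro s₄ h₄
  have d₄ := dag d₃ h₄.1 (by decide)
  have r₄ := r₃.agree (h₄.1 cR (by decide))
  have c₄ := c₃.agree (h₄.1 cC (by decide))
  have X₄ := X₃.agree (h₄.1 sO (by decide))
  -- the wrong columns
  refine Tri.seq (tri_sums (by decide) (by decide) (by decide) (by decide) (by decide)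
    (by decide) hn hm (fun s' h => dimN (dag d₄ h (by decide)))
    (fun s' h => dimM (dag d₄ h (by decide))) (fun j i => X (i, j))
    fun j i s' h hj hi => ⟨Exp.fits rfl, val_a2 (X₄.agree (h sO (by decide))) hi hj⟩) ?_
  intro s₅ h₅
  have d₅ := dag d₄ h₅.1 (by decide)
  have r₅ := r₄.agree (h₅.1 cR (by decide))
  have c₅ := c₄.agree (h₅.1 cC (by decide))
  have X₅ := X₄.agree (h₅.1 sO (by decide))
  have v₅ : IsR s₅ sV (fun j => ∑ i, X (i, j)) := h₅.2
  refine Tri.seq (tri_total (by decide) hn (fun s' h => dimN (dag d₅ h (by decide)))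
    (fun j => if ∑ i, X (i, j) = b.2 j then (0 : ℤ) else 1)
    fun j s' h hj => ⟨Exp.fits rfl, ?_⟩) ?_
  · rw [val_ifNe, val_a1 (v₅.agree (h sV (by decide))) hj,
      val_a1 (c₅.agree (h cC (by decide))) hj]
    rfl
  intro s₆ h₆
  have d₆ := dag d₅ h₆.1 (by decide)
  have r₆ := r₅.agree (h₆.1 cR (by decide))
  have c₆ := c₅.agree (h₆.1 cC (by decide))
  have X₆ := X₅.agree (h₆.1 sO (by decide))
  have x₆ : s₆ sX 0 0 = ∑ i, ∑ j, if 0 ≤ X (i, j) then (0 : ℤ) else 1 := by
    rw [h₆.1 sX (by decide), h₅.1 sX (by decide), h₄.1 sX (by decide), h₃.1 sX (by decide)]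
    exact h₂.2
  have y₆ : s₆ sY 0 0 = ∑ i, if ∑ j, X (i, j) = b.1 i then (0 : ℤ) else 1 := by
    rw [h₆.1 sY (by decide), h₅.1 sY (by decide)]
    exact h₄.2
  have z₆ : s₆ sZ 0 0 = ∑ j, if ∑ i, X (i, j) = b.2 j then (0 : ℤ) else 1 := h₆.2
  have key : s₆ sX 0 0 + s₆ sY 0 0 + s₆ sZ 0 0 ≤ 0 ↔ X ∈ Om b := by
    have n1 := ind_sum fun p : Fin m × Fin n => 0 ≤ X p
    rw [Fintype.sum_prod_type] at n1
    have n2 := ind_sum fun i : Fin m => ∑ j, X (i, j) = b.1 i
    have n3 := ind_sum fun j : Fin n => ∑ i, X (i, j) = b.2 j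
    rw [x₆, y₆, z₆, mem_Om]
    constructor
    · intro h
      have k1 := n1.1
      have k2 := n2.1
      have k3 := n3.1
      have j1 := n1.2.mp (by omega)
      have j2 := n2.2.mp (by omega)
      have j3 := n3.2.mp (by omega)
      exact ⟨fun p => j1 p, Prod.ext (funext fun i => by rw [mar_fst]; exact j2 i)
        (funext fun j => by rw [mar_snd]; exact j3 j)⟩
    · rintro ⟨h1, h2⟩
      have j1 := n1.2.mpr fun p => h1 p
      have j2 := n2.2.mpr fun i => by rw [← mar_fst, h2]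
      have j3 := n3.2.mpr fun j => by rw [← mar_snd, h2]
      omega
  refine tri_ite (Exp.fits rfl) (Exp.fits rfl) (fun h => ?_) (fun h => ?_)
  · rw [if_pos (key.mp h)]
    exact tri_skip X₆
  · rw [if_neg fun h' => h (key.mpr h')]
    exact tri_corner d₆ hm hn r₆ c₆

end P328.Deep
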