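import Mathlib

/-!
# P328 : a small imperative language with random integers, its semantics and its cost
-/

namespace P328.Deep

/-- A memory: infinitely many two-dimensional arrays of integers; `s x i j` is the entry `(i, j)`
of the array `x`. -/
abbrev St := ℕ → ℤ → ℤ → ℤ

/-- the memory `s` after the assignment `x[i, j] := v` -/
def upd (s : St) (x : ℕ) (i j v : ℤ) : St :=
  fun y k l => if y = x ∧ k = i ∧ l = j then v else s y k l

/-- arithmetic expressions -/
inductive Exp
  /-- an integer constant -/
  | num (z : ℤ)
  /-- the entry `(i, j)` of the array `x` -/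
  | get (x : ℕ) (i j : Exp)
  | add (a b : Exp)
  | sub (a b : Exp)
  | mul (a b : Exp)
  /-- quotient of the Euclidean division -/
  | div (a b : Exp)
  /-- remainder of the Euclidean division -/
  | mod (a b : Exp)
  /-- integer part of the binary logarithm -/
  | lg (a : Exp)
  /-- the value of `c` if `a ≤ b`, the value of `d` otherwise -/
  | sel (a b c d : Exp)

/-- the value of an expression -/
def Exp.val (s : St) : Exp → ℤ
  | num z => z
  | get x i j => s x (i.val s) (j.val s)
  | add a b => a.val s + b.val s
  | sub a b => a.val s - b.val s
  | mul a b => a.val s * b.val s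
  | div a b => a.val s / b.val s
  | mod a b => a.val s % b.val s
  | lg a => (Nat.log 2 (a.val s).toNat : ℤ)
  | sel a b c d => if a.val s ≤ b.val s then c.val s else d.val s

/-- the number of binary digits of an integer -/
def digits (z : ℤ) : ℕ := Nat.size z.natAbs

/-- The number of steps of the evaluation of an expression: one step for each operation, but a
multiplication also costs the number of digits of its two factors. -/
def Exp.cost (s : St) : Exp → ℕ
  | num _ => 1
  | get _ i j => i.cost s + j.cost s + 1
  | add a b => a.cost s + b.cost s + 1
  | sub a b => a.cost s + b.cost s + 1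
  | mul a b => a.cost s + b.cost s + digits (a.val s) + digits (b.val s) + 1
  | div a b => a.cost s + b.cost s + 1
  | mod a b => a.cost s + b.cost s + 1
  | lg a => a.cost s + 1
  | sel a b c d => a.cost s + b.cost s + c.cost s + d.cost s + 1

/-- programs -/
inductive Cmd
  /-- do nothing -/
  | skip
  /-- `x[i, j] := v` -/
  | put (x : ℕ) (i j v : Exp)
  /-- `x[i, j] :=` a uniformly random integer among `0, …, k - 1` -/
  | rnd (x : ℕ) (i j k : Exp)
  /-- first `c`, then `d` -/
  | seq (c d : Cmd)
  /-- `c` if `a ≤ b`, and `d` otherwise -/
  | ite (a b : Exp) (c d : Cmd)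
  /-- `k` times `c` (where `k` is evaluated only once, at the beginning) -/
  | rep (k : Exp) (c : Cmd)

/-- `k` runs of `f` in a row; the numbers of steps are added, with one more step for each run -/
noncomputable def iter (f : St → PMF (St × ℕ)) : ℕ → St → PMF (St × ℕ)
  | 0, s => PMF.pure (s, 0)
  | k + 1, s => (iter f k s).bind fun y => (f y.1).map fun z => (z.1, y.2 + (z.2 + 1))

open Classical in
/-- The joint law of the final memory and of the number of steps, for the run of a program from
the memory `s`. -/
noncomputable def Cmd.run : Cmd → St → PMF (St × ℕ)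
  | skip, s => PMF.pure (s, 1)
  | put x i j v, s => PMF.pure
      (upd s x (i.val s) (j.val s) (v.val s), i.cost s + j.cost s + v.cost s + 1)
  | rnd x i j k, s =>
      (if h : (Finset.Ico 0 (k.val s)).Nonempty then PMF.uniformOfFinset _ h
        else PMF.pure 0).map fun z =>
      (upd s x (i.val s) (j.val s) z, i.cost s + j.cost s + k.cost s + 1)
  | seq c d, s => (c.run s).bind fun y => (d.run y.1).map fun z => (z.1, y.2 + z.2)
  | ite a b c d, s => (if a.val s ≤ b.val s then c.run s else d.run s).map fun z =>
      (z.1, a.cost s + b.cost s + 1 + z.2)
  | rep k c, s => (iter c.run (k.val s).toNat s).map fun z => (z.1, k.cost s + 1 + z.2)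

end P328.Deep
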