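import Vale.Agent.P328.Deep.Lang

/-!
# P328 : rules for the analysis of programs
-/

namespace P328.Deep

/-! ## Bounds on the cost -/

/-- bound for the cost of an expression, if its multiplications cost at most `x` -/
def Exp.cb (x : ℕ) : Exp → ℕ
  | num _ => 1
  | get _ i j => i.cb x + j.cb x + 1
  | add a b => a.cb x + b.cb x + 1
  | sub a b => a.cb x + b.cb x + 1
  | mul a b => a.cb x + b.cb x + x + 1
  | div a b => a.cb x + b.cb x + 1
  | mod a b => a.cb x + b.cb x + 1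
  | lg a => a.cb x + 1
  | sel a b c d => a.cb x + b.cb x + c.cb x + d.cb x + 1

/-- the multiplications of the expression cost at most `x` -/
def Exp.Fits (x : ℕ) (s : St) : Exp → Prop
  | num _ => True
  | get _ i j => i.Fits x s ∧ j.Fits x s
  | add a b => a.Fits x s ∧ b.Fits x s
  | sub a b => a.Fits x s ∧ b.Fits x s
  | mul a b => (a.Fits x s ∧ b.Fits x s) ∧ digits (a.val s) + digits (b.val s) ≤ x
  | div a b => a.Fits x s ∧ b.Fits x s
  | mod a b => a.Fits x s ∧ b.Fits x s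
  | lg a => a.Fits x s
  | sel a b c d => (a.Fits x s ∧ b.Fits x s) ∧ (c.Fits x s ∧ d.Fits x s)

/-- no multiplication -/
def Exp.plain : Exp → Bool
  | num _ => true
  | get _ i j => i.plain && j.plain
  | add a b => a.plain && b.plain
  | sub a b => a.plain && b.plain
  | mul _ _ => false
  | div a b => a.plain && b.plain
  | mod a b => a.plain && b.plain
  | lg a => a.plain
  | sel a b c d => (a.plain && b.plain) && (c.plain && d.plain)

theorem Exp.fits {x : ℕ} {s : St} : ∀ {e : Exp}, e.plain = true → e.Fits x s := by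
  intro e
  induction e with
  | num z => exact fun _ => trivial
  | get y i j hi hj | add i j hi hj | sub i j hi hj | div i j hi hj | mod i j hi hj =>
    intro h
    rw [Exp.plain, Bool.and_eq_true] at h
    exact ⟨hi h.1, hj h.2⟩
  | mul a b _ _ => exact fun h => absurd h (by rw [Exp.plain]; exact Bool.false_ne_true)
  | lg a ha => exact fun h => ha h
  | sel a b c d ha hb hc hd =>
    intro h
    rw [Exp.plain, Bool.and_eq_true, Bool.and_eq_true, Bool.and_eq_true] at h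
    exact ⟨⟨ha h.1.1, hb h.1.2⟩, ⟨hc h.2.1, hd h.2.2⟩⟩

theorem Exp.cost_le {x : ℕ} {s : St} : ∀ {e : Exp}, e.Fits x s → e.cost s ≤ e.cb x := by
  intro e
  induction e with
  | num z => exact fun _ => le_rfl
  | get y i j hi hj | add i j hi hj | sub i j hi hj | div i j hi hj | mod i j hi hj =>
    intro h
    have h1 := hi h.1
    have h2 := hj h.2
    rw [Exp.cost, Exp.cb]
    omega
  | mul a b ha hb =>
    intro h
    have h1 := ha h.1.1
    have h2 := hb h.1.2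
    have h3 := h.2
    rw [Exp.cost, Exp.cb]
    omega
  | lg a ha =>
    intro h
    have h1 := ha h
    rw [Exp.cost, Exp.cb]
    omega
  | sel a b c d ha hb hc hd =>
    intro h
    have h1 := ha h.1.1
    have h2 := hb h.1.2
    have h3 := hc h.2.1
    have h4 := hd h.2.2
    rw [Exp.cost, Exp.cb]
    omega

/-- bound for the number of steps, if the multiplications cost at most `x` and the loops have
length at most `x` -/
def Cmd.tb (x : ℕ) : Cmd → ℕ
  | skip => 1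
  | put _ i j v => i.cb x + j.cb x + v.cb x + 1
  | rnd _ i j k => i.cb x + j.cb x + k.cb x + 1
  | seq c d => c.tb x + d.tb x
  | ite a b c d => a.cb x + b.cb x + 1 + (c.tb x + d.tb x)
  | rep k c => k.cb x + 1 + x * (c.tb x + 1)

theorem Exp.cb_poly (e : Exp) : ∃ D : ℕ, ∀ x : ℕ, e.cb x ≤ (x + 2) ^ D := by
  have two : ∀ a b : Exp, (∃ D : ℕ, ∀ x : ℕ, a.cb x ≤ (x + 2) ^ D) →
      (∃ D : ℕ, ∀ x : ℕ, b.cb x ≤ (x + 2) ^ D) →
      ∃ D : ℕ, ∀ x : ℕ, a.cb x + b.cb x + x + 1 ≤ (x + 2) ^ D := by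
    rintro a b ⟨D₁, h₁⟩ ⟨D₂, h₂⟩
    refine ⟨D₁ + D₂ + 2, fun x => ?_⟩
    have e1 : (x + 2) ^ D₁ ≤ (x + 2) ^ (D₁ + D₂) := Nat.pow_le_pow_right (by omega) (by omega)
    have e2 : (x + 2) ^ D₂ ≤ (x + 2) ^ (D₁ + D₂) := Nat.pow_le_pow_right (by omega) (by omega)
    have e3 : 1 ≤ (x + 2) ^ (D₁ + D₂) := Nat.one_le_pow _ _ (by omega)
    have e4 : (x + 2) ^ (D₁ + D₂ + 2) = (x + 2) * (x + 2) * (x + 2) ^ (D₁ + D₂) := by ring
    have h1 := h₁ x
    have h2 := h₂ x
    rw [e4]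
    nlinarith [Nat.mul_le_mul_left x e3, Nat.zero_le (x * x * (x + 2) ^ (D₁ + D₂))]
  induction e with
  | num z => exact ⟨0, fun x => le_of_eq (by rw [Exp.cb, pow_zero])⟩
  | get y i j hi hj | add i j hi hj | sub i j hi hj | div i j hi hj | mod i j hi hj =>
    obtain ⟨D, hD⟩ := two _ _ hi hj
    exact ⟨D, fun x => (by rw [Exp.cb]; omega : _ ≤ i.cb x + j.cb x + x + 1).trans (hD x)⟩
  | mul a b ha hb =>
    obtain ⟨D, hD⟩ := two _ _ ha hb
    exact ⟨D, fun x => (by rw [Exp.cb] : _ ≤ a.cb x + b.cb x + x + 1).trans (hD x)⟩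
  | lg a ha =>
    obtain ⟨D, hD⟩ := two _ _ ha ha
    exact ⟨D, fun x => (by rw [Exp.cb]; omega : _ ≤ a.cb x + a.cb x + x + 1).trans (hD x)⟩
  | sel a b c d ha hb hc hd =>
    obtain ⟨D, hD⟩ := two _ _ ha hb
    obtain ⟨D', hD'⟩ := two _ _ hc hd
    refine ⟨D + D' + 1, fun x => ?_⟩
    have h1 := hD x
    have h2 := hD' x
    have e1 : (x + 2) ^ D ≤ (x + 2) ^ (D + D') := Nat.pow_le_pow_right (by omega) (by omega)
    have e2 : (x + 2) ^ D' ≤ (x + 2) ^ (D + D') := Nat.pow_le_pow_right (by omega) (by omega)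
    have e4 : (x + 2) ^ (D + D' + 1) = (x + 2) * (x + 2) ^ (D + D') := by ring
    rw [e4, Exp.cb]
    nlinarith

theorem Cmd.tb_poly (c : Cmd) : ∃ D : ℕ, ∀ x : ℕ, c.tb x ≤ (x + 2) ^ D := by
  have two : ∀ f g : ℕ → ℕ, (∃ D : ℕ, ∀ x : ℕ, f x ≤ (x + 2) ^ D) →
      (∃ D : ℕ, ∀ x : ℕ, g x ≤ (x + 2) ^ D) →
      ∃ D : ℕ, ∀ x : ℕ, f x + g x + 1 + x * (g x + 1) ≤ (x + 2) ^ D := by
    rintro f g ⟨D₁, h₁⟩ ⟨D₂, h₂⟩
    refine ⟨D₁ + D₂ + 2, fun x => ?_⟩
    have e1 : (x + 2) ^ D₁ ≤ (x + 2) ^ (D₁ + D₂) := Nat.pow_le_pow_right (by omega) (by omega)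
    have e2 : (x + 2) ^ D₂ ≤ (x + 2) ^ (D₁ + D₂) := Nat.pow_le_pow_right (by omega) (by omega)
    have e3 : 1 ≤ (x + 2) ^ (D₁ + D₂) := Nat.one_le_pow _ _ (by omega)
    have e4 : (x + 2) ^ (D₁ + D₂ + 2) = (x + 2) * (x + 2) * (x + 2) ^ (D₁ + D₂) := by ring
    have h1 := h₁ x
    have h2 := h₂ x
    have h3 : x * (g x + 1) ≤ x * (2 * (x + 2) ^ (D₁ + D₂)) :=
      Nat.mul_le_mul_left x (by omega)
    rw [e4]
    nlinarith [Nat.zero_le (x * x * (x + 2) ^ (D₁ + D₂)), Nat.zero_le (x * (x + 2) ^ (D₁ + D₂))]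
  induction c with
  | skip => exact ⟨0, fun x => le_of_eq (by rw [Cmd.tb, pow_zero])⟩
  | put y i j v =>
    obtain ⟨D, hD⟩ := two _ _ (Exp.cb_poly i) (Exp.cb_poly j)
    obtain ⟨D', hD'⟩ := two _ _ ⟨D, hD⟩ (Exp.cb_poly v)
    refine ⟨D', fun x => le_trans ?_ (hD' x)⟩
    have := Nat.zero_le (x * (j.cb x + 1))
    have := Nat.zero_le (x * (v.cb x + 1))
    rw [Cmd.tb]
    omega
  | rnd y i j v =>
    obtain ⟨D, hD⟩ := two _ _ (Exp.cb_poly i) (Exp.cb_poly j)
    obtain ⟨D', hD'⟩ := two _ _ ⟨D, hD⟩ (Exp.cb_poly v)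
    refine ⟨D', fun x => le_trans ?_ (hD' x)⟩
    have := Nat.zero_le (x * (j.cb x + 1))
    have := Nat.zero_le (x * (v.cb x + 1))
    rw [Cmd.tb]
    omega
  | seq c d hc hd =>
    obtain ⟨D, hD⟩ := two _ _ hc hd
    refine ⟨D, fun x => le_trans ?_ (hD x)⟩
    have := Nat.zero_le (x * (d.tb x + 1))
    rw [Cmd.tb]
    omega
  | ite a b c d hc hd =>
    obtain ⟨D, hD⟩ := two _ _ (Exp.cb_poly a) (Exp.cb_poly b)
    obtain ⟨D', hD'⟩ := two _ _ hc hd
    obtain ⟨D₂, hD₂⟩ := two _ _ ⟨D, hD⟩ ⟨D', hD'⟩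
    refine ⟨D₂, fun x => le_trans ?_ (hD₂ x)⟩
    have := Nat.zero_le (x * (d.tb x + 1))
    have := Nat.zero_le (x * (b.cb x + 1))
    rw [Cmd.tb]
    omega
  | rep k c hc =>
    obtain ⟨D, hD⟩ := two _ _ (Exp.cb_poly k) hc
    refine ⟨D, fun x => le_trans ?_ (hD x)⟩
    rw [Cmd.tb]
    omega

/-! ## Variables written by a program -/

/-- the arrays that a program may modify -/
def Cmd.wr : Cmd → List ℕ
  | skip => []
  | put x _ _ _ => [x]
  | rnd x _ _ _ => [x]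
  | seq c d => c.wr ++ d.wr
  | ite _ _ c d => c.wr ++ d.wr
  | rep _ c => c.wr

theorem upd_ne {s : St} {x y : ℕ} (h : y ≠ x) (i j v : ℤ) : upd s x i j v y = s y := by
  funext k l
  unfold upd
  rw [if_neg fun h' => h h'.1]

theorem upd_same (s : St) (x : ℕ) (i j v : ℤ) : upd s x i j v x i j = v := by
  unfold upd
  rw [if_pos ⟨rfl, rfl, rfl⟩]

theorem upd_cell {s : St} {x : ℕ} {i j k l : ℤ} (h : ¬ (k = i ∧ l = j)) (v : ℤ) :
    upd s x i j v x k l = s x k l := by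
  unfold upd
  rw [if_neg fun h' => h h'.2]

theorem wr_frame (c : Cmd) : ∀ s : St, ∀ y ∈ (c.run s).support, ∀ x ∉ c.wr, y.1 x = s x := by
  induction c with
  | skip =>
    intro s y hy x _
    rw [Cmd.run, PMF.mem_support_pure_iff] at hy
    rw [hy]
  | put z i j v =>
    intro s y hy x hx
    rw [Cmd.run, PMF.mem_support_pure_iff] at hy
    rw [Cmd.wr, List.mem_singleton] at hx
    rw [hy]
    exact upd_ne hx _ _ _
  | rnd z i j k =>
    intro s y hy x hx
    rw [Cmd.run, PMF.support_map] at hy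
    obtain ⟨w, _, rfl⟩ := hy
    rw [Cmd.wr, List.mem_singleton] at hx
    exact upd_ne hx _ _ _
  | seq c d hc hd =>
    intro s y hy x hx
    rw [Cmd.wr, List.mem_append, not_or] at hx
    rw [Cmd.run, PMF.mem_support_bind_iff] at hy
    obtain ⟨w, hw, hy⟩ := hy
    rw [PMF.support_map] at hy
    obtain ⟨z, hz, rfl⟩ := hy
    exact (hd w.1 z hz x hx.2).trans (hc s w hw x hx.1)
  | ite a b c d hc hd =>
    intro s y hy x hx
    rw [Cmd.wr, List.mem_append, not_or] at hx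
    rw [Cmd.run, PMF.support_map] at hy
    obtain ⟨z, hz, rfl⟩ := hy
    split_ifs at hz
    · exact hc s z hz x hx.1
    · exact hd s z hz x hx.2
  | rep k c hc =>
    intro s y hy x hx
    rw [Cmd.wr] at hx
    rw [Cmd.run, PMF.support_map] at hy
    obtain ⟨z, hz, rfl⟩ := hy
    have key : ∀ N : ℕ, ∀ z ∈ (iter c.run N s).support, z.1 x = s x := by
      intro N
      induction N with
      | zero =>
        intro z hz
        rw [iter, PMF.mem_support_pure_iff] at hz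
        rw [hz]
      | succ N ih =>
        intro z hz
        rw [iter, PMF.mem_support_bind_iff] at hz
        obtain ⟨w, hw, hz⟩ := hz
        rw [PMF.support_map] at hz
        obtain ⟨z', hz', rfl⟩ := hz
        exact (hc w.1 z' hz' x hx).trans (ih w hw)
    exact key _ z hz

/-! ## Simulation of a random variable by a program -/

/-- The run of `c` from the memory `s` simulates the law `p`: there is a coupling of the run with
`p` such that `R a s'` holds between the value `a` and the final memory `s'`; and the number of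
steps is at most `c.tb x`. -/
def Imp {α : Type} (x : ℕ) (c : Cmd) (s : St) (p : PMF α) (R : α → St → Prop) : Prop :=
  ∃ J : PMF (α × (St × ℕ)), J.map Prod.fst = p ∧ J.map Prod.snd = c.run s ∧
    ∀ z ∈ J.support, R z.1 z.2.1 ∧ z.2.2 ≤ c.tb x

/-- every final memory satisfies `Q`, and the number of steps is at most `c.tb x` -/
def Tri (x : ℕ) (c : Cmd) (s : St) (Q : St → Prop) : Prop :=
  ∀ y ∈ (c.run s).support, Q y.1 ∧ y.2 ≤ c.tb x

section Rules

variable {α β : Type} {x : ℕ} {c d : Cmd} {s : St}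

theorem bind_congr' {γ : Type} {p : PMF α} {f g : α → PMF γ} (h : ∀ a ∈ p.support, f a = g a) :
    p.bind f = p.bind g := by
  ext b
  rw [PMF.bind_apply, PMF.bind_apply]
  refine tsum_congr fun a => ?_
  by_cases ha : p a = 0
  · rw [ha, zero_mul, zero_mul]
  · rw [h a ((PMF.mem_support_iff _ _).mpr ha)]

theorem Imp.mono {p : PMF α} {R R' : α → St → Prop} (h : Imp x c s p R)
    (hR : ∀ a ∈ p.support, ∀ s', R a s' → R' a s') : Imp x c s p R' := by
  obtain ⟨J, h1, h2, h3⟩ := h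
  refine ⟨J, h1, h2, fun z hz => ⟨hR z.1 ?_ _ (h3 z hz).1, (h3 z hz).2⟩⟩
  rw [← h1, PMF.support_map]
  exact ⟨z, hz, rfl⟩

theorem Tri.mono {Q Q' : St → Prop} (h : Tri x c s Q) (hQ : ∀ s', Q s' → Q' s') :
    Tri x c s Q' := fun y hy => ⟨hQ _ (h y hy).1, (h y hy).2⟩

/-- the arrays which are not written do not change -/
theorem Imp.frame {p : PMF α} {R : α → St → Prop} (h : Imp x c s p R) :
    Imp x c s p (fun a s' => R a s' ∧ ∀ y ∉ c.wr, s' y = s y) := by
  obtain ⟨J, h1, h2, h3⟩ := h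
  refine ⟨J, h1, h2, fun z hz => ⟨⟨(h3 z hz).1, ?_⟩, (h3 z hz).2⟩⟩
  refine wr_frame c s z.2 ?_
  rw [← h2, PMF.support_map]
  exact ⟨z, hz, rfl⟩

theorem Tri.frame {Q : St → Prop} (h : Tri x c s Q) :
    Tri x c s (fun s' => Q s' ∧ ∀ y ∉ c.wr, s' y = s y) := fun y hy =>
  ⟨⟨(h y hy).1, wr_frame c s y hy⟩, (h y hy).2⟩

theorem Imp.map {p : PMF α} {R : α → St → Prop} (h : Imp x c s p R) (g : α → β)
    {R' : β → St → Prop} (hR : ∀ a ∈ p.support, ∀ s', R a s' → R' (g a) s') :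
    Imp x c s (p.map g) R' := by
  obtain ⟨J, h1, h2, h3⟩ := h
  refine ⟨J.map fun z => (g z.1, z.2), ?_, ?_, ?_⟩
  · rw [← h1, PMF.map_comp, PMF.map_comp]
    rfl
  · rw [← h2, PMF.map_comp]
    rfl
  · intro z hz
    rw [PMF.support_map] at hz
    obtain ⟨w, hw, rfl⟩ := hz
    refine ⟨hR _ ?_ _ (h3 w hw).1, (h3 w hw).2⟩
    rw [← h1, PMF.support_map]
    exact ⟨w, hw, rfl⟩

theorem Tri.imp {Q : St → Prop} {a : α} {R : α → St → Prop} (h : Tri x c s Q)
    (hR : ∀ s', Q s' → R a s') : Imp x c s (PMF.pure a) R := by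
  refine ⟨(c.run s).map fun y => (a, y), ?_, ?_, ?_⟩
  · rw [PMF.map_comp]
    exact PMF.map_const _ _
  · rw [PMF.map_comp]
    exact PMF.map_id _
  · intro z hz
    rw [PMF.support_map] at hz
    obtain ⟨w, hw, rfl⟩ := hz
    exact ⟨hR _ (h w hw).1, (h w hw).2⟩

theorem Imp.tri {p : PMF α} {R : α → St → Prop} (h : Imp x c s p R) :
    Tri x c s (fun s' => ∃ a ∈ p.support, R a s') := by
  obtain ⟨J, h1, h2, h3⟩ := h
  intro y hy
  rw [← h2, PMF.support_map] at hy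
  obtain ⟨z, hz, rfl⟩ := hy
  refine ⟨⟨z.1, ?_, (h3 z hz).1⟩, (h3 z hz).2⟩
  rw [← h1, PMF.support_map]
  exact ⟨z, hz, rfl⟩

theorem tri_skip {Q : St → Prop} (h : Q s) : Tri x Cmd.skip s Q := by
  intro y hy
  rw [Cmd.run, PMF.mem_support_pure_iff] at hy
  rw [hy]
  exact ⟨h, le_rfl⟩

theorem tri_put {y : ℕ} {i j v : Exp} {Q : St → Prop} (hi : i.Fits x s) (hj : j.Fits x s)
    (hv : v.Fits x s) (h : Q (upd s y (i.val s) (j.val s) (v.val s))) :
    Tri x (Cmd.put y i j v) s Q := by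
  intro z hz
  rw [Cmd.run, PMF.mem_support_pure_iff] at hz
  rw [hz]
  refine ⟨h, ?_⟩
  have h1 := Exp.cost_le hi
  have h2 := Exp.cost_le hj
  have h3 := Exp.cost_le hv
  rw [Cmd.tb]
  change i.cost s + j.cost s + v.cost s + 1 ≤ _
  omega

/-- the simulation after a first step -/
theorem sim_bind {p : PMF α} {p' : α → PMF β} {R : α → St → Prop} {R' : β → St → Prop}
    {q : PMF (St × ℕ)} {f : St → PMF (St × ℕ)} {t t' k : ℕ}
    (h : ∃ J : PMF (α × (St × ℕ)), J.map Prod.fst = p ∧ J.map Prod.snd = q ∧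
      ∀ z ∈ J.support, R z.1 z.2.1 ∧ z.2.2 ≤ t)
    (h' : ∀ a ∈ p.support, ∀ s', R a s' →
      ∃ J : PMF (β × (St × ℕ)), J.map Prod.fst = p' a ∧ J.map Prod.snd = f s' ∧
      ∀ z ∈ J.support, R' z.1 z.2.1 ∧ z.2.2 ≤ t') :
    ∃ J : PMF (β × (St × ℕ)), J.map Prod.fst = p.bind p' ∧
      J.map Prod.snd = (q.bind fun y => (f y.1).map fun z => (z.1, y.2 + (z.2 + k))) ∧
      ∀ z ∈ J.support, R' z.1 z.2.1 ∧ z.2.2 ≤ t + (t' + k) := by
  obtain ⟨J, h1, h2, h3⟩ := h
  have hK : ∀ z : α × (St × ℕ), ∃ K : PMF (β × (St × ℕ)), z ∈ J.support →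
      K.map Prod.fst = p' z.1 ∧ K.map Prod.snd = f z.2.1 ∧
      ∀ w ∈ K.support, R' w.1 w.2.1 ∧ w.2.2 ≤ t' := by
    intro z
    by_cases hz : z ∈ J.support
    · obtain ⟨K, hK⟩ := h' z.1 (by rw [← h1, PMF.support_map]; exact ⟨z, hz, rfl⟩) z.2.1 (h3 z hz).1
      exact ⟨K, fun _ => hK⟩
    · exact ⟨(p' z.1).map fun b => (b, z.2), fun h => absurd h hz⟩
  choose K hK using hK
  refine ⟨J.bind fun z => (K z).map fun w => (w.1, (w.2.1, z.2.2 + (w.2.2 + k))), ?_, ?_, ?_⟩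
  · rw [PMF.map_bind, ← h1, PMF.bind_map]
    refine bind_congr' fun z hz => ?_
    rw [PMF.map_comp, Function.comp_apply, ← (hK z hz).1]
    rfl
  · rw [PMF.map_bind, ← h2, PMF.bind_map]
    refine bind_congr' fun z hz => ?_
    rw [PMF.map_comp, Function.comp_apply, ← (hK z hz).2.1, PMF.map_comp]
    rfl
  · intro z hz
    rw [PMF.mem_support_bind_iff] at hz
    obtain ⟨w, hw, hz⟩ := hz
    rw [PMF.support_map] at hz
    obtain ⟨v, hv, rfl⟩ := hz
    have h4 := (hK w hw).2.2 v hv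
    refine ⟨h4.1, ?_⟩
    have h5 := (h3 w hw).2
    have h6 := h4.2
    change w.2.2 + (v.2.2 + k) ≤ _
    omega

theorem imp_seq {p : PMF α} {p' : α → PMF β} {R : α → St → Prop} {R' : β → St → Prop}
    (h : Imp x c s p R) (h' : ∀ a ∈ p.support, ∀ s', R a s' → Imp x d s' (p' a) R') :
    Imp x (Cmd.seq c d) s (p.bind p') R' := by
  have := sim_bind (k := 0) h h'
  obtain ⟨J, h1, h2, h3⟩ := this
  exact ⟨J, h1, h2, h3⟩

theorem Tri.seq {Q Q' : St → Prop} (h : Tri x c s Q) (h' : ∀ s', Q s' → Tri x d s' Q') :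
    Tri x (Cmd.seq c d) s Q' := by
  intro y hy
  rw [Cmd.run, PMF.mem_support_bind_iff] at hy
  obtain ⟨w, hw, hy⟩ := hy
  rw [PMF.support_map] at hy
  obtain ⟨v, hv, rfl⟩ := hy
  have h1 := h w hw
  have h2 := h' w.1 h1.1 v hv
  exact ⟨h2.1, Nat.add_le_add h1.2 h2.2⟩

/-- a deterministic step, then a random one -/
theorem Tri.seq_imp {Q : St → Prop} {p : PMF α} {R : α → St → Prop} (h : Tri x c s Q)
    (h' : ∀ s', Q s' → Imp x d s' p R) : Imp x (Cmd.seq c d) s p R := by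
  have h1 : Imp x c s (PMF.pure ()) (fun _ => Q) := h.imp fun _ hQ => hQ
  have h2 := imp_seq (p' := fun _ => p) h1 fun _ _ s' hQ => h' s' hQ
  rwa [PMF.pure_bind] at h2

/-- a random step, then a deterministic one -/
theorem Imp.seq_tri {p : PMF α} {R R' : α → St → Prop} (h : Imp x c s p R)
    (h' : ∀ a ∈ p.support, ∀ s', R a s' → Tri x d s' (R' a)) : Imp x (Cmd.seq c d) s p R' := by
  have h2 := imp_seq (p' := fun a => PMF.pure a) (R' := R') h fun a ha s' hR =>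
    (h' a ha s' hR).imp fun _ hQ => hQ
  rwa [PMF.bind_pure] at h2

theorem imp_ite_pos {a b : Exp} {p : PMF α} {R : α → St → Prop} (hab : a.val s ≤ b.val s)
    (ha : a.Fits x s) (hb : b.Fits x s) (h : Imp x c s p R) : Imp x (Cmd.ite a b c d) s p R := by
  obtain ⟨J, h1, h2, h3⟩ := h
  refine ⟨J.map fun z => (z.1, (z.2.1, a.cost s + b.cost s + 1 + z.2.2)), ?_, ?_, ?_⟩
  · rw [← h1, PMF.map_comp]
    rfl
  · rw [Cmd.run, if_pos hab, ← h2, PMF.map_comp, PMF.map_comp]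
    rfl
  · intro z hz
    rw [PMF.support_map] at hz
    obtain ⟨w, hw, rfl⟩ := hz
    refine ⟨(h3 w hw).1, ?_⟩
    have h4 := (h3 w hw).2
    have h5 := Exp.cost_le ha
    have h6 := Exp.cost_le hb
    rw [Cmd.tb]
    change a.cost s + b.cost s + 1 + w.2.2 ≤ _
    omega

theorem imp_ite_neg {a b : Exp} {p : PMF α} {R : α → St → Prop} (hab : ¬ a.val s ≤ b.val s)
    (ha : a.Fits x s) (hb : b.Fits x s) (h : Imp x d s p R) : Imp x (Cmd.ite a b c d) s p R := by
  obtain ⟨J, h1, h2, h3⟩ := h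
  refine ⟨J.map fun z => (z.1, (z.2.1, a.cost s + b.cost s + 1 + z.2.2)), ?_, ?_, ?_⟩
  · rw [← h1, PMF.map_comp]
    rfl
  · rw [Cmd.run, if_neg hab, ← h2, PMF.map_comp, PMF.map_comp]
    rfl
  · intro z hz
    rw [PMF.support_map] at hz
    obtain ⟨w, hw, rfl⟩ := hz
    refine ⟨(h3 w hw).1, ?_⟩
    have h4 := (h3 w hw).2
    have h5 := Exp.cost_le ha
    have h6 := Exp.cost_le hb
    rw [Cmd.tb]
    change a.cost s + b.cost s + 1 + w.2.2 ≤ _
    omega

theorem tri_ite {a b : Exp} {Q : St → Prop} (ha : a.Fits x s) (hb : b.Fits x s)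
    (h : a.val s ≤ b.val s → Tri x c s Q) (h' : ¬ a.val s ≤ b.val s → Tri x d s Q) :
    Tri x (Cmd.ite a b c d) s Q := by
  by_cases hab : a.val s ≤ b.val s
  · have h1 : Imp x c s (PMF.pure ()) (fun _ => Q) := (h hab).imp fun _ hQ => hQ
    have := (imp_ite_pos (d := d) hab ha hb h1).tri
    exact this.mono fun s' h => by obtain ⟨_, _, h⟩ := h; exact h
  · have h1 : Imp x d s (PMF.pure ()) (fun _ => Q) := (h' hab).imp fun _ hQ => hQ
    have := (imp_ite_neg (c := c) hab ha hb h1).tri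
    exact this.mono fun s' h => by obtain ⟨_, _, h⟩ := h; exact h

/-- `P 0`, then `P 1`, …, then `P (k - 1)` -/
noncomputable def loop (P : ℕ → α → PMF α) : ℕ → α → PMF α
  | 0, a => PMF.pure a
  | k + 1, a => (loop P k a).bind (P k)

theorem imp_rep {P : ℕ → α → PMF α} {R : ℕ → α → St → Prop} {a : α} {k : Exp} {N : ℕ}
    (hN : (k.val s).toNat = N) (hx : N ≤ x) (hk : k.Fits x s) (h0 : R 0 a s)
    (hs : ∀ t < N, ∀ a' ∈ (loop P t a).support, ∀ s', R t a' s' →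
      Imp x c s' (P t a') (R (t + 1))) :
    Imp x (Cmd.rep k c) s (loop P N a) (R N) := by
  have key : ∀ t ≤ N, ∃ J : PMF (α × (St × ℕ)), J.map Prod.fst = loop P t a ∧
      J.map Prod.snd = iter c.run t s ∧
      ∀ z ∈ J.support, R t z.1 z.2.1 ∧ z.2.2 ≤ t * (c.tb x + 1) := by
    intro t
    induction t with
    | zero =>
      intro _
      refine ⟨PMF.pure (a, (s, 0)), ?_, ?_, ?_⟩
      · rw [PMF.pure_map]
        rfl
      · rw [PMF.pure_map]
        rfl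
      · intro z hz
        rw [PMF.mem_support_pure_iff] at hz
        rw [hz]
        exact ⟨h0, Nat.zero_le _⟩
    | succ t ih =>
      intro ht
      have h1 := sim_bind (k := 1) (t' := c.tb x) (f := c.run) (p' := P t) (R' := R (t + 1))
        (ih (by omega)) fun a' ha' s' hR => hs t (by omega) a' ha' s' hR
      obtain ⟨J, h1, h2, h3⟩ := h1
      refine ⟨J, h1, h2, fun z hz => ⟨(h3 z hz).1, (h3 z hz).2.trans (le_of_eq ?_)⟩⟩
      ring
  obtain ⟨J, h1, h2, h3⟩ := key N le_rfl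
  refine ⟨J.map fun z => (z.1, (z.2.1, k.cost s + 1 + z.2.2)), ?_, ?_, ?_⟩
  · rw [← h1, PMF.map_comp]
    rfl
  · rw [Cmd.run, hN, ← h2, PMF.map_comp, PMF.map_comp]
    rfl
  · intro z hz
    rw [PMF.support_map] at hz
    obtain ⟨w, hw, rfl⟩ := hz
    refine ⟨(h3 w hw).1, ?_⟩
    have h4 := (h3 w hw).2
    have h5 := Exp.cost_le hk
    have h6 : N * (c.tb x + 1) ≤ x * (c.tb x + 1) := Nat.mul_le_mul_right _ hx
    rw [Cmd.tb]
    change k.cost s + 1 + w.2.2 ≤ _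
    omega

theorem loop_pure (t : ℕ) : loop (fun _ (_ : Unit) => PMF.pure ()) t () = PMF.pure () := by
  induction t with
  | zero => rfl
  | succ t ih => rw [loop, ih, PMF.pure_bind]

theorem tri_rep {I : ℕ → St → Prop} {k : Exp} {N : ℕ}
    (hN : (k.val s).toNat = N) (hx : N ≤ x) (hk : k.Fits x s) (h0 : I 0 s)
    (hs : ∀ t < N, ∀ s', I t s' → Tri x c s' (I (t + 1))) :
    Tri x (Cmd.rep k c) s (I N) := by
  have h1 := imp_rep (P := fun _ (_ : Unit) => PMF.pure ()) (R := fun t _ s' => I t s')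
    (a := ()) hN hx hk h0 fun t ht _ _ s' hI => (hs t ht s' hI).imp fun _ h => h
  exact h1.tri.mono fun s' h => by obtain ⟨_, _, h⟩ := h; exact h

end Rules

/-! ## Scalars, loops with a counter -/

/-- the value of the scalar `x` -/
abbrev sc (x : ℕ) : Exp := Exp.get x (Exp.num 0) (Exp.num 0)

/-- the entry `i` of the one-dimensional array `x`, where `i` is a scalar -/
abbrev a1 (x i : ℕ) : Exp := Exp.get x (sc i) (Exp.num 0)

/-- the entry `(i, j)` of the array `x`, where `i` and `j` are scalars -/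
abbrev a2 (x i j : ℕ) : Exp := Exp.get x (sc i) (sc j)

/-- `x := v` -/
abbrev putS (x : ℕ) (v : Exp) : Cmd := Cmd.put x (Exp.num 0) (Exp.num 0) v

/-- `x[i] := v` -/
abbrev put1 (x i : ℕ) (v : Exp) : Cmd := Cmd.put x (sc i) (Exp.num 0) v

/-- `x[i, j] := v` -/
abbrev put2 (x i j : ℕ) (v : Exp) : Cmd := Cmd.put x (sc i) (sc j) v

/-- `for i := 0 to k - 1 do c` -/
def forL (i : ℕ) (k : Exp) (c : Cmd) : Cmd :=
  Cmd.seq (putS i (Exp.num 0)) (Cmd.rep k (Cmd.seq c (putS i (Exp.add (sc i) (Exp.num 1)))))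

section For

variable {α : Type} {x : ℕ} {c : Cmd} {s : St}

theorem imp_for {P : ℕ → α → PMF α} {R : ℕ → α → St → Prop} {a : α} {i : ℕ} {k : Exp} {N : ℕ}
    (hN : (k.val (upd s i 0 0 0)).toNat = N) (hx : N ≤ x) (hk : k.Fits x (upd s i 0 0 0))
    (h0 : R 0 a (upd s i 0 0 0)) (hi : i ∉ c.wr)
    (hs : ∀ t < N, ∀ a' ∈ (loop P t a).support, ∀ s', R t a' s' → s' i 0 0 = t →
      Imp x c s' (P t a') (fun a'' s'' => R (t + 1) a'' (upd s'' i 0 0 (t + 1)))) :
    Imp x (forL i k c) s (loop P N a) (fun a' s' => R N a' s' ∧ s' i 0 0 = N) := by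
  unfold forL
  refine Tri.seq_imp (Q := fun s' => s' = upd s i 0 0 0) (tri_put trivial trivial trivial rfl)
    fun s' hs' => ?_
  subst hs'
  refine imp_rep (R := fun t a' s' => R t a' s' ∧ s' i 0 0 = t) hN hx hk ?_ ?_
  · refine ⟨h0, ?_⟩
    rw [upd_same]
    rfl
  · intro t ht a' ha' s' hR
    refine ((hs t ht a' ha' s' hR.1 hR.2).frame).seq_tri fun a'' _ s'' hs'' => ?_
    refine tri_put trivial trivial ⟨⟨trivial, trivial⟩, trivial⟩ ?_
    have h1 : s'' i 0 0 = t := by rw [hs''.2 i hi]; exact hR.2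
    have h2 : (Exp.add (sc i) (Exp.num 1)).val s'' = (t : ℤ) + 1 := by
      change s'' i 0 0 + 1 = _
      rw [h1]
    rw [h2]
    change R (t + 1) a'' (upd s'' i 0 0 (t + 1)) ∧ upd s'' i 0 0 (t + 1) i 0 0 = _
    refine ⟨hs''.1, ?_⟩
    rw [upd_same]
    push_cast
    rfl

theorem tri_for {I : ℕ → St → Prop} {i : ℕ} {k : Exp} {N : ℕ}
    (hN : (k.val (upd s i 0 0 0)).toNat = N) (hx : N ≤ x) (hk : k.Fits x (upd s i 0 0 0))
    (h0 : I 0 (upd s i 0 0 0)) (hi : i ∉ c.wr)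
    (hs : ∀ t < N, ∀ s', I t s' → s' i 0 0 = t →
      Tri x c s' (fun s'' => I (t + 1) (upd s'' i 0 0 (t + 1)))) :
    Tri x (forL i k c) s (fun s' => I N s' ∧ s' i 0 0 = N) := by
  have h1 := imp_for (P := fun _ (_ : Unit) => PMF.pure ()) (R := fun t _ s' => I t s')
    (a := ()) hN hx hk h0 hi fun t ht _ _ s' hI h => (hs t ht s' hI h).imp fun _ h => h
  exact h1.tri.mono fun s' h => by obtain ⟨_, _, h⟩ := h; exact h

end For

end P328.Deep
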