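import Vale.Agent.P328.Deep.Logic

/-!
# P328 : tables, totals, random draws in programs
-/

namespace P328.Deep

open Finset

/-- the memories `s` and `s'` agree on the arrays outside of `W` -/
def Agree (W : List ℕ) (s s' : St) : Prop := ∀ y ∉ W, s' y = s y

theorem Agree.refl (W : List ℕ) (s : St) : Agree W s s := fun _ _ => rfl

theorem Agree.trans {W : List ℕ} {s s' s'' : St} (h : Agree W s s') (h' : Agree W s' s'') :
    Agree W s s'' := fun y hy => (h' y hy).trans (h y hy)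

theorem Agree.upd {W : List ℕ} {s s' : St} (h : Agree W s s') {y : ℕ} (hy : y ∈ W)
    (i j v : ℤ) : Agree W s (upd s' y i j v) := fun z hz => by
  have hzy : z ≠ y := fun h' => hz (by rw [h']; exact hy)
  exact (upd_ne hzy i j v).trans (h z hz)

/-- `for i := 0 to K - 1, for j := 0 to L - 1 : v[i, j] := e` -/
def tabu (v i j : ℕ) (K L e : Exp) : Cmd := forL i K (forL j L (put2 v i j e))

/-- `for i := 0 to K - 1 : v[i] := e` -/
def tab1 (v i : ℕ) (K e : Exp) : Cmd := forL i K (put1 v i e)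

/-- `v := ∑_{i < K} e` -/
def total (v i : ℕ) (K e : Exp) : Cmd :=
  Cmd.seq (putS v (Exp.num 0)) (forL i K (putS v (Exp.add (sc v) e)))

/-- `for i := 0 to K - 1 : v[i] := ∑_{j < L} e` -/
def sums (v i j w : ℕ) (K L e : Exp) : Cmd :=
  forL i K (Cmd.seq (total w j L e) (put1 v i (sc w)))

section Tables

variable {x : ℕ} {s : St} {m n : ℕ}

theorem tri_tabu' {v i j : ℕ} {K L e : Exp} (hvi : v ≠ i) (hvj : v ≠ j) (hij : i ≠ j)
    (hm : m ≤ x) (hn : n ≤ x)
    (hK : ∀ s', Agree [v, i, j] s s' → K.Fits x s' ∧ (K.val s').toNat = m)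
    (hL : ∀ s', Agree [v, i, j] s s' → L.Fits x s' ∧ (L.val s').toNat = n)
    (g : ℤ → ℤ → ℤ)
    (he : ∀ a < m, ∀ b < n, ∀ s', Agree [v, i, j] s s' → s' i 0 0 = (a : ℤ) →
      s' j 0 0 = (b : ℤ) → s' v a b = s v a b → e.Fits x s' ∧ e.val s' = g a b) :
    Tri x (tabu v i j K L e) s (fun s' => Agree [v, i, j] s s' ∧ ∀ k l : ℤ,
      s' v k l = if 0 ≤ k ∧ k < m ∧ 0 ≤ l ∧ l < n then g k l else s v k l) := by
  have mi : i ∈ [v, i, j] := by simp
  have mj : j ∈ [v, i, j] := by simp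
  have mv : v ∈ [v, i, j] := by simp
  have h0 : Agree [v, i, j] s (upd s i 0 0 0) := (Agree.refl _ s).upd mi _ _ _
  have outer := tri_for (x := x) (c := forL j L (put2 v i j e)) (s := s)
    (I := fun t s' => Agree [v, i, j] s s' ∧ ∀ k l : ℤ,
      s' v k l = if 0 ≤ k ∧ k < t ∧ 0 ≤ l ∧ l < n then g k l else s v k l)
    (i := i) (k := K) (N := m) (hK _ h0).2 hm (hK _ h0).1 ⟨h0, fun k l => ?_⟩ ?_ ?_
  · exact outer.mono fun s' h => h.1
  · rw [upd_ne hvi, if_neg (by omega)]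
  · simp [forL, Cmd.wr, putS, put2, hij, Ne.symm hvi]
  · intro t ht s' hI hti
    have h1 : Agree [v, i, j] s (upd s' j 0 0 0) := hI.1.upd mj _ _ _
    have inner := tri_for (x := x) (c := put2 v i j e) (s := s')
      (I := fun u s'' => Agree [v, i, j] s s'' ∧ s'' i 0 0 = t ∧ ∀ k l : ℤ,
        s'' v k l = if 0 ≤ k ∧ 0 ≤ l ∧ l < n ∧ (k < t ∨ (k = t ∧ l < u)) then g k l else s v k l)
      (i := j) (k := L) (N := n) (hL _ h1).2 hn (hL _ h1).1 ⟨h1, ?_, fun k l => ?_⟩ ?_ ?_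
    · refine inner.mono fun s'' h => ⟨?_, ?_⟩
      · exact h.1.1.upd mi _ _ _
      · intro k l
        rw [upd_ne hvi, h.1.2.2 k l]
        refine if_congr ?_ rfl rfl
        push_cast
        omega
    · rw [upd_ne hij]
      exact hti
    · rw [upd_ne hvj, hI.2 k l]
      refine if_congr ?_ rfl rfl
      push_cast
      omega
    · simp [Cmd.wr, Ne.symm hvj]
    · intro u hu s'' hI' huj
      have hcell : s'' v t u = s v t u := by
        rw [hI'.2.2 t u, if_neg (by omega)]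
      have h2 := he t ht u hu s'' hI'.1 hI'.2.1 huj hcell
      refine tri_put ⟨trivial, trivial⟩ ⟨trivial, trivial⟩ h2.1 ?_
      have e1 : (sc i).val s'' = t := hI'.2.1
      have e2 : (sc j).val s'' = u := huj
      rw [e1, e2, h2.2]
      refine ⟨(hI'.1.upd mv _ _ _).upd mj _ _ _, ?_, fun k l => ?_⟩
      · rw [upd_ne hij, upd_ne (Ne.symm hvi)]
        exact hI'.2.1
      · rw [upd_ne hvj]
        by_cases hkl : k = t ∧ l = u
        · rw [hkl.1, hkl.2, upd_same, if_pos (by push_cast; omega)]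
        · rw [upd_cell hkl, hI'.2.2 k l]
          refine if_congr ?_ rfl rfl
          push_cast
          omega

/-- a table given by the values of an expression -/
theorem tri_tabu {v i j : ℕ} {K L e : Exp} (hvi : v ≠ i) (hvj : v ≠ j) (hij : i ≠ j)
    (hm : m ≤ x) (hn : n ≤ x)
    (hK : ∀ s', Agree [v, i, j] s s' → K.Fits x s' ∧ K.val s' = m)
    (hL : ∀ s', Agree [v, i, j] s s' → L.Fits x s' ∧ L.val s' = n)
    (F : Fin m → Fin n → ℤ)
    (he : ∀ (a : Fin m) (b : Fin n) (s' : St), Agree [v, i, j] s s' → s' i 0 0 = (a : ℕ) →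
      s' j 0 0 = (b : ℕ) → s' v (a : ℕ) (b : ℕ) = s v (a : ℕ) (b : ℕ) →
      e.Fits x s' ∧ e.val s' = F a b) :
    Tri x (tabu v i j K L e) s (fun s' => Agree [v, i, j] s s' ∧
      ∀ (a : Fin m) (b : Fin n), s' v (a : ℕ) (b : ℕ) = F a b) := by
  refine (tri_tabu' hvi hvj hij hm hn (fun s' h => ⟨(hK s' h).1, by rw [(hK s' h).2]; simp⟩)
    (fun s' h => ⟨(hL s' h).1, by rw [(hL s' h).2]; simp⟩)
    (fun k l => if h : k.toNat < m ∧ l.toNat < n then F ⟨k.toNat, h.1⟩ ⟨l.toNat, h.2⟩ else 0)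
    ?_).mono ?_
  · intro a ha b hb s' h1 h2 h3 h4
    have h5 := he ⟨a, ha⟩ ⟨b, hb⟩ s' h1 h2 h3 h4
    refine ⟨h5.1, h5.2.trans ?_⟩
    rw [dif_pos ⟨by simpa using ha, by simpa using hb⟩]
    simp
  · intro s' h
    refine ⟨h.1, fun a b => ?_⟩
    have ha := a.isLt
    have hb := b.isLt
    rw [h.2, if_pos (by omega), dif_pos (by simp)]
    simp

/-- a one-dimensional table given by the values of an expression -/
theorem tri_tab1 {v i : ℕ} {K e : Exp} (hvi : v ≠ i) (hm : m ≤ x)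
    (hK : ∀ s', Agree [v, i] s s' → K.Fits x s' ∧ K.val s' = m)
    (f : Fin m → ℤ)
    (he : ∀ (a : Fin m) (s' : St), Agree [v, i] s s' → s' i 0 0 = (a : ℕ) →
      s' v (a : ℕ) 0 = s v (a : ℕ) 0 → e.Fits x s' ∧ e.val s' = f a) :
    Tri x (tab1 v i K e) s (fun s' => Agree [v, i] s s' ∧ ∀ a : Fin m, s' v (a : ℕ) 0 = f a) := by
  have mi : i ∈ [v, i] := by simp
  have mv : v ∈ [v, i] := by simp
  have h0 : Agree [v, i] s (upd s i 0 0 0) := (Agree.refl _ s).upd mi _ _ _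
  have main := tri_for (x := x) (c := put1 v i e) (s := s)
    (I := fun t s' => Agree [v, i] s s' ∧ ∀ a : Fin m,
      s' v (a : ℕ) 0 = if (a : ℕ) < t then f a else s v (a : ℕ) 0)
    (i := i) (k := K) (N := m) (by rw [(hK _ h0).2]; simp) hm (hK _ h0).1 ⟨h0, fun a => ?_⟩ ?_ ?_
  · refine main.mono fun s' h => ⟨h.1.1, fun a => ?_⟩
    rw [h.1.2, if_pos a.isLt]
  · rw [upd_ne hvi, if_neg (by omega)]
  · simp [Cmd.wr, Ne.symm hvi]
  · intro t ht s' hI hti
    have hcell : s' v ((⟨t, ht⟩ : Fin m) : ℕ) 0 = s v ((⟨t, ht⟩ : Fin m) : ℕ) 0 := by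
      rw [hI.2 ⟨t, ht⟩, if_neg (by simp)]
    have h2 := he ⟨t, ht⟩ s' hI.1 hti hcell
    refine tri_put ⟨trivial, trivial⟩ trivial h2.1 ?_
    have e1 : (sc i).val s' = t := hti
    rw [e1, h2.2]
    change Agree [v, i] s (upd (upd s' v t 0 (f ⟨t, ht⟩)) i 0 0 (t + 1)) ∧ _
    refine ⟨(hI.1.upd mv _ _ _).upd mi _ _ _, fun a => ?_⟩
    rw [upd_ne hvi]
    change upd s' v t 0 (f ⟨t, ht⟩) v (a : ℕ) 0 = _
    by_cases hat : (a : ℕ) = t
    · have : a = ⟨t, ht⟩ := Fin.ext hat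
      rw [this]
      change upd s' v t 0 (f ⟨t, ht⟩) v t 0 = _
      rw [upd_same, if_pos (by simp)]
    · rw [upd_cell (by omega), hI.2 a]
      refine if_congr ?_ rfl rfl
      omega

/-- a sum -/
theorem tri_total {v i : ℕ} {K e : Exp} (hvi : v ≠ i) (hm : m ≤ x)
    (hK : ∀ s', Agree [v, i] s s' → K.Fits x s' ∧ K.val s' = m)
    (f : Fin m → ℤ)
    (he : ∀ (a : Fin m) (s' : St), Agree [v, i] s s' → s' i 0 0 = (a : ℕ) →
      e.Fits x s' ∧ e.val s' = f a) :
    Tri x (total v i K e) s (fun s' => Agree [v, i] s s' ∧ s' v 0 0 = ∑ a, f a) := by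
  have mi : i ∈ [v, i] := by simp
  have mv : v ∈ [v, i] := by simp
  unfold total
  refine Tri.seq (Q := fun s' => Agree [v, i] s s' ∧ s' v 0 0 = 0)
    (tri_put trivial trivial trivial ⟨(Agree.refl _ s).upd mv _ _ _, upd_same _ _ _ _ _⟩) ?_
  intro s₁ hs₁
  have h0 : Agree [v, i] s (upd s₁ i 0 0 0) := hs₁.1.upd mi _ _ _
  have main := tri_for (x := x) (c := putS v (Exp.add (sc v) e)) (s := s₁)
    (I := fun t s' => Agree [v, i] s s' ∧
      s' v 0 0 = ∑ a : Fin m, if (a : ℕ) < t then f a else 0)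
    (i := i) (k := K) (N := m) (by rw [(hK _ h0).2]; simp) hm (hK _ h0).1 ⟨h0, ?_⟩ ?_ ?_
  · refine main.mono fun s' h => ⟨h.1.1, ?_⟩
    rw [h.1.2]
    exact Finset.sum_congr rfl fun a _ => if_pos a.isLt
  · rw [upd_ne hvi, hs₁.2]
    exact (Finset.sum_eq_zero fun a _ => if_neg (by omega)).symm
  · simp [Cmd.wr, Ne.symm hvi]
  · intro t ht s' hI hti
    have h2 := he ⟨t, ht⟩ s' hI.1 hti
    refine tri_put trivial trivial ⟨⟨trivial, trivial⟩, h2.1⟩ ?_
    have e1 : (Exp.add (sc v) e).val s' = s' v 0 0 + f ⟨t, ht⟩ := by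
      rw [← h2.2]
      rfl
    rw [e1]
    change Agree [v, i] s (upd (upd s' v 0 0 _) i 0 0 (t + 1)) ∧ _
    refine ⟨(hI.1.upd mv _ _ _).upd mi _ _ _, ?_⟩
    rw [upd_ne hvi]
    change upd s' v 0 0 (s' v 0 0 + f ⟨t, ht⟩) v 0 0 = _
    rw [upd_same, hI.2]
    have e2 : f ⟨t, ht⟩ = ∑ a : Fin m, if a = ⟨t, ht⟩ then f a else 0 := by simp
    rw [e2, ← Finset.sum_add_distrib]
    refine Finset.sum_congr rfl fun a _ => ?_
    by_cases hat : a = ⟨t, ht⟩
    · rw [if_pos hat, hat]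
      simp
    · rw [if_neg hat, add_zero]
      have : (a : ℕ) ≠ t := fun h => hat (Fin.ext h)
      refine if_congr ?_ rfl rfl
      omega

/-- a table of sums -/
theorem tri_sums {v i j w : ℕ} {K L e : Exp} (hvi : v ≠ i) (hvj : v ≠ j) (hvw : v ≠ w)
    (hij : i ≠ j) (hiw : i ≠ w) (hjw : j ≠ w) (hm : m ≤ x) (hn : n ≤ x)
    (hK : ∀ s', Agree [v, i, j, w] s s' → K.Fits x s' ∧ K.val s' = m)
    (hL : ∀ s', Agree [v, i, j, w] s s' → L.Fits x s' ∧ L.val s' = n)
    (F : Fin m → Fin n → ℤ)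
    (he : ∀ (a : Fin m) (b : Fin n) (s' : St), Agree [v, i, j, w] s s' → s' i 0 0 = (a : ℕ) →
      s' j 0 0 = (b : ℕ) → e.Fits x s' ∧ e.val s' = F a b) :
    Tri x (sums v i j w K L e) s (fun s' => Agree [v, i, j, w] s s' ∧
      ∀ a : Fin m, s' v (a : ℕ) 0 = ∑ b, F a b) := by
  have mi : i ∈ [v, i, j, w] := by simp
  have mv : v ∈ [v, i, j, w] := by simp
  have h0 : Agree [v, i, j, w] s (upd s i 0 0 0) := (Agree.refl _ s).upd mi _ _ _
  have main := tri_for (x := x) (c := Cmd.seq (total w j L e) (put1 v i (sc w))) (s := s)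
    (I := fun t s' => Agree [v, i, j, w] s s' ∧ ∀ a : Fin m,
      s' v (a : ℕ) 0 = if (a : ℕ) < t then ∑ b, F a b else s v (a : ℕ) 0)
    (i := i) (k := K) (N := m) (by rw [(hK _ h0).2]; simp) hm (hK _ h0).1 ⟨h0, fun a => ?_⟩ ?_ ?_
  · refine main.mono fun s' h => ⟨h.1.1, fun a => ?_⟩
    rw [h.1.2, if_pos a.isLt]
  · rw [upd_ne hvi, if_neg (by omega)]
  · simp [Cmd.wr, total, forL, putS, Ne.symm hvi, hij, hiw]
  · intro t ht s' hI hti
    have sub : ∀ s'', Agree [w, j] s' s'' → Agree [v, i, j, w] s s'' := fun s'' h y hy => by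
      rw [h y (by simp at hy ⊢; tauto)]
      exact hI.1 y hy
    refine Tri.seq (tri_total (Ne.symm hjw) hn (fun s'' h => hL s'' (sub s'' h))
      (fun b => F ⟨t, ht⟩ b) fun b s'' h hb => he ⟨t, ht⟩ b s'' (sub s'' h) ?_ hb) ?_
    · rw [h i (by simp; tauto)]
      exact hti
    · intro s'' h
      refine tri_put ⟨trivial, trivial⟩ trivial ⟨trivial, trivial⟩ ?_
      have e1 : (sc i).val s'' = t := by
        change s'' i 0 0 = t
        rw [h.1 i (by simp; tauto)]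
        exact hti
      have e2 : (sc w).val s'' = ∑ b, F ⟨t, ht⟩ b := h.2
      rw [e1, e2]
      change Agree [v, i, j, w] s (upd (upd s'' v t 0 _) i 0 0 (t + 1)) ∧ _
      refine ⟨((sub s'' h.1).upd mv _ _ _).upd mi _ _ _, fun a => ?_⟩
      rw [upd_ne hvi]
      change upd s'' v t 0 (∑ b, F ⟨t, ht⟩ b) v (a : ℕ) 0 = _
      by_cases hat : (a : ℕ) = t
      · have : a = ⟨t, ht⟩ := Fin.ext hat
        rw [this]
        change upd s'' v t 0 (∑ b, F ⟨t, ht⟩ b) v t 0 = _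
        rw [upd_same, if_pos (by simp)]
      · rw [upd_cell (by omega), h.1 v (by simp; tauto), hI.2 a]
        refine if_congr ?_ rfl rfl
        omega

end Tables

section Random

variable {x : ℕ} {s : St}

theorem map_uniform {α : Type} [Fintype α] [Nonempty α] (φ : α → ℤ)
    (hφ : Function.Injective φ) (S : Finset ℤ) (hS : S.Nonempty)
    (h : ∀ z, z ∈ S ↔ ∃ a, φ a = z) :
    (PMF.uniformOfFintype α).map φ = PMF.uniformOfFinset S hS := by
  classical
  have hS' : S = Finset.univ.image φ := by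
    ext z
    rw [h z]
    simp
  have hc : S.card = Fintype.card α := by
    rw [hS', Finset.card_image_of_injective _ hφ, Finset.card_univ]
  ext z
  rw [PMF.map_apply, PMF.uniformOfFinset_apply]
  by_cases hz : z ∈ S
  · obtain ⟨a, ha⟩ := (h z).mp hz
    rw [if_pos hz, tsum_eq_single a, if_pos ha.symm, PMF.uniformOfFintype_apply, hc]
    intro b hb
    rw [if_neg]
    intro hzb
    exact hb (hφ (hzb.symm.trans ha.symm))
  · rw [if_neg hz]
    refine ENNReal.tsum_eq_zero.mpr fun b => if_neg fun hzb => hz ((h z).mpr ⟨b, hzb.symm⟩)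

theorem imp_rnd {α : Type} [Fintype α] [Nonempty α] {v : ℕ} {i j k : Exp} (φ : α → ℤ)
    (hφ : Function.Injective φ) (h : ∀ z, (0 ≤ z ∧ z < k.val s) ↔ ∃ a, φ a = z)
    (hi : i.Fits x s) (hj : j.Fits x s) (hk : k.Fits x s) {R : α → St → Prop}
    (hR : ∀ a, R a (upd s v (i.val s) (j.val s) (φ a))) :
    Imp x (Cmd.rnd v i j k) s (PMF.uniformOfFintype α) R := by
  have hne : (Finset.Ico 0 (k.val s)).Nonempty := by
    obtain ⟨a⟩ := (inferInstance : Nonempty α)
    exact ⟨φ a, Finset.mem_Ico.mpr ((h (φ a)).mpr ⟨a, rfl⟩)⟩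
  refine ⟨(PMF.uniformOfFintype α).map fun a =>
    (a, (upd s v (i.val s) (j.val s) (φ a), i.cost s + j.cost s + k.cost s + 1)), ?_, ?_, ?_⟩
  · rw [PMF.map_comp]
    exact PMF.map_id _
  · rw [Cmd.run, dif_pos hne, ← map_uniform φ hφ _ hne (fun z => by rw [Finset.mem_Ico]; exact h z),
      PMF.map_comp, PMF.map_comp]
    rfl
  · intro z hz
    rw [PMF.support_map] at hz
    obtain ⟨a, _, rfl⟩ := hz
    refine ⟨hR a, ?_⟩
    have h1 := Exp.cost_le hi
    have h2 := Exp.cost_le hj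
    have h3 := Exp.cost_le hk
    rw [Cmd.tb]
    change i.cost s + j.cost s + k.cost s + 1 ≤ _
    omega

/-- a random element of `Fin m` -/
theorem imp_rnd_fin {m : ℕ} [NeZero m] {v : ℕ} {i j k : Exp} (hkm : k.val s = m)
    (hi : i.Fits x s) (hj : j.Fits x s) (hk : k.Fits x s) {R : Fin m → St → Prop}
    (hR : ∀ a : Fin m, R a (upd s v (i.val s) (j.val s) (a : ℕ))) :
    Imp x (Cmd.rnd v i j k) s (PMF.uniformOfFintype (Fin m)) R := by
  refine imp_rnd (fun a : Fin m => ((a : ℕ) : ℤ)) (fun a b hab => ?_) (fun z => ?_) hi hj hk hR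
  · have : ((a : ℕ) : ℤ) = ((b : ℕ) : ℤ) := hab
    exact Fin.ext (by exact_mod_cast this)
  · rw [hkm]
    constructor
    · rintro ⟨h1, h2⟩
      exact ⟨⟨z.toNat, by omega⟩, by simp only; omega⟩
    · rintro ⟨a, ha⟩
      have := a.isLt
      omega

/-- the value of a bit, as an integer -/
def bval (c : Bool) : ℤ := if c then 1 else 0

/-- a random bit -/
theorem imp_rnd_bool {v : ℕ} {i j k : Exp} (hk2 : k.val s = 2)
    (hi : i.Fits x s) (hj : j.Fits x s) (hk : k.Fits x s) {R : Bool → St → Prop}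
    (hR : ∀ a : Bool, R a (upd s v (i.val s) (j.val s) (bval a))) :
    Imp x (Cmd.rnd v i j k) s (PMF.uniformOfFintype Bool) R := by
  refine imp_rnd bval (fun a b hab => ?_) (fun z => ?_) hi hj hk hR
  · unfold bval at hab
    cases a <;> cases b <;> simp at hab ⊢
  · rw [hk2]
    constructor
    · rintro ⟨h1, h2⟩
      rcases (by omega : z = 0 ∨ z = 1) with h | h
      · exact ⟨false, by rw [h]; rfl⟩
      · exact ⟨true, by rw [h]; rfl⟩
    · rintro ⟨a, ha⟩
      unfold bval at ha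
      cases a <;> simp at ha <;> omega

end Random

end P328.Deep
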