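import Vale.Agent.P328.Deep.Rep
import Vale.Agent.P328.Tv

/-!
# P328 : the program of the chain
-/

namespace P328.Deep

open Finset Exp Cmd

variable {m n : ℕ} {x : ℕ} {s : St}

theorem one_same (i : Fin m) (j : Fin n) : one i j (i, j) = 1 := Pi.single_eq_same _ _

theorem one_other {i : Fin m} {j : Fin n} {p : Fin m × Fin n} (h : p ≠ (i, j)) : one i j p = 0 :=
  Pi.single_eq_of_ne h _

theorem IsT.put {Y : Tb m n} {v : ℕ} (h : IsT s v Y) (i : Fin m) (j : Fin n) {w z : ℤ}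
    (hw : w = Y (i, j) + z) : IsT (upd s v (i : ℕ) (j : ℕ) w) v (Y + z • one i j) := by
  intro a b
  by_cases hab : a = i ∧ b = j
  · rw [hab.1, hab.2, upd_same, hw, Pi.add_apply, Pi.smul_apply, one_same, smul_eq_mul, mul_one]
  · have h1 : ¬ (((a : ℕ) : ℤ) = ((i : ℕ) : ℤ) ∧ ((b : ℕ) : ℤ) = ((j : ℕ) : ℤ)) := by
      intro h'
      exact hab ⟨Fin.ext (by exact_mod_cast h'.1), Fin.ext (by exact_mod_cast h'.2)⟩
    have h2 : (a, b) ≠ (i, j) := fun h' => hab ⟨congrArg Prod.fst h', congrArg Prod.snd h'⟩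
    rw [upd_cell h1, h a b, Pi.add_apply, Pi.smul_apply, one_other h2, smul_zero, add_zero]

/-- the value of `xD` -/
def dval (X : Tb m n) (c : Bool) (i i' : Fin m) (j j' : Fin n) : ℤ :=
  if 1 ≤ bval c then (if 1 ≤ X (i, j') then (if 1 ≤ X (i', j) then 1 else 0) else 0) else 0

theorem quad_nonneg_iff {X : Tb m n} (h0 : ∀ p, 0 ≤ X p) {i i' : Fin m} {j j' : Fin n}
    (hi : i ≠ i') (hj : j ≠ j') :
    0 ≤ X + quad ((i, i'), (j, j')) ↔ 1 ≤ X (i, j') ∧ 1 ≤ X (i', j) := by
  have q1 : quad ((i, i'), (j, j')) (i, j') = -1 := by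
    simp only [quad, Pi.add_apply, Pi.sub_apply]
    rw [one_same, one_other (i := i) (j := j) (by simp [hj.symm]),
      one_other (i := i') (j := j') (by simp [hi]), one_other (i := i') (j := j) (by simp [hi])]
    norm_num
  have q2 : quad ((i, i'), (j, j')) (i', j) = -1 := by
    simp only [quad, Pi.add_apply, Pi.sub_apply]
    rw [one_same, one_other (i := i) (j := j) (by simp [hi.symm]),
      one_other (i := i') (j := j') (by simp [hj]), one_other (i := i) (j := j') (by simp [hj])]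
    norm_num
  constructor
  · intro h
    have h1 : (0 : ℤ) ≤ (X + quad ((i, i'), (j, j'))) (i, j') := h (i, j')
    have h2 : (0 : ℤ) ≤ (X + quad ((i, i'), (j, j'))) (i', j) := h (i', j)
    rw [Pi.add_apply, q1] at h1
    rw [Pi.add_apply, q2] at h2
    omega
  · rintro ⟨h1, h2⟩ p
    change (0 : ℤ) ≤ (X + quad ((i, i'), (j, j'))) p
    rw [Pi.add_apply]
    by_cases hp1 : p = (i, j')
    · rw [hp1, q1]
      omega
    · by_cases hp2 : p = (i', j)
      · rw [hp2, q2]
        omega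
      · have h3 := h0 p
        have h4 : 0 ≤ one i j p := by
          unfold one
          by_cases hp : p = (i, j)
          · rw [hp, Pi.single_eq_same]
            norm_num
          · rw [Pi.single_eq_of_ne hp]
        have h5 : 0 ≤ one i' j' p := by
          unfold one
          by_cases hp : p = (i', j')
          · rw [hp, Pi.single_eq_same]
            norm_num
          · rw [Pi.single_eq_of_ne hp]
        have h6 : quad ((i, i'), (j, j')) p = one i j p + one i' j' p := by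
          simp only [quad, Pi.add_apply, Pi.sub_apply]
          rw [one_other hp1, one_other hp2]
          ring
        rw [h6]
        omega

theorem quad_rows (i : Fin m) (j j' : Fin n) : quad ((i, i), (j, j')) = 0 := by
  unfold quad
  abel

theorem quad_cols (i i' : Fin m) (j : Fin n) : quad ((i, i'), (j, j)) = 0 := by
  unfold quad
  abel

open Classical in
theorem step_val {X : Tb m n} (h0 : ∀ p, 0 ≤ X p) (c : Bool) (i i' : Fin m) (j j' : Fin n) :
    X + dval X c i i' j j' • one i j + dval X c i i' j j' • one i' j' +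
      (-dval X c i i' j j') • one i j' + (-dval X c i i' j j') • one i' j =
    if c = true ∧ 0 ≤ X + quad ((i, i'), (j, j')) then X + quad ((i, i'), (j, j')) else X := by
  have e1 : X + dval X c i i' j j' • one i j + dval X c i i' j j' • one i' j' +
      (-dval X c i i' j j') • one i j' + (-dval X c i i' j j') • one i' j =
      X + dval X c i i' j j' • quad ((i, i'), (j, j')) := by
    unfold quad
    simp only [neg_smul, smul_add, smul_sub]
    abel
  rw [e1]
  by_cases hi : i = i'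
  · rw [hi, quad_rows, smul_zero, add_zero, ite_self]
  · by_cases hj : j = j'
    · rw [hj, quad_cols, smul_zero, add_zero, ite_self]
    · rw [quad_nonneg_iff h0 hi hj]
      unfold dval
      cases c
      · rw [if_neg (by simp [bval]), if_neg (by simp), zero_smul, add_zero]
      · rw [if_pos (by simp [bval])]
        by_cases h1 : 1 ≤ X (i, j')
        · by_cases h2 : 1 ≤ X (i', j)
          · rw [if_pos h1, if_pos h2, if_pos ⟨rfl, h1, h2⟩, one_smul]
          · rw [if_pos h1, if_neg h2, if_neg (fun h => h2 h.2.2), zero_smul, add_zero]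
        · rw [if_neg h1, if_neg (fun h => h1 h.2.1), zero_smul, add_zero]

open Classical in
theorem law_step_eq [NeZero m] [NeZero n] (X : Tb m n) :
    law (step X) = (PMF.uniformOfFintype Bool).bind fun c =>
      (PMF.uniformOfFintype (Fin m)).bind fun i => (PMF.uniformOfFintype (Fin m)).bind fun i' =>
      (PMF.uniformOfFintype (Fin n)).bind fun j => (PMF.uniformOfFintype (Fin n)).bind fun j' =>
      PMF.pure (if c = true ∧ 0 ≤ X + quad ((i, i'), (j, j')) then
        X + quad ((i, i'), (j, j')) else X) := by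
  unfold step
  rw [law_andThen, law_coin]
  refine bind_congr' fun c _ => ?_
  rw [law_andThen, law_draw]
  refine bind_congr' fun i _ => ?_
  rw [law_andThen, law_draw]
  refine bind_congr' fun i' _ => ?_
  rw [law_andThen, law_draw]
  refine bind_congr' fun j _ => ?_
  rw [law_andThen, law_draw]
  refine bind_congr' fun j' _ => ?_
  rw [law_charge, law_ret]

theorem IsT.upd_ne {X : Tb m n} {v w : ℕ} (h : IsT s v X) (hvw : v ≠ w) (i j z : ℤ) :
    IsT (upd s w i j z) v X := h.agree (P328.Deep.upd_ne hvw i j z)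

theorem tri_moves {X : Tb m n} {c : Bool} {i i' : Fin m} {j j' : Fin n} (hX : IsT s uX X)
    (hc : s xC 0 0 = bval c) (hi : s xI 0 0 = (i : ℕ)) (hi' : s xI' 0 0 = (i' : ℕ))
    (hj : s xJ 0 0 = (j : ℕ)) (hj' : s xJ' 0 0 = (j' : ℕ)) :
    Tri x (seq (putS xD (ifOne (sc xC) (ifOne (a2 uX xI xJ') (ifOne (a2 uX xI' xJ) (num 1))))) <|
      seq (put2 uX xI xJ (add (a2 uX xI xJ) (sc xD))) <|
      seq (put2 uX xI' xJ' (add (a2 uX xI' xJ') (sc xD))) <|
      seq (put2 uX xI xJ' (sub (a2 uX xI xJ') (sc xD))) <|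
      put2 uX xI' xJ (sub (a2 uX xI' xJ) (sc xD))) s
      (fun s' => IsT s' uX (X + dval X c i i' j j' • one i j + dval X c i i' j j' • one i' j' +
      (-dval X c i i' j j') • one i j' + (-dval X c i i' j j') • one i' j)) := by
  set D := dval X c i i' j j' with hD
  have bump : ∀ {s' : St} {Y : Tb m n} {a : Fin m × Fin n} {p q : ℕ} {e : Exp} {z : ℤ},
      s' p 0 0 = (a.1 : ℕ) → s' q 0 0 = (a.2 : ℕ) → IsT s' uX Y → e.Fits x s' →
      e.val s' = Y a + z → Tri x (put2 uX p q e) s'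
        (fun s'' => IsT s'' uX (Y + z • one a.1 a.2) ∧ ∀ y ≠ uX, s'' y = s' y) := by
    intro s' Y a p q e z h1 h2 h3 h4 h5
    refine tri_put (Exp.fits rfl) (Exp.fits rfl) h4 ?_
    have e1 : (sc p).val s' = (a.1 : ℕ) := h1
    have e2 : (sc q).val s' = (a.2 : ℕ) := h2
    rw [e1, e2]
    exact ⟨h3.put a.1 a.2 h5, fun y hy => upd_ne hy _ _ _⟩
  have hDv : (ifOne (sc xC) (ifOne (a2 uX xI xJ') (ifOne (a2 uX xI' xJ) (num 1)))).val s = D := by
    change (if (1 : ℤ) ≤ s xC 0 0 then (if (1 : ℤ) ≤ s uX (s xI 0 0) (s xJ' 0 0) then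
      (if (1 : ℤ) ≤ s uX (s xI' 0 0) (s xJ 0 0) then (1 : ℤ) else 0) else 0) else 0) = D
    rw [hc, hi, hi', hj, hj', hX i j', hX i' j]
    rfl
  refine Tri.seq (Q := fun s' => s' = upd s xD 0 0 D)
    (tri_put trivial trivial (Exp.fits rfl) ?_) ?_
  · rw [hDv]
    rfl
  · intro s1 hs1
    have a1C : ∀ y ≠ xD, s1 y = s y := fun y hy => by rw [hs1]; exact upd_ne hy _ _ _
    have hD1 : s1 xD 0 0 = D := by rw [hs1]; exact upd_same _ _ _ _ _
    have hX1 : IsT s1 uX X := hX.agree (a1C uX (by decide))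
    have hi1 : s1 xI 0 0 = (i : ℕ) := by rw [a1C xI (by decide)]; exact hi
    have hi'1 : s1 xI' 0 0 = (i' : ℕ) := by rw [a1C xI' (by decide)]; exact hi'
    have hj1 : s1 xJ 0 0 = (j : ℕ) := by rw [a1C xJ (by decide)]; exact hj
    have hj'1 : s1 xJ' 0 0 = (j' : ℕ) := by rw [a1C xJ' (by decide)]; exact hj'
    have vadd : ∀ {s' : St} {Y : Tb m n} {a : Fin m × Fin n} {p q : ℕ}, s' p 0 0 = (a.1 : ℕ) →
        s' q 0 0 = (a.2 : ℕ) → s' xD 0 0 = D → IsT s' uX Y →
        (add (a2 uX p q) (sc xD)).val s' = Y a + D := by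
      intro s' Y a p q h1 h2 h3 h4
      change s' uX (s' p 0 0) (s' q 0 0) + s' xD 0 0 = _
      rw [h1, h2, h3, h4 a.1 a.2]
    have vsub : ∀ {s' : St} {Y : Tb m n} {a : Fin m × Fin n} {p q : ℕ}, s' p 0 0 = (a.1 : ℕ) →
        s' q 0 0 = (a.2 : ℕ) → s' xD 0 0 = D → IsT s' uX Y →
        (sub (a2 uX p q) (sc xD)).val s' = Y a + -D := by
      intro s' Y a p q h1 h2 h3 h4
      change s' uX (s' p 0 0) (s' q 0 0) - s' xD 0 0 = _
      rw [h1, h2, h3, h4 a.1 a.2]
      ring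
    refine Tri.seq (bump (a := (i, j)) hi1 hj1 hX1 (Exp.fits rfl)
      (vadd (a := (i, j)) hi1 hj1 hD1 hX1)) ?_
    intro s2 hs2
    have hD2 : s2 xD 0 0 = D := by rw [hs2.2 xD (by decide)]; exact hD1
    have hi2 : s2 xI 0 0 = (i : ℕ) := by rw [hs2.2 xI (by decide)]; exact hi1
    have hi'2 : s2 xI' 0 0 = (i' : ℕ) := by rw [hs2.2 xI' (by decide)]; exact hi'1
    have hj2 : s2 xJ 0 0 = (j : ℕ) := by rw [hs2.2 xJ (by decide)]; exact hj1
    have hj'2 : s2 xJ' 0 0 = (j' : ℕ) := by rw [hs2.2 xJ' (by decide)]; exact hj'1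
    refine Tri.seq (bump (a := (i', j')) hi'2 hj'2 hs2.1 (Exp.fits rfl)
      (vadd (a := (i', j')) hi'2 hj'2 hD2 hs2.1)) ?_
    intro s3 hs3
    have hD3 : s3 xD 0 0 = D := by rw [hs3.2 xD (by decide)]; exact hD2
    have hi3 : s3 xI 0 0 = (i : ℕ) := by rw [hs3.2 xI (by decide)]; exact hi2
    have hi'3 : s3 xI' 0 0 = (i' : ℕ) := by rw [hs3.2 xI' (by decide)]; exact hi'2
    have hj3 : s3 xJ 0 0 = (j : ℕ) := by rw [hs3.2 xJ (by decide)]; exact hj2
    have hj'3 : s3 xJ' 0 0 = (j' : ℕ) := by rw [hs3.2 xJ' (by decide)]; exact hj'2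
    refine Tri.seq (bump (a := (i, j')) hi3 hj'3 hs3.1 (Exp.fits rfl)
      (vsub (a := (i, j')) hi3 hj'3 hD3 hs3.1)) ?_
    intro s4 hs4
    have hD4 : s4 xD 0 0 = D := by rw [hs4.2 xD (by decide)]; exact hD3
    have hi'4 : s4 xI' 0 0 = (i' : ℕ) := by rw [hs4.2 xI' (by decide)]; exact hi'3
    have hj4 : s4 xJ 0 0 = (j : ℕ) := by rw [hs4.2 xJ (by decide)]; exact hj3
    exact (bump (a := (i', j)) hi'4 hj4 hs4.1 (Exp.fits rfl)
      (vsub (a := (i', j)) hi'4 hj4 hD4 hs4.1)).mono fun s' h => h.1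

theorem imp_step [NeZero m] [NeZero n] {X : Tb m n} (hd : Dim m n s) (hX : IsT s uX X)
    (h0 : ∀ p, 0 ≤ X p) :
    Imp x stepC s (law (step X)) (fun Y s' => IsT s' uX Y ∧ ∀ p, 0 ≤ Y p) := by
  classical
  rw [law_step_eq]
  unfold stepC
  refine imp_seq (R := fun c s' => s' = upd s xC 0 0 (bval c))
    (imp_rnd_bool rfl (Exp.fits rfl) (Exp.fits rfl) (Exp.fits rfl) fun c => rfl) fun c _ s1 hs1 => ?_
  have f1 : ∀ y ≠ xC, s1 y = s y := fun y hy => by rw [hs1]; exact upd_ne hy _ _ _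
  have c1 : s1 xC 0 0 = bval c := by rw [hs1]; exact upd_same _ _ _ _ _
  refine imp_seq (R := fun (i : Fin m) s' => s' = upd s1 xI 0 0 (i : ℕ))
    (imp_rnd_fin ?_ (Exp.fits rfl) (Exp.fits rfl) (Exp.fits rfl) fun i => rfl) fun i _ s2 hs2 => ?_
  · change s1 gM 0 0 = m
    rw [f1 gM (by decide)]
    exact hd.1
  have f2 : ∀ y ≠ xI, s2 y = s1 y := fun y hy => by rw [hs2]; exact upd_ne hy _ _ _
  have c2 : s2 xI 0 0 = (i : ℕ) := by rw [hs2]; exact upd_same _ _ _ _ _
  refine imp_seq (R := fun (i : Fin m) s' => s' = upd s2 xI' 0 0 (i : ℕ))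
    (imp_rnd_fin ?_ (Exp.fits rfl) (Exp.fits rfl) (Exp.fits rfl) fun i => rfl) fun i' _ s3 hs3 => ?_
  · change s2 gM 0 0 = m
    rw [f2 gM (by decide), f1 gM (by decide)]
    exact hd.1
  have f3 : ∀ y ≠ xI', s3 y = s2 y := fun y hy => by rw [hs3]; exact upd_ne hy _ _ _
  have c3 : s3 xI' 0 0 = (i' : ℕ) := by rw [hs3]; exact upd_same _ _ _ _ _
  refine imp_seq (R := fun (i : Fin n) s' => s' = upd s3 xJ 0 0 (i : ℕ))
    (imp_rnd_fin ?_ (Exp.fits rfl) (Exp.fits rfl) (Exp.fits rfl) fun i => rfl) fun j _ s4 hs4 => ?_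
  · change s3 gN 0 0 = n
    rw [f3 gN (by decide), f2 gN (by decide), f1 gN (by decide)]
    exact hd.2
  have f4 : ∀ y ≠ xJ, s4 y = s3 y := fun y hy => by rw [hs4]; exact upd_ne hy _ _ _
  have c4 : s4 xJ 0 0 = (j : ℕ) := by rw [hs4]; exact upd_same _ _ _ _ _
  refine imp_seq (R := fun (i : Fin n) s' => s' = upd s4 xJ' 0 0 (i : ℕ))
    (imp_rnd_fin ?_ (Exp.fits rfl) (Exp.fits rfl) (Exp.fits rfl) fun i => rfl) fun j' _ s5 hs5 => ?_
  · change s4 gN 0 0 = n
    rw [f4 gN (by decide), f3 gN (by decide), f2 gN (by decide), f1 gN (by decide)]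
    exact hd.2
  have f5 : ∀ y ≠ xJ', s5 y = s4 y := fun y hy => by rw [hs5]; exact upd_ne hy _ _ _
  have c5 : s5 xJ' 0 0 = (j' : ℕ) := by rw [hs5]; exact upd_same _ _ _ _ _
  refine (tri_moves (X := X) (c := c) (i := i) (i' := i') (j := j) (j' := j')
    (hX.agree ?_) ?_ ?_ ?_ ?_ c5).imp fun s' h => ?_
  · rw [f5 uX (by decide), f4 uX (by decide), f3 uX (by decide), f2 uX (by decide),
      f1 uX (by decide)]
  · rw [f5 xC (by decide), f4 xC (by decide), f3 xC (by decide), f2 xC (by decide)]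
    exact c1
  · rw [f5 xI (by decide), f4 xI (by decide), f3 xI (by decide)]
    exact c2
  · rw [f5 xI' (by decide), f4 xI' (by decide)]
    exact c3
  · rw [f5 xJ (by decide)]
    exact c4
  · rw [step_val h0] at h
    refine ⟨h, fun p => ?_⟩
    split_ifs with h1
    · exact h1.2 p
    · exact h0 p

theorem law_mix_eq [NeZero m] [NeZero n] (T : ℕ) (X : Tb m n) :
    law (mix T X) = loop (fun _ Y => law (step Y)) T X := by
  induction T generalizing X with
  | zero =>
    rw [mix, law_ret]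
    rfl
  | succ T ih =>
    rw [mix, law_andThen, loop_succ']
    exact bind_congr' fun Y _ => ih Y

theorem imp_mix [NeZero m] [NeZero n] {T : ℕ} {X : Tb m n} (hd : Dim m n s)
    (hT : s sT 0 0 = T) (hx : T ≤ x) (hX : IsT s uX X) (h0 : ∀ p, 0 ≤ X p) :
    Imp x mixC s (law (mix T X)) (fun Y s' => IsT s' uX Y ∧ ∀ p, 0 ≤ Y p) := by
  rw [law_mix_eq]
  unfold mixC
  refine (imp_rep (R := fun _ Y s' => (IsT s' uX Y ∧ ∀ p, 0 ≤ Y p) ∧ Dim m n s') ?_ hx
    (Exp.fits rfl) ⟨⟨hX, h0⟩, hd⟩ fun t _ Y _ s' h => ?_).mono fun Y _ s' h => h.1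
  · change (s sT 0 0).toNat = T
    rw [hT]
    exact Int.toNat_natCast T
  · exact (imp_step h.2 h.1.1 h.1.2).frame.mono fun Z _ s'' h' =>
      ⟨h'.1, h.2.agree (h'.2 gM (by decide)) (h'.2 gN (by decide))⟩

end P328.Deep
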