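import Vale.Agent.P328.Deep.Macros
import Vale.Agent.P328.Parity
import Vale.Agent.P328.Defs2

/-!
# P328 : the program
-/

namespace P328.Deep

open Exp Cmd

/-! ## The arrays -/

/-- number of rows, number of columns -/
abbrev gM : ℕ := 0
abbrev gN : ℕ := 1
/-- counter: precision, failure parameter, current margins, result, parameters -/
abbrev cE : ℕ := 2
abbrev cD : ℕ := 3
abbrev cR : ℕ := 4
abbrev cC : ℕ := 5
abbrev cNum : ℕ := 6
abbrev cDen : ℕ := 7
abbrev cF : ℕ := 8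
abbrev cNs : ℕ := 9
/-- precision asked to the sampler -/
abbrev cE2 : ℕ := 10
abbrev cI : ℕ := 11
abbrev cJ : ℕ := 12
abbrev cH : ℕ := 13
abbrev cZ : ℕ := 14
abbrev cT : ℕ := 15
abbrev cL : ℕ := 16
abbrev cB : ℕ := 17
/-- sampler: current margins, length, thresholds, output table, power of two, done flag, ... -/
abbrev sR : ℕ := 20
abbrev sC : ℕ := 21
abbrev sL : ℕ := 22
abbrev sK : ℕ := 23
abbrev sK2 : ℕ := 24
abbrev sT : ℕ := 25
abbrev sO : ℕ := 26
abbrev sW : ℕ := 27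
abbrev sD : ℕ := 28
abbrev sS : ℕ := 29
abbrev sA : ℕ := 30
abbrev sB : ℕ := 31
abbrev sGr : ℕ := 32
abbrev sGc : ℕ := 33
abbrev sF : ℕ := 34
abbrev sG : ℕ := 35
abbrev sP : ℕ := 36
abbrev sU : ℕ := 37
abbrev sV : ℕ := 38
abbrev sX : ℕ := 39
abbrev sY : ℕ := 40
abbrev sZ : ℕ := 41
abbrev sQ : ℕ := 42
abbrev sPr : ℕ := 43
abbrev sPa : ℕ := 44
abbrev sPb : ℕ := 45
/-- unary sampler: margins (destroyed), table, cell -/
abbrev uR : ℕ := 50
abbrev uC : ℕ := 51
abbrev uX : ℕ := 52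
abbrev uA : ℕ := 53
abbrev uB : ℕ := 54
abbrev uN : ℕ := 55
/-- chain -/
abbrev xC : ℕ := 60
abbrev xI : ℕ := 61
abbrev xI' : ℕ := 62
abbrev xJ : ℕ := 63
abbrev xJ' : ℕ := 64
abbrev xD : ℕ := 65
/-- loops -/
abbrev k1 : ℕ := 70
abbrev k2 : ℕ := 71
abbrev kA : ℕ := 72

/-- `u` if `1 ≤ a`, and `0` otherwise -/
abbrev ifOne (a u : Exp) : Exp := sel (num 1) a u (num 0)

/-- `u` if `a ≠ b`, `v` if `a = b` -/
abbrev ifNe (a b u v : Exp) : Exp := sel a b (sel b a v u) u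

/-- power -/
def powE (e : Exp) : ℕ → Exp
  | 0 => num 1
  | k + 1 => mul (powE e k) e

/-! ## The chain -/

/-- one step of the chain -/
def stepC : Cmd :=
  seq (rnd xC (num 0) (num 0) (num 2)) <|
  seq (rnd xI (num 0) (num 0) (sc gM)) <|
  seq (rnd xI' (num 0) (num 0) (sc gM)) <|
  seq (rnd xJ (num 0) (num 0) (sc gN)) <|
  seq (rnd xJ' (num 0) (num 0) (sc gN)) <|
  seq (putS xD (ifOne (sc xC) (ifOne (a2 uX xI xJ') (ifOne (a2 uX xI' xJ) (num 1))))) <|
  seq (put2 uX xI xJ (add (a2 uX xI xJ) (sc xD))) <|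
  seq (put2 uX xI' xJ' (add (a2 uX xI' xJ') (sc xD))) <|
  seq (put2 uX xI xJ' (sub (a2 uX xI xJ') (sc xD))) <|
  put2 uX xI' xJ (sub (a2 uX xI' xJ) (sc xD))

/-- the chain -/
def mixC : Cmd := rep (sc sT) stepC

/-- the last positive entry -/
def lastC (v g w : ℕ) : Cmd := forL k1 (sc g) (putS v (sel (num 1) (a1 w k1) (sc k1) (sc v)))

/-- one round of the sampler for small totals -/
def roundC : Cmd :=
  seq (lastC uA gM uR) <|
  seq (lastC uB gN uC) <|
  seq (put1 uR uA (sub (a1 uR uA) (num 1))) <|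
  seq (put1 uC uB (sub (a1 uC uB) (num 1))) <|
  seq (put2 uX uA uB (add (a2 uX uA uB) (num 1))) mixC

/-- the sampler for small totals -/
def unaryC : Cmd :=
  seq (tabu uX k1 k2 (sc gM) (sc gN) (num 0)) <|
  seq (total uN k1 (sc gM) (a1 uR k1)) <|
  rep (sc uN) roundC

/-! ## One level of the sampler -/

/-- copy the margins of the sampler -/
def copyC : Cmd := seq (tab1 uR k1 (sc gM) (a1 sR k1)) (tab1 uC k1 (sc gN) (a1 sC k1))

/-- one step of `cap` -/
def capStepC : Cmd :=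
  ite (add (sc sK2) (num 1)) (a1 uR k1)
    (ite (add (sc sK2) (num 1)) (a1 uC k2)
      (seq (putS sX (sub (sel (a1 uR k1) (a1 uC k2) (a1 uR k1) (a1 uC k2)) (sc sK2))) <|
        seq (put1 uR k1 (sub (a1 uR k1) (sc sX))) <|
        put1 uC k2 (sub (a1 uC k2) (sc sX))) skip) skip

/-- `cap` -/
def capC : Cmd := forL k1 (sc gM) (forL k2 (sc gN) capStepC)

/-- first index with a flag -/
def firstC (v g w : ℕ) : Cmd :=
  seq (putS v (num 0)) <|
  forL k1 (sc g) <| putS v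
    (sel (num 1) (get w (sub (sub (sc g) (num 1)) (sc k1)) (num 0))
      (sub (sub (sc g) (num 1)) (sc k1)) (sc v))

/-- the small part of the table -/
def smallC : Cmd :=
  seq (tabu sA k1 k2 (sc gM) (sc gN) (sel (add (a1 sR k1) (num 1)) (sc sK) (a2 uX k1 k2)
    (sel (add (a1 sC k2) (num 1)) (sc sK) (a2 uX k1 k2) (num 0)))) <|
  seq (tab1 sGr k1 (sc gM) (sel (sc sK) (a1 sR k1) (num 1) (num 0))) <|
  seq (tab1 sGc k1 (sc gN) (sel (sc sK) (a1 sC k1) (num 1) (num 0))) <|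
  seq (firstC sF gM sGr) <|
  seq (firstC sG gN sGc) <|
  seq (sums sU k1 k2 kA (sc gM) (sc gN) (a2 sA k1 k2)) <|
  seq (tab1 sR k1 (sc gM) (sub (a1 sR k1) (a1 sU k1))) <|
  seq (sums sV k1 k2 kA (sc gN) (sc gM) (a2 sA k2 k1)) <|
  tab1 sC k1 (sc gN) (sub (a1 sC k1) (a1 sV k1))

/-- random bits -/
def bitsC : Cmd := forL k1 (sc gM) (forL k2 (sc gN) (rnd sB (sc k1) (sc k2) (num 2)))

/-- the table of parities -/
def compC : Cmd :=
  seq (tabu sP k1 k2 (sc gM) (sc gN) (ifOne (a1 sGr k1) (ifOne (a1 sGc k2)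
    (ifNe (sc k1) (sc sF) (ifNe (sc k2) (sc sG) (a2 sB k1 k2) (num 0)) (num 0))))) <|
  seq (sums sU k1 k2 kA (sc gM) (sc gN) (a2 sP k1 k2)) <|
  seq (sums sV k1 k2 kA (sc gN) (sc gM) (a2 sP k2 k1)) <|
  seq (total sX k1 (sc gN) (ifOne (a1 sGc k1)
    (ifNe (sc k1) (sc sG) (mod (sub (a1 sC k1) (a1 sV k1)) (num 2)) (num 0)))) <|
  tabu sP k1 k2 (sc gM) (sc gN) (ifOne (a1 sGr k1) (ifOne (a1 sGc k2)
    (ifNe (sc k1) (sc sF)
      (ifNe (sc k2) (sc sG) (a2 sP k1 k2) (mod (sub (a1 sR k1) (a1 sU k1)) (num 2)))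
      (ifNe (sc k2) (sc sG) (mod (sub (a1 sC k2) (a1 sV k2)) (num 2))
        (mod (sub (a1 sR k1) (sc sX)) (num 2))))))

/-- half of the margins -/
def halfC : Cmd :=
  seq (sums sU k1 k2 kA (sc gM) (sc gN) (a2 sP k1 k2)) <|
  seq (tab1 sR k1 (sc gM) (div (sub (a1 sR k1) (a1 sU k1)) (num 2))) <|
  seq (sums sV k1 k2 kA (sc gN) (sc gM) (a2 sP k2 k1)) <|
  tab1 sC k1 (sc gN) (div (sub (a1 sC k1) (a1 sV k1)) (num 2))

/-- `sX` becomes nonpositive if and only if the margins are admissible -/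
def okC : Cmd :=
  seq (total sX k1 (sc gM) (sel (num 0) (a1 sR k1) (num 0) (num 1))) <|
  seq (total sY k1 (sc gN) (sel (num 0) (a1 sC k1) (num 0) (num 1))) <|
  seq (total sZ k1 (sc gM) (a1 sR k1)) <|
  seq (total sQ k1 (sc gN) (a1 sC k1)) <|
  putS sX (add (add (sc sX) (sc sY)) (ifNe (sc sZ) (sc sQ) (num 1) (num 0)))

/-- add the contribution of the level to the output -/
def addC : Cmd :=
  seq (tabu sO k1 k2 (sc gM) (sc gN)
    (add (a2 sO k1 k2) (mul (sc sW) (add (a2 sA k1 k2) (a2 sP k1 k2))))) <|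
  putS sW (add (sc sW) (sc sW))

/-- one level -/
def levelC : Cmd :=
  seq copyC <| seq capC <| seq unaryC <| seq smallC <| seq bitsC <| seq compC <| seq halfC <|
  seq okC <| ite (sc sX) (num 0) addC (putS sD (num 1))

/-- last level -/
def lastLevelC : Cmd :=
  seq copyC <| seq unaryC <|
  seq (tabu sO k1 k2 (sc gM) (sc gN) (add (a2 sO k1 k2) (mul (sc sW) (a2 uX k1 k2)))) <|
  putS sD (num 1)

/-- body of the loop of the sampler -/
def bodyC : Cmd :=
  ite (sc sD) (num 0)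
    (seq (total sS k1 (sc gM) (a1 sR k1)) <|
      ite (sc sS) (mul (add (sc gM) (sc gN)) (sc sK2)) lastLevelC levelC) skip

/-- the loop of the sampler -/
def sampC : Cmd := seq (rep (sc sL) bodyC) (ite (sc sD) (num 0) lastLevelC skip)

/-! ## The end of the sampler -/

/-- north-west corner table -/
def cornerC : Cmd :=
  seq (put sPa (num 0) (num 0) (num 0)) <|
  seq (forL k1 (sc gM) (put sPa (add (sc k1) (num 1)) (num 0) (add (a1 sPa k1) (a1 cR k1)))) <|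
  seq (put sPb (num 0) (num 0) (num 0)) <|
  seq (forL k1 (sc gN) (put sPb (add (sc k1) (num 1)) (num 0) (add (a1 sPb k1) (a1 cC k1)))) <|
  seq (tabu sO k1 k2 (sc gM) (sc gN)
    (sub (sel (get sPa (add (sc k1) (num 1)) (num 0)) (get sPb (add (sc k2) (num 1)) (num 0))
        (get sPa (add (sc k1) (num 1)) (num 0)) (get sPb (add (sc k2) (num 1)) (num 0)))
      (sel (a1 sPa k1) (a1 sPb k2) (a1 sPb k2) (a1 sPa k1)))) <|
  tabu sO k1 k2 (sc gM) (sc gN) (sel (num 0) (a2 sO k1 k2) (a2 sO k1 k2) (num 0))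

/-- replace the output by the corner table if it has wrong margins -/
def finishC : Cmd :=
  seq (sums sU k1 k2 kA (sc gM) (sc gN) (sel (num 0) (a2 sO k1 k2) (num 0) (num 1))) <|
  seq (total sX k1 (sc gM) (a1 sU k1)) <|
  seq (sums sU k1 k2 kA (sc gM) (sc gN) (a2 sO k1 k2)) <|
  seq (total sY k1 (sc gM) (ifNe (a1 sU k1) (a1 cR k1) (num 1) (num 0))) <|
  seq (sums sV k1 k2 kA (sc gN) (sc gM) (a2 sO k2 k1)) <|
  seq (total sZ k1 (sc gN) (ifNe (a1 sV k1) (a1 cC k1) (num 1) (num 0))) <|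
  ite (add (add (sc sX) (sc sY)) (sc sZ)) (num 0) skip cornerC

/-- the parameters -/
def paramsC : Cmd :=
  seq (total sS k1 (sc gM) (a1 cR k1)) <|
  seq (putS sL (add (lg (sc sS)) (num 1))) <|
  seq (putS sPr (mul (mul (add (sc gM) (sc gN)) (sc sL)) (sc cE2))) <|
  seq (putS sK (mul (num (2 ^ 20)) (powE (sc sPr) 5))) <|
  seq (putS sK2 (mul (num (2 ^ 80)) (powE (sc sPr) 16))) <|
  seq (putS sX (mul (mul (mul (num 50) (add (sc gM) (sc gN)))
    (add (mul (add (sc gM) (sc gN)) (sc sK2)) (num 1))) (mul (mul (num 8) (sc sL)) (sc cE2)))) <|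
  putS sT (powE (sc sX) 100)

/-- the sampler: input in `gM, gN, cR, cC, cE2`, output in `sO` -/
def samplerC : Cmd :=
  seq paramsC <|
  seq (tab1 sR k1 (sc gM) (a1 cR k1)) <|
  seq (tab1 sC k1 (sc gN) (a1 cC k1)) <|
  seq (tabu sO k1 k2 (sc gM) (sc gN) (num 0)) <|
  seq (putS sW (num 1)) <|
  seq (putS sD (num 0)) <|
  seq sampC finishC

/-! ## The counter -/

/-- index of the first largest entry -/
def amaxC (v g w : ℕ) : Cmd :=
  seq (putS v (num 0)) <|
  forL k1 (sc g) (putS v (sel (add (a1 w v) (num 1)) (a1 w k1) (sc k1) (sc v)))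

/-- count the samples with at least `cH` units in the cell `(cI, cJ)` -/
def countC : Cmd :=
  seq (putS cZ (num 0)) <|
  rep (sc cNs) (seq samplerC (putS cZ (sel (sc cH) (a2 sO cI cJ) (add (sc cZ) (num 1)) (sc cZ))))

/-- one factor -/
def ratioC : Cmd :=
  seq (total cT k1 (sc gM) (a1 cR k1)) <|
  ite (sc cT) (num 0) skip <|
  seq (amaxC cI gM cR) <|
  seq (amaxC cJ gN cC) <|
  seq (putS cB (div (sel (a1 cR cI) (a1 cC cJ) (a1 cR cI) (a1 cC cJ))
    (mul (num 48) (add (sc gM) (sc gN))))) <|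
  seq (putS cH (sel (num 1) (sc cB) (sc cB) (num 1))) <|
  seq countC <|
  seq (putS cNum (mul (sc cNum) (sc cNs))) <|
  seq (putS cDen (mul (sc cDen) (sc cZ))) <|
  seq (put1 cR cI (sub (a1 cR cI) (sc cH))) <|
  put1 cC cJ (sub (a1 cC cJ) (sc cH))

/-- product of the estimated ratios -/
def ratiosC : Cmd := rep (sc cF) ratioC

/-- the approximate counter: input in `gM, gN, cE, cD, cR, cC`, output `cNum / cDen` -/
def counterC : Cmd :=
  seq (total cT k1 (sc gM) (a1 cR k1)) <|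
  seq (putS cL (add (lg (sc cT)) (num 1))) <|
  seq (putS cE2 (mul (mul (mul (num 1600) (powE (add (sc gM) (sc gN)) 4)) (sc cL)) (sc cE))) <|
  seq (putS cNs (mul (mul (num 4) (powE (sc cE2) 2))
    (add (sc cD) (mul (mul (num 200) (powE (add (sc gM) (sc gN)) 2)) (sc cL))))) <|
  seq (putS cF (mul (mul (num 100) (powE (add (sc gM) (sc gN)) 2)) (sc cL))) <|
  seq (putS cNum (num 1)) <|
  seq (putS cDen (num 1)) ratiosC

end P328.Deep
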