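import Vale.Agent.P328.Deep.Prog

/-!
# P328 : representation of tables and margins in the memory
-/

namespace P328.Deep

/-- the dimensions are stored in `gM`, `gN` -/
def Dim (m n : ℕ) (s : St) : Prop := s gM 0 0 = m ∧ s gN 0 0 = n

/-- the array `v` contains the vector `f` -/
def IsR {k : ℕ} (s : St) (v : ℕ) (f : Fin k → ℤ) : Prop := ∀ i : Fin k, s v (i : ℕ) 0 = f i

/-- the array `v` contains the table `X` -/
def IsT {m n : ℕ} (s : St) (v : ℕ) (X : Tb m n) : Prop :=
  ∀ (i : Fin m) (j : Fin n), s v (i : ℕ) (j : ℕ) = X (i, j)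

theorem Dim.agree {m n : ℕ} {s s' : St} (h : Dim m n s) (hM : s' gM = s gM) (hN : s' gN = s gN) :
    Dim m n s' := ⟨by rw [hM]; exact h.1, by rw [hN]; exact h.2⟩

theorem IsR.agree {k : ℕ} {s s' : St} {v : ℕ} {f : Fin k → ℤ} (h : IsR s v f)
    (hv : s' v = s v) : IsR s' v f := fun i => by rw [hv]; exact h i

theorem IsT.agree {m n : ℕ} {s s' : St} {v : ℕ} {X : Tb m n} (h : IsT s v X)
    (hv : s' v = s v) : IsT s' v X := fun i j => by rw [hv]; exact h i j

/-- number of digits -/
theorem digits_le (z : ℤ) : digits z ≤ z.natAbs := by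
  unfold digits
  exact Nat.size_le.mpr Nat.lt_two_pow_self

theorem digits_le_of_lt {z : ℤ} {k : ℕ} (h0 : 0 ≤ z) (h : z < 2 ^ k) : digits z ≤ k := by
  unfold digits
  refine Nat.size_le.mpr ?_
  have h1 : (z.natAbs : ℤ) = z := Int.natAbs_of_nonneg h0
  have h2 : ((z.natAbs : ℕ) : ℤ) < ((2 ^ k : ℕ) : ℤ) := by
    rw [h1]
    push_cast
    exact h
  exact_mod_cast h2

theorem powE_val (s : St) (e : Exp) (k : ℕ) : (powE e k).val s = e.val s ^ k := by
  induction k with
  | zero => rw [powE, Exp.val, pow_zero]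
  | succ k ih => rw [powE, Exp.val, ih, pow_succ]

/-- commutation of the first step of a loop -/
theorem loop_succ' {α : Type} (P : ℕ → α → PMF α) (k : ℕ) (a : α) :
    loop P (k + 1) a = (P 0 a).bind (loop (fun t => P (t + 1)) k) := by
  induction k with
  | zero =>
    rw [loop, loop, PMF.pure_bind]
    conv_lhs => rw [← PMF.bind_pure (P 0 a)]
    rfl
  | succ k ih =>
    rw [loop, ih, PMF.bind_bind]
    rfl

end P328.Deep
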