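import Vale.Agent.P328.Deep.CompD

/-!
# P328 : module D, the small part of the table
-/

namespace P328.Deep

open Finset Exp Cmd

variable {m n : ℕ} {x : ℕ} {s : St}

theorem tri_first {k : ℕ} [NeZero k] {v g w : ℕ} (hvk : v ≠ k1) (hgv : g ≠ v) (hgk : g ≠ k1)
    (hwv : w ≠ v) (hwk : w ≠ k1) {I : Finset (Fin k)} (hg : s g 0 0 = k) (hk : k ≤ x)
    (hw : IsR s w (fun i : Fin k => if i ∈ I then 1 else 0)) :
    Tri x (firstC v g w) s (fun s' => s' v 0 0 = ((first I : Fin k) : ℕ)) := by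
  unfold firstC
  refine Tri.seq (Q := fun s' => s' g 0 0 = k ∧
    IsR s' w (fun i : Fin k => if i ∈ I then 1 else 0) ∧ s' v 0 0 = 0)
    (tri_put trivial trivial trivial ?_) ?_
  · refine ⟨?_, hw.agree (upd_ne hwv _ _ _), upd_same _ _ _ _ _⟩
    rw [upd_ne hgv]
    exact hg
  intro s₁ h₁
  have main := tri_for (x := x) (s := s₁) (i := k1) (k := sc g) (N := k)
    (c := putS v (sel (num 1) (get w (sub (sub (sc g) (num 1)) (sc k1)) (num 0))
      (sub (sub (sc g) (num 1)) (sc k1)) (sc v)))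
    (I := fun t s' => s' g 0 0 = k ∧ IsR s' w (fun i : Fin k => if i ∈ I then 1 else 0) ∧
      ((s' v 0 0 = 0 ∧ ∀ i ∈ I, (i : ℕ) + t < k) ∨
        ∃ i ∈ I, s' v 0 0 = ((i : ℕ) : ℤ) ∧ k ≤ (i : ℕ) + t ∧
          ∀ i' ∈ I, k ≤ (i' : ℕ) + t → (i : ℕ) ≤ i'))
    ?_ hk ⟨trivial, trivial⟩ ⟨?_, ?_, ?_⟩ ?_ ?_
  · refine main.mono fun s' h => ?_
    obtain ⟨⟨_, _, h3⟩, _⟩ := h
    rcases h3 with ⟨h3, h4⟩ | ⟨i, hi, h3, _, h4⟩
    · have hI : ¬ I.Nonempty := by
        rintro ⟨i, hi⟩
        have := h4 i hi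
        omega
      unfold first
      rw [dif_neg hI, h3]
      simp
    · have hI : I.Nonempty := ⟨i, hi⟩
      have e : first I = i := by
        unfold first
        rw [dif_pos hI]
        refine le_antisymm (I.min'_le i hi) ?_
        exact Fin.le_def.mpr (h4 _ (I.min'_mem hI) (by omega))
      rw [e, h3]
  · change (upd s₁ k1 0 0 0 g 0 0).toNat = k
    rw [upd_ne hgk, h₁.1]
    simp
  · rw [upd_ne hgk]
    exact h₁.1
  · exact h₁.2.1.agree (upd_ne hwk _ _ _)
  · left
    rw [upd_ne hvk]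
    exact ⟨h₁.2.2, fun i _ => by have := i.isLt; omega⟩
  · rw [Cmd.wr, List.mem_singleton]
    exact Ne.symm hvk
  · intro t ht s' hI hti
    obtain ⟨h1, h2, h3⟩ := hI
    have hlt : k - 1 - t < k := by omega
    have e1 : (sub (sub (sc g) (num 1)) (sc k1)).val s' = (((⟨k - 1 - t, hlt⟩ : Fin k) : ℕ) : ℤ) := by
      change s' g 0 0 - 1 - s' k1 0 0 = _
      rw [h1, hti]
      simp only
      omega
    have e2 : (get w (sub (sub (sc g) (num 1)) (sc k1)) (num 0)).val s' =
        if (⟨k - 1 - t, hlt⟩ : Fin k) ∈ I then 1 else 0 := by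
      change s' w ((sub (sub (sc g) (num 1)) (sc k1)).val s') 0 = _
      rw [e1]
      exact h2 _
    have e3 : (sel (num 1) (get w (sub (sub (sc g) (num 1)) (sc k1)) (num 0))
        (sub (sub (sc g) (num 1)) (sc k1)) (sc v)).val s' =
        if (⟨k - 1 - t, hlt⟩ : Fin k) ∈ I then (((⟨k - 1 - t, hlt⟩ : Fin k) : ℕ) : ℤ)
          else s' v 0 0 := by
      change (if 1 ≤ (get w (sub (sub (sc g) (num 1)) (sc k1)) (num 0)).val s' then
        (sub (sub (sc g) (num 1)) (sc k1)).val s' else s' v 0 0) = _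
      rw [e1, e2]
      simp only [F.one_le_ind]
    refine tri_put trivial trivial (Exp.fits rfl) ?_
    rw [e3]
    change upd (upd s' v 0 0 _) k1 0 0 _ g 0 0 = _ ∧ _
    refine ⟨?_, ?_, ?_⟩
    · rw [upd_ne hgk, upd_ne hgv]
      exact h1
    · exact (h2.agree (upd_ne hwv _ _ _)).agree (upd_ne hwk _ _ _)
    · rw [upd_ne hvk]
      change (upd s' v 0 0 _ v 0 0 = _ ∧ _) ∨ ∃ i ∈ I, upd s' v 0 0 _ v 0 0 = _ ∧ _
      rw [upd_same]
      by_cases ha : (⟨k - 1 - t, hlt⟩ : Fin k) ∈ I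
      · right
        rw [if_pos ha]
        refine ⟨_, ha, rfl, ?_, fun i' _ hi' => ?_⟩
        · simp only
          omega
        · simp only
          omega
      · rw [if_neg ha]
        have hne : ∀ i ∈ I, (i : ℕ) + (t + 1) ≠ k := by
          intro i hi hik
          apply ha
          have : i = ⟨k - 1 - t, hlt⟩ := Fin.ext (by simp only; omega)
          rw [← this]
          exact hi
        rcases h3 with ⟨h3, h4⟩ | ⟨i, hi, h3, h5, h4⟩
        · left
          refine ⟨h3, fun i hi => ?_⟩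
          have := hne i hi
          have := h4 i hi
          omega
        · right
          refine ⟨i, hi, h3, by omega, fun i' hi' h6 => h4 i' hi' ?_⟩
          have := hne i' hi'
          omega

open F in
theorem tri_small [NeZero m] [NeZero n] {b : Mg m n} {K : ℤ} {X : Tb m n} (hd : Dim m n s)
    (hm : m ≤ x) (hn : n ≤ x) (hK : s sK 0 0 = K) (hr : IsR s sR b.1) (hc : IsR s sC b.2)
    (hX : IsT s uX X) :
    Tri x smallC s (fun s' => IsT s' sA (small K b X) ∧
      IsR s' sR (b - mar (small K b X)).1 ∧ IsR s' sC (b - mar (small K b X)).2 ∧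
      IsR s' sGr (fun i => if i ∈ bigR K b then 1 else 0) ∧
      IsR s' sGc (fun j => if j ∈ bigC K b then 1 else 0) ∧
      s' sF 0 0 = ((first (bigR K b) : Fin m) : ℕ) ∧
      s' sG 0 0 = ((first (bigC K b) : Fin n) : ℕ)) := by
  have dag : ∀ {s s' : St} {W : List ℕ}, Dim m n s → Agree W s s' → (∀ y ∈ [gM, gN], y ∉ W) →
      Dim m n s' := fun h hW hy =>
    h.agree (hW _ (hy gM (by decide))) (hW _ (hy gN (by decide)))
  unfold smallC
  -- the small entries
  refine Tri.seq (tri_tabu (by decide) (by decide) (by decide) hm hn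
    (fun s' h => dimM (dag hd h (by decide))) (fun s' h => dimN (dag hd h (by decide)))
    (fun i j => small K b X (i, j)) fun i j s' h hi hj _ => ⟨Exp.fits rfl, ?_⟩) ?_
  · have e1 : (sel (add (a1 sR k1) (num 1)) (sc sK) (a2 uX k1 k2)
        (sel (add (a1 sC k2) (num 1)) (sc sK) (a2 uX k1 k2) (num 0))).val s' =
        if (a1 sR k1).val s' + 1 ≤ (sc sK).val s' then (a2 uX k1 k2).val s' else
          if (a1 sC k2).val s' + 1 ≤ (sc sK).val s' then (a2 uX k1 k2).val s' else 0 := rfl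
    have e2 : s' sK 0 0 = K := by rw [h sK (by decide)]; exact hK
    rw [e1, val_a1 (hr.agree (h sR (by decide))) hi, val_a1 (hc.agree (h sC (by decide))) hj,
      val_a2 (hX.agree (h uX (by decide))) hi hj, val_sc e2]
    unfold small
    by_cases h1 : b.1 i < K
    · rw [if_pos (Int.add_one_le_iff.mpr h1), if_pos (Or.inl h1)]
    · rw [if_neg fun h' => h1 (Int.add_one_le_iff.mp h')]
      by_cases h2 : b.2 j < K
      · rw [if_pos (Int.add_one_le_iff.mpr h2), if_pos (Or.inr h2)]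
      · rw [if_neg fun h' => h2 (Int.add_one_le_iff.mp h'),
          if_neg fun h' => h'.elim (fun h3 => h1 h3) fun h3 => h2 h3]
  intro s₁ h₁
  have d₁ := dag hd h₁.1 (by decide)
  have K₁ : s₁ sK 0 0 = K := by rw [h₁.1 sK (by decide)]; exact hK
  have r₁ := hr.agree (h₁.1 sR (by decide))
  have c₁ := hc.agree (h₁.1 sC (by decide))
  have a₁ : IsT s₁ sA (small K b X) := h₁.2
  -- the flags of the rows
  refine Tri.seq (tri_tab1 (by decide) hm (fun s' h => dimM (dag d₁ h (by decide)))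
    (fun i => if i ∈ bigR K b then 1 else 0) fun i s' h hi _ => ⟨Exp.fits rfl, ?_⟩) ?_
  · have e1 : (sel (sc sK) (a1 sR k1) (num 1) (num 0)).val s' =
        if (sc sK).val s' ≤ (a1 sR k1).val s' then 1 else 0 := rfl
    have e2 : s' sK 0 0 = K := by rw [h sK (by decide)]; exact K₁
    rw [e1, val_a1 (r₁.agree (h sR (by decide))) hi, val_sc e2]
    unfold bigR
    simp only [mem_filter, mem_univ, true_and]
  intro s₂ h₂
  have d₂ := dag d₁ h₂.1 (by decide)
  have K₂ : s₂ sK 0 0 = K := by rw [h₂.1 sK (by decide)]; exact K₁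
  have r₂ := r₁.agree (h₂.1 sR (by decide))
  have c₂ := c₁.agree (h₂.1 sC (by decide))
  have a₂ := a₁.agree (h₂.1 sA (by decide))
  have f₂ : IsR s₂ sGr (fun i => if i ∈ bigR K b then 1 else 0) := h₂.2
  -- the flags of the columns
  refine Tri.seq (tri_tab1 (by decide) hn (fun s' h => dimN (dag d₂ h (by decide)))
    (fun j => if j ∈ bigC K b then 1 else 0) fun j s' h hj _ => ⟨Exp.fits rfl, ?_⟩) ?_
  · have e1 : (sel (sc sK) (a1 sC k1) (num 1) (num 0)).val s' =
        if (sc sK).val s' ≤ (a1 sC k1).val s' then 1 else 0 := rfl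
    have e2 : s' sK 0 0 = K := by rw [h sK (by decide)]; exact K₂
    rw [e1, val_a1 (c₂.agree (h sC (by decide))) hj, val_sc e2]
    unfold bigC
    simp only [mem_filter, mem_univ, true_and]
  intro s₃ h₃
  have d₃ := dag d₂ h₃.1 (by decide)
  have r₃ := r₂.agree (h₃.1 sR (by decide))
  have c₃ := c₂.agree (h₃.1 sC (by decide))
  have a₃ := a₂.agree (h₃.1 sA (by decide))
  have f₃ := f₂.agree (h₃.1 sGr (by decide))
  have g₃ : IsR s₃ sGc (fun j => if j ∈ bigC K b then 1 else 0) := h₃.2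
  -- the first flags
  refine Tri.seq (tri_first (by decide) (by decide) (by decide) (by decide) (by decide)
    d₃.1 hm f₃).frame fun s₄ h₄ => ?_
  have d₄ := d₃.agree (h₄.2 gM (by decide)) (h₄.2 gN (by decide))
  have r₄ := r₃.agree (h₄.2 sR (by decide))
  have c₄ := c₃.agree (h₄.2 sC (by decide))
  have a₄ := a₃.agree (h₄.2 sA (by decide))
  have f₄ := f₃.agree (h₄.2 sGr (by decide))
  have g₄ := g₃.agree (h₄.2 sGc (by decide))
  refine Tri.seq (tri_first (by decide) (by decide) (by decide) (by decide) (by decide)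
    d₄.2 hn g₄).frame fun s₅ h₅ => ?_
  have d₅ := d₄.agree (h₅.2 gM (by decide)) (h₅.2 gN (by decide))
  have r₅ := r₄.agree (h₅.2 sR (by decide))
  have c₅ := c₄.agree (h₅.2 sC (by decide))
  have a₅ := a₄.agree (h₅.2 sA (by decide))
  have f₅ := f₄.agree (h₅.2 sGr (by decide))
  have g₅ := g₄.agree (h₅.2 sGc (by decide))
  have F₅ : s₅ sF 0 0 = ((first (bigR K b) : Fin m) : ℕ) := by
    rw [h₅.2 sF (by decide)]
    exact h₄.1
  have G₅ : s₅ sG 0 0 = ((first (bigC K b) : Fin n) : ℕ) := h₅.1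
  -- the sums of the rows
  refine Tri.seq (tri_sums (by decide) (by decide) (by decide) (by decide) (by decide)
    (by decide) hm hn (fun s' h => dimM (dag d₅ h (by decide)))
    (fun s' h => dimN (dag d₅ h (by decide))) (fun i j => small K b X (i, j))
    fun i j s' h hi hj => ⟨Exp.fits rfl, val_a2 (a₅.agree (h sA (by decide))) hi hj⟩) ?_
  intro s₆ h₆
  have d₆ := dag d₅ h₆.1 (by decide)
  have r₆ := r₅.agree (h₆.1 sR (by decide))
  have c₆ := c₅.agree (h₆.1 sC (by decide))
  have a₆ := a₅.agree (h₆.1 sA (by decide))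
  have f₆ := f₅.agree (h₆.1 sGr (by decide))
  have g₆ := g₅.agree (h₆.1 sGc (by decide))
  have u₆ : IsR s₆ sU (fun i => ∑ j, small K b X (i, j)) := h₆.2
  -- the rows
  refine Tri.seq (tri_tab1 (by decide) hm (fun s' h => dimM (dag d₆ h (by decide)))
    (b - mar (small K b X)).1 fun i s' h hi hown => ⟨Exp.fits rfl, ?_⟩) ?_
  · have u' := u₆.agree (h sU (by decide))
    have e1 : (Exp.sub (a1 sR k1) (a1 sU k1)).val s' =
      (a1 sR k1).val s' - (a1 sU k1).val s' := rfl
    have e2 : (a1 sR k1).val s' = b.1 i := by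
      change s' sR (s' k1 0 0) 0 = _
      rw [hi, hown]
      exact r₆ i
    rw [e1, e2, val_a1 u' hi]
    rfl
  intro s₇ h₇
  have d₇ := dag d₆ h₇.1 (by decide)
  have r₇ : IsR s₇ sR (b - mar (small K b X)).1 := h₇.2
  have c₇ := c₆.agree (h₇.1 sC (by decide))
  have a₇ := a₆.agree (h₇.1 sA (by decide))
  have f₇ := f₆.agree (h₇.1 sGr (by decide))
  have g₇ := g₆.agree (h₇.1 sGc (by decide))
  -- the sums of the columns
  refine Tri.seq (tri_sums (by decide) (by decide) (by decide) (by decide) (by decide)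
    (by decide) hn hm (fun s' h => dimN (dag d₇ h (by decide)))
    (fun s' h => dimM (dag d₇ h (by decide))) (fun j i => small K b X (i, j))
    fun j i s' h hj hi => ⟨Exp.fits rfl, val_a2 (a₇.agree (h sA (by decide))) hi hj⟩) ?_
  intro s₈ h₈
  have d₈ := dag d₇ h₈.1 (by decide)
  have r₈ := r₇.agree (h₈.1 sR (by decide))
  have c₈ := c₇.agree (h₈.1 sC (by decide))
  have a₈ := a₇.agree (h₈.1 sA (by decide))
  have f₈ := f₇.agree (h₈.1 sGr (by decide))
  have g₈ := g₇.agree (h₈.1 sGc (by decide))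
  have v₈ : IsR s₈ sV (fun j => ∑ i, small K b X (i, j)) := h₈.2
  -- the columns
  refine (tri_tab1 (by decide) hn (fun s' h => dimN (dag d₈ h (by decide)))
    (b - mar (small K b X)).2 fun j s' h hj hown => ⟨Exp.fits rfl, ?_⟩).mono fun s₉ h₉ => ?_
  · have v' := v₈.agree (h sV (by decide))
    have e1 : (Exp.sub (a1 sC k1) (a1 sV k1)).val s' =
      (a1 sC k1).val s' - (a1 sV k1).val s' := rfl
    have e2 : (a1 sC k1).val s' = b.2 j := by
      change s' sC (s' k1 0 0) 0 = _
      rw [hj, hown]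
      exact c₈ j
    rw [e1, e2, val_a1 v' hj]
    rfl
  · refine ⟨a₈.agree (h₉.1 sA (by decide)), r₈.agree (h₉.1 sR (by decide)), h₉.2,
      f₈.agree (h₉.1 sGr (by decide)), g₈.agree (h₉.1 sGc (by decide)), ?_, ?_⟩
    · rw [h₉.1 sF (by decide), h₈.1 sF (by decide), h₇.1 sF (by decide), h₆.1 sF (by decide)]
      exact F₅
    · rw [h₉.1 sG (by decide), h₈.1 sG (by decide), h₇.1 sG (by decide), h₆.1 sG (by decide)]
      exact G₅

end P328.Deep
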