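import Vale.Agent.P328.Deep.UnaryD
import Vale.Agent.P328.Deep.CapD
import Vale.Agent.P328.Deep.SmallD
import Vale.Agent.P328.Deep.BitsD
import Vale.Agent.P328.Deep.CompD
import Vale.Agent.P328.Time

/-!
# P328 : the loop of the sampler
-/

namespace P328.Deep

open Finset Exp Cmd

variable {m n : ℕ} {x : ℕ} {s : St}

/-- state of the loop: the output so far, and the margins with the weight if the loop is not
finished -/
abbrev LS (m n : ℕ) := Tb m n × Option (Mg m n × ℤ)

section Abstract

variable [NeZero m] [NeZero n]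

/-- the margins of the next level -/
noncomputable def nextM (K : ℤ) (b : Mg m n) (X : Tb m n) (β : Fin m × Fin n → Bool) : Mg m n :=
  half (b - mar (small K b X)) (comp (bigR K b) (bigC K b) (b - mar (small K b X)) β)

/-- the table of the level -/
noncomputable def curT (K : ℤ) (b : Mg m n) (X : Tb m n) (β : Fin m × Fin n → Bool) : Tb m n :=
  small K b X + comp (bigR K b) (bigC K b) (b - mar (small K b X)) β

open Classical in
/-- the state after a level -/
noncomputable def nextS (K : ℤ) (A : Tb m n) (b : Mg m n) (w : ℤ) (X : Tb m n)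
    (β : Fin m × Fin n → Bool) : LS m n :=
  if Ok (nextM K b X β) then (A + w • curT K b X β, some (nextM K b X β, w + w)) else (A, none)

/-- the law of the state after a level -/
noncomputable def levL (K K2 : ℤ) (T : ℕ) (A : Tb m n) (b : Mg m n) (w : ℤ) : PMF (LS m n) :=
  (law (unary T (cap K2 b))).bind fun X => (law (bits (m := m) (n := n))).map fun β =>
    nextS K A b w X β

/-- the law of the state after a round of the loop -/
noncomputable def rndL (K K2 : ℤ) (T : ℕ) (a : LS m n) : PMF (LS m n) :=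
  match a.2 with
  | none => PMF.pure a
  | some (b, w) =>
    if tot b ≤ (m + n) * K2 then (law (unary T b)).map fun X => (a.1 + w • X, none)
    else levL K K2 T a.1 b w

/-- the law of the output -/
noncomputable def finL (T : ℕ) (a : LS m n) : PMF (Tb m n) :=
  match a.2 with
  | none => PMF.pure a.1
  | some (b, w) => (law (unary T b)).map fun X => a.1 + w • X

theorem loop_none (K K2 : ℤ) (T f : ℕ) (A : Tb m n) :
    (loop (fun _ => rndL K K2 T) f (A, none)).bind (finL T) = PMF.pure A := by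
  induction f with
  | zero =>
    rw [loop, PMF.pure_bind]
    rfl
  | succ f ih =>
    rw [loop_succ']
    change ((PMF.pure (A, none)).bind _).bind _ = _
    rw [PMF.pure_bind]
    exact ih

theorem loop_eq (K K2 : ℤ) (T f : ℕ) (A : Tb m n) (b : Mg m n) (w : ℤ) :
    (loop (fun _ => rndL K K2 T) f (A, some (b, w))).bind (finL T) =
      (law (samp K K2 T f b)).map fun Q => A + w • Q := by
  classical
  induction f generalizing A b w with
  | zero =>
    rw [loop, PMF.pure_bind, samp]
    rfl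
  | succ f ih =>
    rw [loop_succ']
    by_cases ht : tot b ≤ (m + n) * K2
    · have h1 : rndL K K2 T (A, some (b, w)) =
          (law (unary T b)).map fun X => (A + w • X, none) := by
        unfold rndL
        exact if_pos ht
      have h2 : samp K K2 T (f + 1) b = unary T b := by
        rw [samp, if_pos ht]
      rw [h1, h2, PMF.bind_bind, PMF.bind_map]
      have h3 : ((fun a => (loop (fun _ => rndL K K2 T) f a).bind (finL T)) ∘
          fun X => (A + w • X, none)) = fun X => PMF.pure (A + w • X) := by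
        funext X
        exact loop_none K K2 T f _
      change PMF.bind _ ((fun a => (loop (fun _ => rndL K K2 T) f a).bind (finL T)) ∘
          fun X => (A + w • X, none)) = _
      rw [h3]
      rfl
    · have h1 : rndL K K2 T (A, some (b, w)) = levL K K2 T A b w := by
        unfold rndL
        exact if_neg ht
      have h2 : law (samp K K2 T (f + 1) b) = (law (unary T (cap K2 b))).bind fun X =>
          (law (bits (m := m) (n := n))).bind fun β =>
          if Ok (nextM K b X β) then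
            (law (samp K K2 T f (nextM K b X β))).bind fun Q =>
              PMF.pure (curT K b X β + 2 • Q)
          else PMF.pure 0 := by
        rw [samp, if_neg ht, law_charge, law_andThen]
        congr 1
        funext X
        rw [law_andThen]
        congr 1
        funext β
        change law (if Ok (nextM K b X β) then _ else _) = _
        split_ifs with hok
        · rw [law_andThen]
          congr 1
          funext Q
          rw [law_ret]
          rfl
        · rw [law_ret]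
      rw [h1, h2, levL, PMF.bind_bind, PMF.bind_bind, PMF.map_bind]
      congr 1
      funext X
      rw [PMF.map_bind, PMF.bind_map]
      congr 1
      funext β
      change (loop (fun _ => rndL K K2 T) f (nextS K A b w X β)).bind (finL T) = _
      unfold nextS
      split_ifs with hok
      · rw [ih, PMF.map_bind]
        change PMF.bind _ _ = _
        congr 1
        funext Q
        change PMF.pure _ = _
        rw [PMF.pure_map]
        congr 1
        simp only [smul_add, add_smul, two_smul]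
        abel
      · rw [loop_none, PMF.pure_map]
        congr 1
        simp

end Abstract

section Concrete

/-- the state of the memory during the loop -/
structure Base (m n : ℕ) (K : ℤ) (K2 T : ℕ) (s : St) : Prop where
  dim : Dim m n s
  hT : s sT 0 0 = T
  hK : s sK 0 0 = K
  hK2 : s sK2 0 0 = K2

theorem Base.agree {K : ℤ} {K2 T : ℕ} {s s' : St} (h : Base m n K K2 T s)
    (hM : s' gM = s gM) (hN : s' gN = s gN) (h1 : s' sT = s sT) (h2 : s' sK = s sK)
    (h3 : s' sK2 = s sK2) : Base m n K K2 T s' :=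
  ⟨h.dim.agree hM hN, by rw [h1]; exact h.hT, by rw [h2]; exact h.hK, by rw [h3]; exact h.hK2⟩

theorem tri_copy {b : Mg m n} (hd : Dim m n s) (hm : m ≤ x) (hn : n ≤ x)
    (hr : IsR s sR b.1) (hc : IsR s sC b.2) :
    Tri x copyC s (fun s' => IsR s' uR b.1 ∧ IsR s' uC b.2) := by
  unfold copyC
  refine Tri.seq (tri_tab1 (by decide) hm (fun s' h => ⟨Exp.fits rfl, ?_⟩) b.1
    (fun a s' h ha _ => ⟨Exp.fits rfl, ?_⟩)) fun s1 h1 => ?_
  · change s' gM 0 0 = _
    rw [h gM (by decide)]
    exact hd.1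
  · change s' sR (s' k1 0 0) 0 = _
    rw [h sR (by decide), ha]
    exact hr a
  · have hc1 : IsR s1 sC b.2 := hc.agree (h1.1 sC (by decide))
    refine (tri_tab1 (by decide) hn (fun s' h => ⟨Exp.fits rfl, ?_⟩) b.2
      (fun a s' h ha _ => ⟨Exp.fits rfl, ?_⟩)).mono fun s2 h2 => ⟨?_, h2.2⟩
    · change s' gN 0 0 = _
      rw [h gN (by decide), h1.1 gN (by decide)]
      exact hd.2
    · change s' sC (s' k1 0 0) 0 = _
      rw [h sC (by decide), ha]
      exact hc1 a
    · exact IsR.agree h1.2 (h2.1 uR (by decide))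

theorem entry_le {b : Mg m n} {X : Tb m n} (hX : X ∈ Om b) (p : Fin m × Fin n) :
    X p ≤ tot b := by
  unfold Om tab S at hX
  rw [mem_filter, mem_Icc] at hX
  exact hX.1.2 p

theorem tot_mono {b b' : Mg m n} (h : ∀ i, b'.1 i ≤ b.1 i) : tot b' ≤ tot b :=
  Finset.sum_le_sum fun i _ => h i

theorem comp_le_one [NeZero m] [NeZero n] (I : Finset (Fin m)) (J : Finset (Fin n)) (b : Mg m n)
    (β : Fin m × Fin n → Bool) (p : Fin m × Fin n) : comp I J b β p ≤ 1 := by
  unfold comp
  split_ifs
  · rcases bv_eq (β p) with h | h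
    · rw [h]
      norm_num
    · rw [h]
  · exact Int.le_of_lt_add_one (Int.emod_lt_of_pos _ (by norm_num))
  · exact Int.le_of_lt_add_one (Int.emod_lt_of_pos _ (by norm_num))
  · exact Int.le_of_lt_add_one (Int.emod_lt_of_pos _ (by norm_num))
  · norm_num

theorem digits_pow {w : ℤ} {f : ℕ} (h0 : 0 ≤ w) (h : w ≤ 2 ^ f) : digits w ≤ f + 1 := by
  refine digits_le_of_lt h0 (lt_of_le_of_lt h ?_)
  rw [pow_succ]
  have : (0 : ℤ) < 2 ^ f := by positivity
  omega

/-- the last level -/
theorem imp_lastLevel [NeZero m] [NeZero n] {A : Tb m n} {b : Mg m n} (hb : Ok b) {w : ℤ}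
    {T f : ℕ} (hd : Dim m n s) (hm : m ≤ x) (hn : n ≤ x)
    (hT : s sT 0 0 = T) (hW : s sW 0 0 = w) (hO : IsT s sO A) (hr : IsR s sR b.1)
    (hc : IsR s sC b.2) (hxT : T ≤ x) (ht : tot b ≤ x) (hw0 : 0 ≤ w) (hw : w ≤ 2 ^ f)
    (htf : tot b ≤ 2 ^ f) (hf : 2 * f + 10 ≤ x) :
    Imp x lastLevelC s ((law (unary T b)).map fun X => A + w • X)
      (fun Y s' => IsT s' sO Y ∧ s' sD 0 0 = 1) := by
  unfold lastLevelC
  refine Tri.seq_imp (tri_copy hd hm hn hr hc).frame fun s1 h1 => ?_
  have hd1 : Dim m n s1 := hd.agree (h1.2 gM (by decide)) (h1.2 gN (by decide))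
  have hu := imp_unary hb (x := x) (s := s1) (T := T) hd1
    (by rw [h1.2 sT (by decide)]; exact hT) hxT hm hn ht h1.1.1 h1.1.2
  refine ((hu.frame).seq_tri (R' := fun X s' => IsT s' sO (A + w • X) ∧ s' sD 0 0 = 1)
    fun X hX s2 h2 => ?_).map _ fun X _ s' h => h
  have hXO := unary_support hb T X hX
  have hd2 : Dim m n s2 := hd1.agree (h2.2 gM (by decide)) (h2.2 gN (by decide))
  have hO2 : IsT s2 sO A := by
    refine hO.agree ?_
    rw [h2.2 sO (by decide), h1.2 sO (by decide)]
  have hW2 : s2 sW 0 0 = w := by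
    rw [h2.2 sW (by decide), h1.2 sW (by decide)]
    exact hW
  refine Tri.seq (tri_tabu (m := m) (n := n) (by decide) (by decide) (by decide) hm hn
    (fun s' h => ⟨Exp.fits rfl, ?_⟩) (fun s' h => ⟨Exp.fits rfl, ?_⟩)
    (fun i j => A (i, j) + w * X (i, j)) fun i j s' h hi hj hcell => ⟨?_, ?_⟩) fun s3 h3 => ?_
  · change s' gM 0 0 = _
    rw [h gM (by decide)]
    exact hd2.1
  · change s' gN 0 0 = _
    rw [h gN (by decide)]
    exact hd2.2
  · refine ⟨Exp.fits rfl, ⟨⟨Exp.fits rfl, Exp.fits rfl⟩, ?_⟩⟩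
    have e1 : (sc sW).val s' = w := by
      change s' sW 0 0 = w
      rw [h sW (by decide)]
      exact hW2
    have e2 : (a2 uX k1 k2).val s' = X (i, j) := by
      change s' uX (s' k1 0 0) (s' k2 0 0) = _
      rw [h uX (by decide), hi, hj]
      exact h2.1 i j
    rw [e1, e2]
    have e3 := digits_pow hw0 hw
    have e4 := digits_pow ((mem_Om.mp hXO).1 (i, j)) ((entry_le hXO (i, j)).trans htf)
    omega
  · change s' sO (s' k1 0 0) (s' k2 0 0) + s' sW 0 0 * s' uX (s' k1 0 0) (s' k2 0 0) = _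
    rw [hi, hj, hcell, h sW (by decide), h uX (by decide), hW2]
    rw [hO2 i j, h2.1 i j]
  · refine tri_put trivial trivial trivial ⟨?_, upd_same _ _ _ _ _⟩
    intro i j
    change upd s3 sD 0 0 1 sO _ _ = _
    rw [upd_ne (by decide), h3.2 i j]
    rfl

/-- the relation between the state of the loop and the memory -/
def Rel (K : ℤ) (K2 T : ℕ) (a : LS m n) (s : St) : Prop :=
  Base m n K K2 T s ∧ IsT s sO a.1 ∧
    match a.2 with
    | none => s sD 0 0 = 1
    | some (b, w) => s sD 0 0 = 0 ∧ s sW 0 0 = w ∧ IsR s sR b.1 ∧ IsR s sC b.2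

/-- `tot b ≤ 2 ^ f` and the weight is at most `2 ^ t` -/
def Num (f t : ℕ) (a : LS m n) : Prop :=
  match a.2 with
  | none => True
  | some (b, w) => Ok b ∧ tot b < 2 ^ f ∧ 0 ≤ w ∧ w ≤ 2 ^ t

theorem num_next [NeZero m] [NeZero n] {K : ℤ} {A : Tb m n} {b b' : Mg m n} {w : ℤ}
    {X : Tb m n} {β : Fin m × Fin n → Bool} {f t : ℕ} (hX : X ∈ Om b') (h1 : tot b < 2 ^ (f + 1))
    (h2 : 0 ≤ w) (h3 : w ≤ 2 ^ t) : Num f (t + 1) (nextS K A b w X β) := by
  unfold nextS
  split_ifs with hok
  · refine ⟨hok, ?_, by omega, ?_⟩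
    · have := tot_half_le (b := b) (A := small K b X)
        (R := comp (bigR K b) (bigC K b) (b - mar (small K b X)) β)
        (fun p => small_nonneg hX p) (fun p => comp_nonneg _ _ _ _ p)
      change tot (half _ _) < _
      rw [pow_succ] at h1
      omega
    · rw [pow_succ]
      omega
  · trivial

theorem imp_add [NeZero m] [NeZero n] {A A' R : Tb m n} {w : ℤ} {K : ℤ} {K2 T f : ℕ}
    {b' : Mg m n}
    (hB : Base m n K K2 T s) (hm : m ≤ x) (hn : n ≤ x)
    (hW : s sW 0 0 = w) (hO : IsT s sO A) (hA : IsT s sA A') (hR : IsT s sP R)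
    (hD : s sD 0 0 = 0) (hr : IsR s sR b'.1) (hc : IsR s sC b'.2)
    (h0 : ∀ p, 0 ≤ A' p + R p) (h1 : ∀ p, A' p + R p ≤ 2 ^ (f + 1))
    (hw0 : 0 ≤ w) (hw : w ≤ 2 ^ f) (hf : 2 * f + 10 ≤ x) :
    Tri x addC s (Rel K K2 T (A + w • (A' + R), some (b', w + w))) := by
  unfold addC
  have hd := hB.dim
  refine Tri.seq (tri_tabu (m := m) (n := n) (by decide) (by decide) (by decide) hm hn
    (fun s' h => ⟨Exp.fits rfl, ?_⟩) (fun s' h => ⟨Exp.fits rfl, ?_⟩)
    (fun i j => A (i, j) + w * (A' (i, j) + R (i, j))) fun i j s' h hi hj hcell => ⟨?_, ?_⟩)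
    fun s3 h3 => ?_
  · change s' gM 0 0 = _
    rw [h gM (by decide)]
    exact hd.1
  · change s' gN 0 0 = _
    rw [h gN (by decide)]
    exact hd.2
  · refine ⟨Exp.fits rfl, ⟨⟨Exp.fits rfl, Exp.fits rfl⟩, ?_⟩⟩
    have e1 : (sc sW).val s' = w := by
      change s' sW 0 0 = w
      rw [h sW (by decide)]
      exact hW
    have e2 : (add (a2 sA k1 k2) (a2 sP k1 k2)).val s' = A' (i, j) + R (i, j) := by
      change s' sA (s' k1 0 0) (s' k2 0 0) + s' sP (s' k1 0 0) (s' k2 0 0) = _
      rw [h sA (by decide), h sP (by decide), hi, hj, hA i j, hR i j]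
    rw [e1, e2]
    have e3 := digits_pow hw0 hw
    have e4 := digits_pow (h0 (i, j)) (h1 (i, j))
    omega
  · change s' sO (s' k1 0 0) (s' k2 0 0) + s' sW 0 0 *
      (s' sA (s' k1 0 0) (s' k2 0 0) + s' sP (s' k1 0 0) (s' k2 0 0)) = _
    rw [hi, hj, hcell, h sW (by decide), h sA (by decide), h sP (by decide), hW, hO i j, hA i j,
      hR i j]
  · refine tri_put trivial trivial (Exp.fits rfl) ?_
    have e5 : (add (sc sW) (sc sW)).val s3 = w + w := by
      change s3 sW 0 0 + s3 sW 0 0 = _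
      rw [h3.1 sW (by decide), hW]
    rw [e5]
    change Rel K K2 T _ (upd s3 sW 0 0 (w + w))
    have key : ∀ y, y ∉ [sO, k1, k2] → y ≠ sW → upd s3 sW 0 0 (w + w) y = s y := fun y hy hy' => by
      rw [upd_ne hy', h3.1 y hy]
    refine ⟨hB.agree (key _ (by decide) (by decide)) (key _ (by decide) (by decide))
      (key _ (by decide) (by decide)) (key _ (by decide) (by decide))
      (key _ (by decide) (by decide)), ?_, ?_, upd_same _ _ _ _ _,
      hr.agree (key _ (by decide) (by decide)), hc.agree (key _ (by decide) (by decide))⟩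
    · intro i j
      rw [upd_ne (by decide), h3.2 i j]
      rfl
    · rw [key sD (by decide) (by decide)]
      exact hD

theorem imp_level [NeZero m] [NeZero n] {A : Tb m n} {b : Mg m n} (hb : Ok b) {w : ℤ} {K : ℤ}
    {K2 T f : ℕ} (hB : Base m n K K2 T s) (hm : m ≤ x) (hn : n ≤ x)
    (hD : s sD 0 0 = 0) (hW : s sW 0 0 = w) (hO : IsT s sO A) (hr : IsR s sR b.1)
    (hc : IsR s sC b.2) (hxT : T ≤ x) (hx2 : (m + n) * K2 ≤ x) (hw0 : 0 ≤ w) (hw : w ≤ 2 ^ f)
    (htf : tot b ≤ 2 ^ f) (hf : 2 * f + 10 ≤ x) :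
    Imp x levelC s (levL K K2 T A b w) (Rel K K2 T) := by
  unfold levelC levL
  refine Tri.seq_imp (tri_copy hB.dim hm hn hr hc).frame fun s1 h1 => ?_
  have hd1 : Dim m n s1 := hB.dim.agree (h1.2 gM (by decide)) (h1.2 gN (by decide))
  refine Tri.seq_imp (tri_cap (K2 := (K2 : ℤ)) hd1 hm hn
    (by rw [h1.2 sK2 (by decide)]; exact hB.hK2) h1.1.1 h1.1.2).frame fun s2 h2 => ?_
  have hd2 : Dim m n s2 := hd1.agree (h2.2 gM (by decide)) (h2.2 gN (by decide))
  have hcap : Ok (cap (K2 : ℤ) b) := cap_ok hb (by positivity)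
  have hcapt : tot (cap (K2 : ℤ) b) ≤ x := by
    refine (cap_tot hb (by positivity)).trans ?_
    exact_mod_cast hx2
  refine imp_seq (imp_unary hcap (x := x) (s := s2) (T := T) hd2
    (by rw [h2.2 sT (by decide), h1.2 sT (by decide)]; exact hB.hT) hxT hm hn hcapt
    h2.1.1 h2.1.2).frame fun X hX s3 h3 => ?_
  have hXO := unary_support hcap T X hX
  have key3 : ∀ y ∉ copyC.wr ++ capC.wr ++ unaryC.wr, s3 y = s y := by
    intro y hy
    rw [List.mem_append, List.mem_append, not_or, not_or] at hy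
    rw [h3.2 y hy.2, h2.2 y hy.1.2, h1.2 y hy.1.1]
  have hd3 : Dim m n s3 := hB.dim.agree (key3 gM (by decide)) (key3 gN (by decide))
  refine Tri.seq_imp (tri_small (K := K) hd3 hm hn
    (by rw [key3 sK (by decide)]; exact hB.hK) (hr.agree (key3 sR (by decide)))
    (hc.agree (key3 sC (by decide))) h3.1).frame fun s4 h4 => ?_
  obtain ⟨⟨h4A, h4R, h4C, h4r, h4c, h4f, h4g⟩, h4F⟩ := h4
  have hd4 : Dim m n s4 := hd3.agree (h4F gM (by decide)) (h4F gN (by decide))
  refine (imp_seq (p' := fun β => PMF.pure (nextS K A b w X β)) (imp_bits hd4 hm hn).frame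
    fun β _ s5 h5 => ?_)
  have hd5 : Dim m n s5 := hd4.agree (h5.2 gM (by decide)) (h5.2 gN (by decide))
  refine Tri.seq_imp (tri_comp (b := b - mar (small K b X)) (I := bigR K b) (J := bigC K b)
    (β := β) hd5 hm hn (h4R.agree (h5.2 sR (by decide))) (h4C.agree (h5.2 sC (by decide)))
    (h4r.agree (h5.2 sGr (by decide))) (h4c.agree (h5.2 sGc (by decide)))
    (by rw [h5.2 sF (by decide)]; exact h4f) (by rw [h5.2 sG (by decide)]; exact h4g)
    h5.1).frame fun s6 h6 => ?_
  have hd6 : Dim m n s6 := hd5.agree (h6.2 gM (by decide)) (h6.2 gN (by decide))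
  refine Tri.seq_imp (tri_half (b := b - mar (small K b X)) hd6 hm hn
    ((h4R.agree (h5.2 sR (by decide))).agree (h6.2 sR (by decide)))
    ((h4C.agree (h5.2 sC (by decide))).agree (h6.2 sC (by decide))) h6.1).frame fun s7 h7 => ?_
  have hd7 : Dim m n s7 := hd6.agree (h7.2 gM (by decide)) (h7.2 gN (by decide))
  refine Tri.seq_imp (tri_ok (b := nextM K b X β) hd7 hm hn h7.1.1 h7.1.2).frame
    fun s8 h8 => ?_
  have key8 : ∀ y ∉ (copyC.wr ++ capC.wr ++ unaryC.wr) ++ (smallC.wr ++ bitsC.wr ++ compC.wr ++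
      halfC.wr ++ okC.wr), s8 y = s y := by
    intro y hy
    rw [List.mem_append, not_or] at hy
    obtain ⟨hy1, hy⟩ := hy
    simp only [List.mem_append, not_or] at hy
    obtain ⟨⟨⟨⟨hy2, hy3⟩, hy4⟩, hy5⟩, hy6⟩ := hy
    rw [h8.2 y hy6, h7.2 y hy5, h6.2 y hy4, h5.2 y hy3, h4F y hy2, key3 y hy1]
  have hB8 : Base m n K K2 T s8 := hB.agree (key8 _ (by decide)) (key8 _ (by decide))
    (key8 _ (by decide)) (key8 _ (by decide)) (key8 _ (by decide))
  have hO8 : IsT s8 sO A := hO.agree (key8 _ (by decide))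
  have hW8 : s8 sW 0 0 = w := by
    rw [key8 sW (by decide)]
    exact hW
  have hD8 : s8 sD 0 0 = 0 := by
    rw [key8 sD (by decide)]
    exact hD
  have hA8 : IsT s8 sA (small K b X) := by
    refine h4A.agree ?_
    rw [h8.2 sA (by decide), h7.2 sA (by decide), h6.2 sA (by decide), h5.2 sA (by decide)]
  have hP8 : IsT s8 sP (comp (bigR K b) (bigC K b) (b - mar (small K b X)) β) := by
    refine h6.1.agree ?_
    rw [h8.2 sP (by decide), h7.2 sP (by decide)]
  have hR8 : IsR s8 sR (nextM K b X β).1 := IsR.agree h7.1.1 (h8.2 sR (by decide))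
  have hC8 : IsR s8 sC (nextM K b X β).2 := IsR.agree h7.1.2 (h8.2 sC (by decide))
  by_cases hok : Ok (nextM K b X β)
  · have e1 : nextS K A b w X β =
        (A + w • curT K b X β, some (nextM K b X β, w + w)) := by
      unfold nextS
      exact if_pos hok
    rw [e1]
    refine imp_ite_pos (h8.1.mpr hok) (Exp.fits rfl) (Exp.fits rfl) ?_
    refine (imp_add (f := f) hB8 hm hn hW8 hO8 hA8 hP8 hD8 hR8 hC8 ?_ ?_ hw0 hw hf).imp
      fun _ h => h
    · intro p
      exact add_nonneg (small_nonneg hXO p) (comp_nonneg _ _ _ _ p)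
    · intro p
      have e2 := comp_le_one (bigR K b) (bigC K b) (b - mar (small K b X)) β p
      have e3 : small K b X p ≤ 2 ^ f := by
        have e4 : small K b X p ≤ X p := by
          unfold small
          split_ifs
          · exact le_rfl
          · exact (mem_Om.mp hXO).1 p
        refine e4.trans ((entry_le hXO p).trans ((tot_mono (cap_le (K2 : ℤ)).1).trans htf))
      have e5 : (1 : ℤ) ≤ 2 ^ f := by
        have : (0 : ℤ) < 2 ^ f := by positivity
        omega
      rw [pow_succ]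
      omega
  · have e1 : nextS K A b w X β = (A, none) := by
      unfold nextS
      exact if_neg hok
    rw [e1]
    refine imp_ite_neg (fun h => hok (h8.1.mp h)) (Exp.fits rfl) (Exp.fits rfl) ?_
    refine (tri_put trivial trivial trivial rfl : Tri x (putS sD (num 1)) s8
      (fun s' => s' = upd s8 sD 0 0 1)).imp fun s' hs' => ?_
    subst hs'
    refine ⟨hB8.agree (upd_ne (by decide) _ _ _) (upd_ne (by decide) _ _ _)
      (upd_ne (by decide) _ _ _) (upd_ne (by decide) _ _ _) (upd_ne (by decide) _ _ _),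
      hO8.agree (upd_ne (by decide) _ _ _), upd_same _ _ _ _ _⟩

theorem num_rnd [NeZero m] [NeZero n] {K : ℤ} {K2 T f t : ℕ} {a a' : LS m n}
    (ha : Num (f + 1) t a) (h : a' ∈ (rndL K K2 T a).support) : Num f (t + 1) a' := by
  obtain ⟨A, o⟩ := a
  cases o with
  | none =>
    change a' ∈ (PMF.pure _).support at h
    rw [PMF.mem_support_pure_iff] at h
    rw [h]
    trivial
  | some bw =>
    obtain ⟨b, w⟩ := bw
    by_cases ht : tot b ≤ (m + n) * K2
    · have h1 : rndL K K2 T (A, some (b, w)) =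
          (law (unary T b)).map fun X => (A + w • X, none) := by
        unfold rndL
        exact if_pos ht
      rw [h1, PMF.support_map] at h
      obtain ⟨X, _, rfl⟩ := h
      trivial
    · have h1 : rndL K K2 T (A, some (b, w)) = levL K K2 T A b w := by
        unfold rndL
        exact if_neg ht
      rw [h1, levL, PMF.mem_support_bind_iff] at h
      obtain ⟨X, hX, h⟩ := h
      rw [PMF.support_map] at h
      obtain ⟨β, _, rfl⟩ := h
      obtain ⟨hb, hf, hw0, hw⟩ := ha
      exact num_next (unary_support (cap_ok hb (by positivity)) T X hX) hf hw0 hw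

theorem imp_body [NeZero m] [NeZero n] {K : ℤ} {K2 T f t : ℕ} {a : LS m n}
    (hR : Rel K K2 T a s) (hN : Num f t a) (hxT : T ≤ x) (hx1 : m + n + K2 ≤ x)
    (hx2 : (m + n) * K2 ≤ x) (hx3 : 2 * (f + t) + 10 ≤ x) :
    Imp x bodyC s (rndL K K2 T a) (Rel K K2 T) := by
  have hm : m ≤ x := by omega
  have hn : n ≤ x := by omega
  obtain ⟨A, o⟩ := a
  cases o with
  | none =>
    obtain ⟨hB, hO, hD⟩ := hR
    refine imp_ite_neg ?_ (Exp.fits rfl) (Exp.fits rfl) ?_
    · change ¬ s sD 0 0 ≤ 0
      change s sD 0 0 = 1 at hD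
      omega
    · refine (tri_skip (rfl : s = s) : Tri x Cmd.skip s (fun s' => s' = s)).imp fun s' hs' => ?_
      subst hs'
      exact ⟨hB, hO, hD⟩
  | some bw =>
    obtain ⟨b, w⟩ := bw
    obtain ⟨hB, hO, hD, hW, hr, hc⟩ := hR
    obtain ⟨hb, hf, hw0, hw⟩ := hN
    have hft : f ≤ f + t := by omega
    have hf' : tot b ≤ 2 ^ (f + t) := hf.le.trans (pow_le_pow_right₀ (by norm_num) hft)
    have hw' : w ≤ 2 ^ (f + t) := hw.trans (pow_le_pow_right₀ (by norm_num) (by omega))
    refine imp_ite_pos ?_ (Exp.fits rfl) (Exp.fits rfl) ?_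
    · change s sD 0 0 ≤ 0
      rw [hD]
    refine Tri.seq_imp (tri_total (by decide) hm (fun s' h => ⟨Exp.fits rfl, ?_⟩) b.1
      fun i s' h hi => ⟨Exp.fits rfl, ?_⟩).frame fun s1 h1 => ?_
    · change s' gM 0 0 = _
      rw [h gM (by decide)]
      exact hB.dim.1
    · change s' sR (s' k1 0 0) 0 = _
      rw [h sR (by decide), hi]
      exact hr i
    have hB1 : Base m n K K2 T s1 := hB.agree (h1.2 _ (by decide)) (h1.2 _ (by decide))
      (h1.2 _ (by decide)) (h1.2 _ (by decide)) (h1.2 _ (by decide))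
    have hO1 : IsT s1 sO A := hO.agree (h1.2 _ (by decide))
    have hr1 : IsR s1 sR b.1 := hr.agree (h1.2 _ (by decide))
    have hc1 : IsR s1 sC b.2 := hc.agree (h1.2 _ (by decide))
    have hW1 : s1 sW 0 0 = w := by rw [h1.2 sW (by decide)]; exact hW
    have hD1 : s1 sD 0 0 = 0 := by rw [h1.2 sD (by decide)]; exact hD
    have e1 : (add (sc gM) (sc gN)).val s1 = ((m + n : ℕ) : ℤ) := by
      change s1 gM 0 0 + s1 gN 0 0 = _
      rw [hB1.dim.1, hB1.dim.2]
      push_cast
      rfl
    have e2 : (sc sK2).val s1 = (K2 : ℤ) := hB1.hK2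
    have e3 : (mul (add (sc gM) (sc gN)) (sc sK2)).val s1 = (m + n) * (K2 : ℤ) := by
      rw [Exp.val, e1, e2]
      push_cast
      rfl
    have e4 : (sc sS).val s1 = tot b := h1.1.2
    have hfits : (mul (add (sc gM) (sc gN)) (sc sK2)).Fits x s1 := by
      refine ⟨⟨Exp.fits rfl, Exp.fits rfl⟩, ?_⟩
      rw [e1, e2]
      have d1 := digits_le ((m + n : ℕ) : ℤ)
      have d2 := digits_le (K2 : ℤ)
      rw [Int.natAbs_natCast] at d1 d2
      omega
    by_cases ht : tot b ≤ (m + n) * K2
    · have h2 : rndL K K2 T (A, some (b, w)) =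
          (law (unary T b)).map fun X => (A + w • X, none) := by
        unfold rndL
        exact if_pos ht
      rw [h2]
      refine imp_ite_pos (by rw [e3, e4]; exact ht) (Exp.fits rfl) hfits ?_
      have htx : tot b ≤ x := ht.trans (by exact_mod_cast hx2)
      have h3 := (imp_lastLevel hb hB1.dim hm hn hB1.hT hW1 hO1 hr1 hc1 hxT htx hw0 hw' hf'
        hx3).frame.map (fun Y => ((Y, none) : LS m n)) (R' := Rel K K2 T) fun Y _ s' h => ?_
      · rw [PMF.map_comp] at h3
        exact h3
      · exact ⟨hB1.agree (h.2 _ (by decide)) (h.2 _ (by decide))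
          (h.2 _ (by decide)) (h.2 _ (by decide)) (h.2 _ (by decide)), h.1.1, h.1.2⟩
    · have h2 : rndL K K2 T (A, some (b, w)) = levL K K2 T A b w := by
        unfold rndL
        exact if_neg ht
      rw [h2]
      refine imp_ite_neg (by rw [e3, e4]; exact ht) (Exp.fits rfl) hfits ?_
      exact imp_level hb hB1 hm hn hD1 hW1 hO1 hr1 hc1 hxT hx2 hw0 hw' hf' hx3

theorem imp_samp [NeZero m] [NeZero n] {b : Mg m n} (hb : Ok b) {K : ℤ} {K2 T f : ℕ}
    (hd : Dim m n s) (hT : s sT 0 0 = T) (hK : s sK 0 0 = K) (hK2 : s sK2 0 0 = K2)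
    (hL : s sL 0 0 = f) (hD : s sD 0 0 = 0) (hW : s sW 0 0 = 1)
    (hO : IsT s sO (0 : Tb m n)) (hr : IsR s sR b.1) (hc : IsR s sC b.2)
    (hf : tot b < 2 ^ f) (hxT : T ≤ x) (hx1 : m + n + K2 ≤ x) (hx2 : (m + n) * K2 ≤ x)
    (hx3 : 2 * f + 10 ≤ x) :
    Imp x sampC s (law (samp K K2 T f b)) (fun Y s' => IsT s' sO Y) := by
  have hlaw : law (samp K K2 T f b) =
      (loop (fun _ => rndL K K2 T) f ((0 : Tb m n), some (b, 1))).bind (finL T) := by
    rw [loop_eq]
    have : (fun Q : Tb m n => (0 : Tb m n) + (1 : ℤ) • Q) = id := by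
      funext Q
      rw [zero_add, one_smul]
      rfl
    rw [this, PMF.map_id]
  rw [hlaw]
  unfold sampC
  have hmain := imp_rep (x := x) (c := bodyC) (s := s) (P := fun _ => rndL K K2 T)
    (R := fun t a s' => Rel K K2 T a s' ∧ Num (f - t) t a) (a := ((0 : Tb m n), some (b, 1)))
    (k := sc sL) (N := f) (by change (s sL 0 0).toNat = f; rw [hL]; simp) (by omega)
    (Exp.fits rfl) ?_ ?_
  · refine imp_seq hmain fun a ha s' hR => ?_
    obtain ⟨hR, hN⟩ := hR
    obtain ⟨A, o⟩ := a
    cases o with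
    | none =>
      obtain ⟨_, hO', hD'⟩ := hR
      refine imp_ite_neg ?_ (Exp.fits rfl) (Exp.fits rfl) ?_
      · change ¬ s' sD 0 0 ≤ 0
        change s' sD 0 0 = 1 at hD'
        omega
      · exact (tri_skip hO').imp fun s'' hs'' => hs''
    | some bw =>
      obtain ⟨b', w⟩ := bw
      obtain ⟨hB', hO', hD', hW', hr', hc'⟩ := hR
      obtain ⟨hb', hf', hw0, hw⟩ := hN
      rw [Nat.sub_self, pow_zero] at hf'
      have h1 : (1 : ℤ) ≤ 2 ^ f := by
        have : (0 : ℤ) < 2 ^ f := by positivity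
        omega
      refine imp_ite_pos ?_ (Exp.fits rfl) (Exp.fits rfl) ?_
      · change s' sD 0 0 ≤ 0
        rw [hD']
      · exact (imp_lastLevel hb' hB'.dim (by omega) (by omega) hB'.hT hW' hO' hr' hc' hxT
          (by omega) hw0 hw (by omega) hx3).mono fun _ _ s'' h => h.1
  · refine ⟨⟨⟨hd, hT, hK, hK2⟩, hO, hD, hW, hr, hc⟩, hb, by simpa using hf, by norm_num, ?_⟩
    simp
  · intro t ht a ha s' hR
    obtain ⟨hR, hN⟩ := hR
    refine (imp_body hR hN hxT hx1 hx2 (by omega)).mono fun a' ha' s'' h => ⟨h, ?_⟩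
    have e : f - t = (f - (t + 1)) + 1 := by omega
    rw [e] at hN
    exact num_rnd hN ha'

end Concrete

end P328.Deep
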