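import Vale.Agent.P328.Deep.SampD
import Vale.Agent.P328.Deep.ParamsD
import Vale.Agent.P328.Deep.FinishD
import Vale.Agent.P328.Time

/-!
# P328 : the sampler
-/

namespace P328.Deep

open Finset Exp Cmd

variable {m n : ℕ} {x : ℕ} {s : St}

theorem imp_sampler [NeZero m] [NeZero n] {b : Mg m n} (hb : Ok b) {e : ℕ} (he : 1 ≤ e)
    (hd : Dim m n s) (hE : s cE2 0 0 = e) (hr : IsR s cR b.1) (hc : IsR s cC b.2)
    (hx : 2 * TT b e ≤ x) :
    Imp x samplerC s (law (sampler b e)) (fun X s' => IsT s' sO X) := by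
  classical
  obtain ⟨hb1, hb2, hb3⟩ := TT_big b he
  have hm : m ≤ x := by omega
  have hn : n ≤ x := by omega
  have hlaw : law (sampler b e) = (law (samp (KK b e) (KK2 b e) (TT b e) (len b) b)).bind
      fun X => PMF.pure (if X ∈ Om b then X else corner b) := by
    unfold sampler
    rw [law_andThen]
    congr 1
    funext X
    rw [law_charge, law_ret]
  rw [hlaw]
  unfold samplerC
  refine Tri.seq_imp (tri_params hd hm he hE hr hx).frame fun s1 h1 => ?_
  obtain ⟨⟨hL, hK, hK2, hT⟩, h1F⟩ := h1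
  have hd1 : Dim m n s1 := hd.agree (h1F gM (by decide)) (h1F gN (by decide))
  have hr1 : IsR s1 cR b.1 := hr.agree (h1F cR (by decide))
  have hc1 : IsR s1 cC b.2 := hc.agree (h1F cC (by decide))
  refine Tri.seq_imp (tri_tab1 (v := sR) (i := k1) (by decide) hm
    (fun s' h => ⟨Exp.fits rfl, ?_⟩) b.1 (fun a s' h ha _ => ⟨Exp.fits rfl, ?_⟩)) fun s2 h2 => ?_
  · change s' gM 0 0 = _
    rw [h gM (by decide)]
    exact hd1.1
  · change s' cR (s' k1 0 0) 0 = _
    rw [h cR (by decide), ha]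
    exact hr1 a
  refine Tri.seq_imp (tri_tab1 (v := sC) (i := k1) (by decide) hn
    (fun s' h => ⟨Exp.fits rfl, ?_⟩) b.2 (fun a s' h ha _ => ⟨Exp.fits rfl, ?_⟩)) fun s3 h3 => ?_
  · change s' gN 0 0 = _
    rw [h gN (by decide), h2.1 gN (by decide)]
    exact hd1.2
  · change s' cC (s' k1 0 0) 0 = _
    rw [h cC (by decide), ha, h2.1 cC (by decide)]
    exact hc1 a
  refine Tri.seq_imp (tri_tabu (m := m) (n := n) (v := sO) (i := k1) (j := k2) (by decide)
    (by decide) (by decide) hm hn (fun s' h => ⟨Exp.fits rfl, ?_⟩) (fun s' h => ⟨Exp.fits rfl, ?_⟩)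
    (fun _ _ => 0) (fun i j s' h hi hj _ => ⟨Exp.fits rfl, rfl⟩)) fun s4 h4 => ?_
  · change s' gM 0 0 = _
    rw [h gM (by decide), h3.1 gM (by decide), h2.1 gM (by decide)]
    exact hd1.1
  · change s' gN 0 0 = _
    rw [h gN (by decide), h3.1 gN (by decide), h2.1 gN (by decide)]
    exact hd1.2
  refine Tri.seq_imp (tri_put trivial trivial trivial (rfl : _ = _) :
    Tri x (putS sW (num 1)) s4 (fun s' => s' = _)) fun s5 h5 => ?_
  refine Tri.seq_imp (tri_put trivial trivial trivial (rfl : _ = _) :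
    Tri x (putS sD (num 0)) s5 (fun s' => s' = _)) fun s6 h6 => ?_
  have f5 : ∀ y, y ≠ sW → s5 y = s4 y := fun y hy => by rw [h5]; exact upd_ne hy _ _ _
  have f6 : ∀ y, y ≠ sD → s6 y = s5 y := fun y hy => by rw [h6]; exact upd_ne hy _ _ _
  have key : ∀ y, y ∉ [sR, sC, sO, k1, k2, sW, sD] → s6 y = s1 y := by
    intro y hy
    simp only [List.mem_cons, not_or] at hy
    obtain ⟨y1, y2, y3, y4, y5, y6, y7, _⟩ := hy
    rw [f6 y y7, f5 y y6, h4.1 y (by simp [y3, y4, y5]), h3.1 y (by simp [y2, y4]),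
      h2.1 y (by simp [y1, y4])]
  have hR6 : IsR s6 sR b.1 := by
    refine IsR.agree h2.2 ?_
    rw [f6 sR (by decide), f5 sR (by decide), h4.1 sR (by decide), h3.1 sR (by decide)]
  have hC6 : IsR s6 sC b.2 := by
    refine IsR.agree h3.2 ?_
    rw [f6 sC (by decide), f5 sC (by decide), h4.1 sC (by decide)]
  have hO6 : IsT s6 sO (0 : Tb m n) := by
    refine IsT.agree (s := s4) (fun i j => h4.2 i j) ?_
    rw [f6 sO (by decide), f5 sO (by decide)]
  have hs := imp_samp (x := x) (s := s6) hb (K := (KK b e : ℤ)) (K2 := KK2 b e) (T := TT b e)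
    (f := len b) (hd1.agree (key _ (by decide)) (key _ (by decide)))
    (by rw [key sT (by decide)]; exact hT) (by rw [key sK (by decide)]; exact hK)
    (by rw [key sK2 (by decide)]; exact hK2) (by rw [key sL (by decide)]; exact hL)
    (by rw [h6]; exact upd_same _ _ _ _ _)
    (by rw [f6 sW (by decide), h5]; exact upd_same _ _ _ _ _) hO6 hR6 hC6 (tot_lt b)
    (by omega) (by omega) (by omega) (by omega)
  refine imp_seq hs.frame fun X _ s7 h7 => ?_
  have key7 : ∀ y, y ∉ sampC.wr → y ∉ [sR, sC, sO, k1, k2, sW, sD] → y ∉ paramsC.wr →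
      s7 y = s y := by
    intro y hy hy' hy''
    rw [h7.2 y hy, key y hy', h1F y hy'']
  have hf := tri_finish (x := x) (s := s7) (b := b) (X := X)
    (hd.agree (key7 gM (by decide) (by decide) (by decide))
      (key7 gN (by decide) (by decide) (by decide))) hm hn
    (hr.agree (key7 cR (by decide) (by decide) (by decide)))
    (hc.agree (key7 cC (by decide) (by decide) (by decide))) h7.1
  exact hf.imp fun s' h => h

end P328.Deep
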