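import Vale.Agent.P328.Deep.Lang

/-!
# P328 : contingency tables, inputs of the programs
-/

namespace P328.Deep

open Finset

/-- the contingency tables with row sums `r` and column sums `c` -/
def Omega {m n : ℕ} (r : Fin m → ℕ) (c : Fin n → ℕ) : Set (Fin m × Fin n → ℤ) :=
  {X | (∀ p, 0 ≤ X p) ∧ (∀ i, ∑ j, X (i, j) = r i) ∧ ∀ j, ∑ i, X (i, j) = c j}

open Classical in
/-- the uniform law on the contingency tables -/
noncomputable def uniform {m n : ℕ} (r : Fin m → ℕ) (c : Fin n → ℕ)
    (X : Fin m × Fin n → ℤ) : ℝ :=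
  if X ∈ Omega r c then 1 / (Omega r c).ncard else 0

/-- the length of the input (the margins are written in binary) -/
def size {m n : ℕ} (r : Fin m → ℕ) (c : Fin n → ℕ) : ℕ :=
  m + n + ∑ i, Nat.log 2 (r i + 2) + ∑ j, Nat.log 2 (c j + 2)

/-- an array with the number `a` in the entry `(0, 0)` -/
def scalar (a : ℕ) : ℤ → ℤ → ℤ := fun i j => if i = 0 ∧ j = 0 then a else 0

/-- an array with the vector `f` in the column `0` -/
def vector {k : ℕ} (f : Fin k → ℕ) : ℤ → ℤ → ℤ := fun i j =>
  if h : 0 ≤ i ∧ i < k ∧ j = 0 then f ⟨i.toNat, by omega⟩ else 0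

/-- the initial memory: `m`, `n`, `e`, `d`, `r`, `c` in the arrays `0`, `1`, `2`, `3`, `4`, `5` -/
def input {m n : ℕ} (r : Fin m → ℕ) (c : Fin n → ℕ) (e d : ℕ) : St
  | 0 => scalar m
  | 1 => scalar n
  | 2 => scalar e
  | 3 => scalar d
  | 4 => vector r
  | 5 => vector c
  | _ => scalar 0

/-- the probability that the final memory of the program `P`, run from `s`, satisfies `A` -/
noncomputable def prob (P : Cmd) (s : St) (A : St → Prop) : ℝ :=
  ((P.run s).toOuterMeasure {y | A y.1}).toReal

/-- the program `P`, run from `s`, always stops after at most `t` steps -/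
def StepsLe (P : Cmd) (s : St) (t : ℝ) : Prop := ∀ y ∈ (P.run s).support, (y.2 : ℝ) ≤ t

end P328.Deep
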