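import Vale.Agent.P328.Deep.Mix
import Vale.Agent.P328.Deep.Cells

/-!
# P328 : the program of the sampler for small totals
-/

namespace P328.Deep

open Finset Exp Cmd

variable {m n : ℕ} {x : ℕ} {s : St}

theorem tri_last {k : ℕ} {v g w : ℕ} (hvk : v ≠ k1) (hgk : g ≠ k1)
    (hwv : w ≠ v) (hwk : w ≠ k1) {f : Fin k → ℤ} (hg : s g 0 0 = k) (hk : k ≤ x)
    (hw : IsR s w f) {i : Fin k} (hi : 1 ≤ f i) (hi' : ∀ i', i < i' → f i' = 0) :
    Tri x (lastC v g w) s (fun s' => s' v 0 0 = (i : ℕ)) := by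
  unfold lastC
  refine (tri_for (I := fun t s' => IsR s' w f ∧ ((i : ℕ) < t → s' v 0 0 = (i : ℕ))) (N := k)
    ?_ hk (Exp.fits rfl) ⟨hw.agree (upd_ne hwk _ _ _), fun h => absurd h (Nat.not_lt_zero _)⟩
    ?_ ?_).mono fun s' h => h.1.2 i.isLt
  · change (upd s k1 0 0 0 g 0 0).toNat = k
    rw [upd_ne hgk, hg]
    exact Int.toNat_natCast k
  · rw [Cmd.wr, List.mem_singleton]
    exact Ne.symm hvk
  · intro t ht s' hI htt
    refine tri_put (Exp.fits rfl) (Exp.fits rfl) (Exp.fits rfl) ?_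
    have e1 : (sel (num 1) (a1 w k1) (sc k1) (sc v)).val s' =
        if 1 ≤ f ⟨t, ht⟩ then (t : ℤ) else s' v 0 0 := by
      change (if (1 : ℤ) ≤ s' w (s' k1 0 0) 0 then s' k1 0 0 else s' v 0 0) = _
      rw [htt]
      have := hI.1 ⟨t, ht⟩
      change s' w (t : ℤ) 0 = _ at this
      rw [this]
    rw [e1]
    change IsR (upd (upd s' v 0 0 _) k1 0 0 _) w f ∧ ((i : ℕ) < t + 1 →
      upd (upd s' v 0 0 (if 1 ≤ f ⟨t, ht⟩ then (t : ℤ) else s' v 0 0)) k1 0 0 _ v 0 0 = (i : ℕ))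
    refine ⟨hI.1.agree ((upd_ne hwk _ _ _).trans (upd_ne hwv _ _ _)), fun h => ?_⟩
    rw [upd_ne hvk, upd_same]
    by_cases hit : (i : ℕ) = t
    · have : (⟨t, ht⟩ : Fin k) = i := Fin.ext hit.symm
      rw [this, if_pos hi, hit]
    · have h1 : i < (⟨t, ht⟩ : Fin k) := by
        rw [Fin.lt_def]
        change (i : ℕ) < t
        omega
      rw [hi' _ h1, if_neg (by norm_num)]
      exact hI.2 (by omega)

/-- the last positive entry -/
theorem exists_last {k : ℕ} {f : Fin k → ℤ} (h0 : ∀ i, 0 ≤ f i) (h : ∃ i, 1 ≤ f i) :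
    ∃ i, 1 ≤ f i ∧ ∀ i', i < i' → f i' = 0 := by
  classical
  obtain ⟨a, ha⟩ := h
  have hne : (univ.filter fun i => 1 ≤ f i).Nonempty := ⟨a, by simpa using ha⟩
  refine ⟨(univ.filter fun i => 1 ≤ f i).max' hne, ?_, fun i' hi' => ?_⟩
  · exact (mem_filter.mp (Finset.max'_mem _ hne)).2
  · by_contra hne'
    have h1 : i' ∈ univ.filter fun i => 1 ≤ f i := by
      rw [mem_filter]
      have := h0 i'
      exact ⟨mem_univ _, by omega⟩
    exact absurd (Finset.le_max' _ _ h1) (not_le.mpr hi')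

theorem exists_pos {k : ℕ} {f : Fin k → ℤ} (h0 : ∀ i, 0 ≤ f i) (h : 1 ≤ ∑ i, f i) :
    ∃ i, 1 ≤ f i := by
  by_contra hne
  push Not at hne
  have h1 : ∑ i, f i = 0 := Finset.sum_eq_zero fun i _ => by
    have h2 := hne i
    have h3 := h0 i
    omega
  omega

/-- the successive margins and cells -/
theorem exists_seq [NeZero m] [NeZero n] {b : Mg m n} (hb : Ok b) :
    ∃ (bs : ℕ → Mg m n) (cs : ℕ → Fin m × Fin n)
    (ls : ℕ → List (Fin m × Fin n)), bs 0 = b ∧ ls 0 = [] ∧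
    (∀ t, t < (tot b).toNat → bs (t + 1) = bs t - mar (one (cs t).1 (cs t).2) ∧
      ls (t + 1) = cs t :: ls t ∧ 1 ≤ (bs t).1 (cs t).1 ∧ 1 ≤ (bs t).2 (cs t).2 ∧
      (∀ i', (cs t).1 < i' → (bs t).1 i' = 0) ∧ ∀ j', (cs t).2 < j' → (bs t).2 j' = 0) ∧
    cells b = ls (tot b).toNat := by
  classical
  have hstep : ∀ b' : Mg m n, ∃ c : Fin m × Fin n, (Ok b' → 1 ≤ tot b' →
      1 ≤ b'.1 c.1 ∧ 1 ≤ b'.2 c.2 ∧ (∀ i', c.1 < i' → b'.1 i' = 0) ∧
        ∀ j', c.2 < j' → b'.2 j' = 0) := by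
    intro b'
    by_cases h : Ok b' ∧ 1 ≤ tot b'
    · have h2 : 1 ≤ ∑ j, b'.2 j := by
        rw [← h.1.2.2]
        exact h.2
      obtain ⟨i, hi, hi'⟩ := exists_last h.1.1 (exists_pos h.1.1 h.2)
      obtain ⟨j, hj, hj'⟩ := exists_last h.1.2.1 (exists_pos h.1.2.1 h2)
      exact ⟨(i, j), fun _ _ => ⟨hi, hj, hi', hj'⟩⟩
    · exact ⟨(0, 0), fun h1 h2 => absurd ⟨h1, h2⟩ h⟩
  choose c hc using hstep
  let bs : ℕ → Mg m n := fun t =>
    Nat.rec b (fun _ b' => b' - mar (one (c b').1 (c b').2)) t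
  let ls : ℕ → List (Fin m × Fin n) := fun t =>
    Nat.rec [] (fun t l => c (bs t) :: l) t
  have hN : ((tot b).toNat : ℤ) = tot b := by
    have : 0 ≤ tot b := Finset.sum_nonneg fun i _ => hb.1 i
    omega
  have key : ∀ t, t ≤ (tot b).toNat → Ok (bs t) ∧ tot (bs t) = tot b - t ∧
      cells b = cells (bs t) ++ ls t := by
    intro t
    induction t with
    | zero =>
      intro _
      refine ⟨hb, ?_, ?_⟩
      · change tot b = tot b - ((0 : ℕ) : ℤ)
        push_cast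
        ring
      · change cells b = cells b ++ []
        rw [List.append_nil]
    | succ t ih =>
      intro ht
      obtain ⟨h1, h2, h3⟩ := ih (by omega)
      have h4 := hc (bs t) h1 (by omega)
      have e1 : bs (t + 1) = bs t - mar (one (c (bs t)).1 (c (bs t)).2) := rfl
      have e2 : ls (t + 1) = c (bs t) :: ls t := rfl
      refine ⟨?_, ?_, ?_⟩
      · rw [e1]
        exact ok_sub_one h1 h4.1 h4.2.1
      · have h5 : tot (bs t) = tot (bs (t + 1)) + 1 := by
          rw [e1]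
          unfold tot
          have h6 : ∀ i, (bs t - mar (one (c (bs t)).1 (c (bs t)).2)).1 i =
            (bs t).1 i - (mar (one (c (bs t)).1 (c (bs t)).2)).1 i := fun _ => rfl
          simp only [h6, mar_one_fst, Finset.sum_sub_distrib]
          simp
        push_cast
        omega
      · rw [e2, e1, h3, cells_last h1 h4.1 h4.2.2.1 h4.2.1 h4.2.2.2, List.append_assoc]
        rfl
  refine ⟨bs, fun t => c (bs t), ls, rfl, rfl, fun t ht => ?_, ?_⟩
  · obtain ⟨h1, h2, _⟩ := key t (by omega)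
    have h4 := hc (bs t) h1 (by omega)
    exact ⟨rfl, rfl, h4.1, h4.2.1, h4.2.2.1, h4.2.2.2⟩
  · obtain ⟨h1, h2, h3⟩ := key _ le_rfl
    have h5 := card_cells h1
    have h6 : (cells (bs (tot b).toNat)).length = 0 := by omega
    rw [List.length_eq_zero_iff.mp h6, List.nil_append] at h3
    exact h3

theorem tri_dec {k : ℕ} {v a : ℕ} {f : Fin k → ℤ} {i : Fin k}
    (ha : s a 0 0 = (i : ℕ)) (hv : IsR s v f) :
    Tri x (put1 v a (sub (a1 v a) (num 1))) s (fun s' =>
      IsR s' v (fun i' => f i' - if i' = i then 1 else 0)) := by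
  refine tri_put (Exp.fits rfl) (Exp.fits rfl) (Exp.fits rfl) ?_
  have e1 : (sc a).val s = (i : ℕ) := ha
  have e2 : (sub (a1 v a) (num 1)).val s = f i - 1 := by
    change s v (s a 0 0) 0 - 1 = _
    rw [ha, hv i]
  rw [e1, e2]
  intro i'
  change upd s v ((i : ℕ) : ℤ) 0 (f i - 1) v (i' : ℕ) 0 = f i' - if i' = i then 1 else 0
  by_cases h : i' = i
  · rw [h, upd_same, if_pos rfl]
  · have h1 : ¬ (((i' : ℕ) : ℤ) = ((i : ℕ) : ℤ) ∧ (0 : ℤ) = 0) := fun h' =>
      h (Fin.ext (by exact_mod_cast h'.1))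
    rw [upd_cell h1, hv i', if_neg h, sub_zero]

theorem tri_inc {X : Tb m n} {v a c : ℕ} {i : Fin m} {j : Fin n}
    (ha : s a 0 0 = (i : ℕ)) (hc : s c 0 0 = (j : ℕ)) (hX : IsT s v X) :
    Tri x (put2 v a c (add (a2 v a c) (num 1))) s (fun s' => IsT s' v (X + one i j)) := by
  refine tri_put (Exp.fits rfl) (Exp.fits rfl) (Exp.fits rfl) ?_
  have e1 : (sc a).val s = (i : ℕ) := ha
  have e2 : (sc c).val s = (j : ℕ) := hc
  have e3 : (add (a2 v a c) (num 1)).val s = X (i, j) + 1 := by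
    change s v (s a 0 0) (s c 0 0) + 1 = _
    rw [ha, hc, hX i j]
  rw [e1, e2, e3]
  have := hX.put i j (w := X (i, j) + 1) (z := 1) rfl
  rwa [one_smul] at this

/-- what is in the memory before a round -/
def RInv (T : ℕ) (b : Mg m n) (Y : Tb m n) (s : St) : Prop :=
  (Dim m n s ∧ s sT 0 0 = T) ∧ (IsT s uX Y ∧ ∀ p, 0 ≤ Y p) ∧ IsR s uR b.1 ∧ IsR s uC b.2

theorem imp_round [NeZero m] [NeZero n] {T : ℕ} {b : Mg m n} {Y : Tb m n} (hR : RInv T b Y s)
    (hx : T ≤ x) (hm : m ≤ x) (hn : n ≤ x) {i : Fin m} {j : Fin n}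
    (hi : 1 ≤ b.1 i) (hi' : ∀ i', i < i' → b.1 i' = 0)
    (hj : 1 ≤ b.2 j) (hj' : ∀ j', j < j' → b.2 j' = 0) :
    Imp x roundC s (law (mix T (Y + one i j)))
      (fun Y' s' => RInv T (b - mar (one i j)) Y' s') := by
  obtain ⟨⟨hd, hT⟩, ⟨hY, h0⟩, hr, hc⟩ := hR
  unfold roundC
  refine (tri_last (v := uA) (g := gM) (w := uR) (by decide) (by decide) (by decide) (by decide) hd.1 hm hr hi hi').frame.seq_imp fun s1 h1 => ?_
  have hd1 : Dim m n s1 := hd.agree (h1.2 gM (by decide)) (h1.2 gN (by decide))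
  refine (tri_last (v := uB) (g := gN) (w := uC) (by decide) (by decide) (by decide) (by decide) hd1.2 hn (hc.agree (h1.2 uC (by decide))) hj hj').frame.seq_imp fun s2 h2 => ?_
  have hd2 : Dim m n s2 := hd1.agree (h2.2 gM (by decide)) (h2.2 gN (by decide))
  have hA2 : s2 uA 0 0 = (i : ℕ) := by rw [h2.2 uA (by decide)]; exact h1.1
  refine (tri_dec (v := uR) (a := uA) hA2
    ((hr.agree (h1.2 uR (by decide))).agree (h2.2 uR (by decide)))).frame.seq_imp fun s3 h3 => ?_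
  have hA3 : s3 uA 0 0 = (i : ℕ) := by rw [h3.2 uA (by decide)]; exact hA2
  have hB3 : s3 uB 0 0 = (j : ℕ) := by rw [h3.2 uB (by decide)]; exact h2.1
  refine (tri_dec (v := uC) (a := uB) hB3
    (((hc.agree (h1.2 uC (by decide))).agree (h2.2 uC (by decide))).agree
      (h3.2 uC (by decide)))).frame.seq_imp fun s4 h4 => ?_
  have hA4 : s4 uA 0 0 = (i : ℕ) := by rw [h4.2 uA (by decide)]; exact hA3
  have hB4 : s4 uB 0 0 = (j : ℕ) := by rw [h4.2 uB (by decide)]; exact hB3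
  have hX4 : IsT s4 uX Y := (((hY.agree (h1.2 uX (by decide))).agree
    (h2.2 uX (by decide))).agree (h3.2 uX (by decide))).agree (h4.2 uX (by decide))
  refine (tri_inc hA4 hB4 hX4).frame.seq_imp fun s5 h5 => ?_
  have hd5 : Dim m n s5 := ((hd2.agree (h3.2 gM (by decide)) (h3.2 gN (by decide))).agree
    (h4.2 gM (by decide)) (h4.2 gN (by decide))).agree (h5.2 gM (by decide))
    (h5.2 gN (by decide))
  have hT5 : s5 sT 0 0 = T := by
    rw [h5.2 sT (by decide), h4.2 sT (by decide), h3.2 sT (by decide), h2.2 sT (by decide),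
      h1.2 sT (by decide)]
    exact hT
  have hr5 : IsR s5 uR (b - mar (one i j)).1 := by
    intro a
    rw [h5.2 uR (by decide), h4.2 uR (by decide), h3.1 a]
    have : (b - mar (one i j)).1 a = b.1 a - (mar (one i j)).1 a := rfl
    rw [this, mar_one_fst]
  have hc5 : IsR s5 uC (b - mar (one i j)).2 := by
    intro a
    rw [h5.2 uC (by decide), h4.1 a]
    have : (b - mar (one i j)).2 a = b.2 a - (mar (one i j)).2 a := rfl
    rw [this, mar_one_snd]
  have h05 : ∀ p, 0 ≤ (Y + one i j) p := by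
    intro p
    rw [Pi.add_apply]
    have h6 := h0 p
    have h7 : 0 ≤ one i j p := by
      by_cases hp : p = (i, j)
      · rw [hp, one_same]
        norm_num
      · rw [one_other hp]
    omega
  exact (imp_mix hd5 hT5 hx h5.1 h05).frame.mono fun Y' _ s' h' =>
    ⟨⟨hd5.agree (h'.2 gM (by decide)) (h'.2 gN (by decide)), by
      rw [h'.2 sT (by decide)]; exact hT5⟩, h'.1, hr5.agree (h'.2 uR (by decide)),
      hc5.agree (h'.2 uC (by decide))⟩

theorem imp_unary [NeZero m] [NeZero n] {b : Mg m n} (hb : Ok b) {T : ℕ} (hd : Dim m n s)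
    (hT : s sT 0 0 = T) (hx : T ≤ x) (hm : m ≤ x) (hn : n ≤ x) (hN : tot b ≤ x)
    (hr : IsR s uR b.1) (hc : IsR s uC b.2) :
    Imp x unaryC s (law (unary T b)) (fun Y s' => IsT s' uX Y) := by
  obtain ⟨bs, cs, ls, hb0, hl0, hstep, hcells⟩ := exists_seq hb
  have hlaw : law (unary T b) = loop (fun t Y => law (mix T (Y + one (cs t).1 (cs t).2)))
      (tot b).toNat 0 := by
    unfold unary
    rw [law_charge, hcells]
    have key : ∀ t, t ≤ (tot b).toNat → law (grow T (ls t)) =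
        loop (fun t Y => law (mix T (Y + one (cs t).1 (cs t).2))) t 0 := by
      intro t
      induction t with
      | zero =>
        intro _
        rw [hl0, grow, law_ret]
        rfl
      | succ t ih =>
        intro ht
        rw [(hstep t (by omega)).2.1, grow, law_andThen, ih (by omega), loop]
        exact bind_congr' fun Y _ => law_charge _ _
    exact key _ le_rfl
  rw [hlaw]
  unfold unaryC
  refine (tri_tabu (v := uX) (i := k1) (j := k2) (m := m) (n := n) (by decide) (by decide)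
    (by decide) hm hn (fun s' h => ⟨Exp.fits rfl, ?_⟩) (fun s' h => ⟨Exp.fits rfl, ?_⟩)
    (fun _ _ => 0) fun a b' s' _ _ _ _ => ⟨Exp.fits rfl, rfl⟩).frame.seq_imp fun s1 h1 => ?_
  · change s' gM 0 0 = m
    rw [h gM (by decide)]
    exact hd.1
  · change s' gN 0 0 = n
    rw [h gN (by decide)]
    exact hd.2
  have hd1 : Dim m n s1 := hd.agree (h1.2 gM (by decide)) (h1.2 gN (by decide))
  have hr1 : IsR s1 uR b.1 := hr.agree (h1.2 uR (by decide))
  have hc1 : IsR s1 uC b.2 := hc.agree (h1.2 uC (by decide))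
  refine (tri_total (v := uN) (i := k1) (m := m) (by decide) hm
    (fun s' h => ⟨Exp.fits rfl, ?_⟩) b.1 fun a s' h ha => ⟨Exp.fits rfl, ?_⟩).frame.seq_imp
      fun s2 h2 => ?_
  · change s' gM 0 0 = m
    rw [h gM (by decide)]
    exact hd1.1
  · change s' uR (s' k1 0 0) 0 = _
    rw [ha, h uR (by decide)]
    exact hr1 a
  have hd2 : Dim m n s2 := hd1.agree (h2.2 gM (by decide)) (h2.2 gN (by decide))
  have hX2 : IsT s2 uX (0 : Tb m n) := fun a c => by
    rw [h2.2 uX (by decide)]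
    exact h1.1.2 a c
  refine (imp_rep (R := fun t Y s' => RInv T (bs t) Y s') ?_ (by omega) (Exp.fits rfl)
    ⟨⟨hd2, ?_⟩, ⟨hX2, fun p => le_rfl⟩, ?_, ?_⟩ fun t ht Y _ s' h => ?_).mono
    fun Y _ s' h => h.2.1.1
  · change (s2 uN 0 0).toNat = _
    rw [h2.1.2]
    rfl
  · rw [h2.2 sT (by decide), h1.2 sT (by decide)]
    exact hT
  · rw [hb0]
    exact hr1.agree (h2.2 uR (by decide))
  · rw [hb0]
    exact hc1.agree (h2.2 uC (by decide))
  · obtain ⟨e1, _, hi, hj, hi', hj'⟩ := hstep t ht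
    rw [e1]
    exact imp_round h hx hm hn hi hi' hj hj'

end P328.Deep
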